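import Vale.Agent.P074.SDefs

open MeasureTheory Set Metric
open scoped ENNReal NNReal InnerProductSpace

namespace Vale.Agent.P074

variable {d n : ℕ}

theorem sum_ind {α : Type*} [MeasurableSpace α] (π : Measure α) [IsProbabilityMeasure π]
    (ind : SimpleFunc α ℕ) (N : ℕ) (hind : ∀ x, ind x ≤ N) (Ψ : ℕ → ℝ) :
    ∫ p, Ψ (ind p) ∂π = ∑ i ∈ Finset.range (N + 1), π.real (ind ⁻¹' {i}) * Ψ i := by
  have hm : ∀ i, MeasurableSet (ind ⁻¹' {i}) := fun i => ind.measurableSet_fiber i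
  have huniv : (⋃ i ∈ Finset.range (N + 1), ind ⁻¹' {i}) = univ := by
    rw [eq_univ_iff_forall]
    intro x
    rw [mem_iUnion₂]
    exact ⟨ind x, Finset.mem_range.2 (Nat.lt_succ_of_le (hind x)), rfl⟩
  have hint : Integrable (fun p => Ψ (ind p)) π := by
    have := (ind.map Ψ).integrable_of_isFiniteMeasure (μ := π)
    exact this
  rw [← setIntegral_univ, ← huniv, integral_biUnion_finset _ (fun i _ => hm i) ?_
    (fun i _ => hint.integrableOn)]
  · refine Finset.sum_congr rfl fun i _ => ?_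
    have : ∫ p in ind ⁻¹' {i}, Ψ (ind p) ∂π = ∫ p in ind ⁻¹' {i}, Ψ i ∂π := by
      refine setIntegral_congr_fun (hm i) fun p hp => ?_
      have : ind p = i := hp
      simp only [this]
    rw [this, setIntegral_const, smul_eq_mul]
  · intro i _ j _ hij
    rw [Function.onFun, Set.disjoint_left]
    intro x hx hx'
    exact hij ((show ind x = i from hx).symm.trans (show ind x = j from hx'))

theorem exists_tau (e0 : E d) (he : e0 ≠ 0) (a v : ℕ → E d) (K N : ℕ) {τ0 : ℝ} (hτ : 0 < τ0) :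
    ∃ τ, 0 < τ ∧ τ < τ0 ∧ ∀ i j : ℕ, i ≤ K → j ≤ K → i ≠ j → ∀ k : ℕ, k ≤ N →
      (a i + (τ * i) • e0) + ((k : ℝ) / N) • v i ≠ (a j + (τ * j) • e0) + ((k : ℝ) / N) • v j := by
  classical
  let bad : ℕ × ℕ × ℕ → Set ℝ := fun t => {τ | t.1 ≠ t.2.1 ∧
    (a t.1 + (τ * t.1) • e0) + ((t.2.2 : ℝ) / N) • v t.1
      = (a t.2.1 + (τ * t.2.1) • e0) + ((t.2.2 : ℝ) / N) • v t.2.1}
  have hbad : ∀ t, (bad t).Subsingleton := by
    rintro ⟨i, j, k⟩ s ⟨hij, hs⟩ s' ⟨_, hs'⟩
    simp only at hij hs hs'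
    have h1 : ((s - s') * ((i : ℝ) - j)) • e0 = 0 := by
      have e1 : ((s - s') * ((i : ℝ) - j)) • e0 = ((a i + (s * i) • e0) + ((k : ℝ) / N) • v i
          - ((a j + (s * j) • e0) + ((k : ℝ) / N) • v j))
          - ((a i + (s' * i) • e0) + ((k : ℝ) / N) • v i
          - ((a j + (s' * j) • e0) + ((k : ℝ) / N) • v j)) := by
        module
      rw [e1, hs, hs']
      simp
    rcases smul_eq_zero.1 h1 with h | h
    · rcases mul_eq_zero.1 h with h | h
      · linarith
      · exfalso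
        apply hij
        have : (i : ℝ) = j := by linarith
        exact_mod_cast this
    · exact absurd h he
  let T : Finset (ℕ × ℕ × ℕ) := Finset.range (K + 1) ×ˢ Finset.range (K + 1) ×ˢ Finset.range (N + 1)
  have hfin : (⋃ t ∈ T, bad t).Finite :=
    Set.Finite.biUnion T.finite_toSet fun t _ => (hbad t).finite
  obtain ⟨τ, hτ1, hτ2⟩ := (Set.Ioo_infinite hτ).exists_notMem_finite hfin
  refine ⟨τ, hτ1.1, hτ1.2, ?_⟩
  intro i j hi hj hij k hk heq
  apply hτ2
  rw [mem_iUnion₂]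
  refine ⟨(i, j, k), ?_, hij, heq⟩
  simp only [T, Finset.mem_product, Finset.mem_range]
  omega

theorem exists_net {α : Type*} [PseudoMetricSpace α] {B : Set α} (hB : IsCompact B)
    (hne : B.Nonempty) {ε : ℝ} (hε : 0 < ε) :
    ∃ (e : ℕ → α) (K : ℕ), (∀ k, e k ∈ B) ∧ ∀ x ∈ B, ∃ k ≤ K, dist (e k) x < ε := by
  obtain ⟨t, htB, htf, hcov⟩ := hB.finite_cover_balls hε
  have htne : t.Nonempty := by
    obtain ⟨x, hx⟩ := hne
    obtain ⟨y, hy, _⟩ := mem_iUnion₂.1 (hcov hx)
    exact ⟨y, hy⟩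
  obtain ⟨e, he⟩ := htf.countable.exists_eq_range htne
  have hidx : ∀ x ∈ t, ∃ k, e k = x := by
    intro x hx
    rw [he] at hx
    exact hx
  choose! idx hidx using hidx
  refine ⟨e, htf.toFinset.sup idx, fun k => htB (he ▸ mem_range_self k), ?_⟩
  intro x hx
  obtain ⟨y, hy, hxy⟩ := mem_iUnion₂.1 (hcov hx)
  refine ⟨idx y, Finset.le_sup (htf.mem_toFinset.2 hy), ?_⟩
  rw [hidx y hy, dist_comm]
  exact hxy

theorem atomize (hd : 0 < d) {π : Measure (E d × E d)} [IsProbabilityMeasure π] {M : ℝ}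
    (hM : ∀ᵐ p ∂π, ‖p.1‖ ≤ M ∧ ‖p.2‖ ≤ M) {δ : ℝ} (hδ : 0 < δ) (N : ℕ) :
    ∃ (n : ℕ) (m : Fin n → ℝ) (y v : Fin n → E d), (∀ i, 0 < m i) ∧ ∑ i, m i = 1 ∧
      (∀ i, ‖v i‖ ≤ 2 * M + δ) ∧
      (∀ k : ℕ, k ≤ N → Function.Injective fun i => y i + ((k : ℝ) / N) • v i) ∧
      (∀ (L : ℝ≥0) (ψ : E d → ℝ), LipschitzWith L ψ →
        |(∫ p, ψ p.1 ∂π) - ∑ i, m i * ψ (y i)| ≤ L * δ) ∧
      (∀ (L : ℝ≥0) (ψ : E d → ℝ), LipschitzWith L ψ →
        |(∫ p, ψ p.2 ∂π) - ∑ i, m i * ψ (y i + v i)| ≤ L * δ) ∧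
      ∑ i, m i * ‖v i‖ ^ 2 ≤ (∫ p, ‖p.1 - p.2‖ ^ 2 ∂π) + δ := by
  classical
  have hM0 : 0 ≤ M := by
    obtain ⟨p, hp⟩ := hM.exists
    exact (norm_nonneg _).trans hp.1
  set B : Set (E d × E d) := closedBall 0 M ×ˢ closedBall 0 M with hB
  have hBc : IsCompact B := (isCompact_closedBall _ _).prod (isCompact_closedBall _ _)
  have hBne : B.Nonempty := ⟨(0, 0), by simp [hB, hM0]⟩
  have hMB : ∀ᵐ p ∂π, p ∈ B := by
    filter_upwards [hM] with p hp
    exact ⟨by simpa using hp.1, by simpa using hp.2⟩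
  set ε : ℝ := min (δ / 2) (δ / (8 * M + 1)) with hε
  have hεpos : 0 < ε := lt_min (by positivity) (by positivity)
  have hε1 : ε ≤ δ / 2 := min_le_left _ _
  have hε2 : 8 * M * ε ≤ δ := by
    have h1 : ε ≤ δ / (8 * M + 1) := min_le_right _ _
    have h2 : ε * (8 * M + 1) ≤ δ := by
      rw [le_div_iff₀ (by positivity)] at h1
      exact h1
    nlinarith
  obtain ⟨e, K, heB, hnet⟩ := exists_net hBc hBne hεpos
  have hi0 : ∃ e0 : E d, ‖e0‖ = 1 := by
    have : Nonempty (Fin d) := ⟨⟨0, hd⟩⟩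
    exact ⟨EuclideanSpace.single ⟨0, hd⟩ 1, by simp⟩
  obtain ⟨e0, he0⟩ := hi0
  have he0' : e0 ≠ 0 := by
    rintro rfl
    simp at he0
  obtain ⟨τ, hτ0, hτ1, hτ⟩ := exists_tau e0 he0' (fun i => (e i).1) (fun i => (e i).2 - (e i).1) K N
    (show 0 < δ / 2 / (K + 1) by positivity)
  set ind : SimpleFunc (E d × E d) ℕ := SimpleFunc.nearestPtInd e K with hind
  have hindle : ∀ x, ind x ≤ K := fun x => SimpleFunc.nearestPtInd_le e K x
  have hdist : ∀ x ∈ B, dist (e (ind x)) x < ε := by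
    intro x hx
    obtain ⟨k, hk, hkx⟩ := hnet x hx
    have h1 := SimpleFunc.edist_nearestPt_le e x hk
    have h2 : SimpleFunc.nearestPt e K x = e (ind x) := rfl
    rw [h2, edist_dist, edist_dist, ENNReal.ofReal_le_ofReal_iff dist_nonneg] at h1
    exact h1.trans_lt hkx
  let Y : ℕ → E d := fun i => (e i).1 + (τ * i) • e0
  let V : ℕ → E d := fun i => (e i).2 - (e i).1
  have hτi : ∀ i ≤ K, τ * i ≤ δ / 2 := by
    intro i hi
    have h1 : τ * (K + 1) ≤ δ / 2 := by
      rw [lt_div_iff₀ (by positivity)] at hτ1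
      exact hτ1.le
    have h2 : (i : ℝ) ≤ K + 1 := by
      have : (i : ℝ) ≤ K := by exact_mod_cast hi
      linarith
    calc τ * i ≤ τ * (K + 1) := mul_le_mul_of_nonneg_left h2 hτ0.le
      _ ≤ δ / 2 := h1
  have hsmul : ∀ i ≤ K, ‖(τ * (i : ℝ)) • e0‖ ≤ δ / 2 := by
    intro i hi
    rw [norm_smul, he0, mul_one, Real.norm_eq_abs, abs_of_nonneg (by positivity)]
    exact hτi i hi
  have hY1 : ∀ p ∈ B, dist p.1 (Y (ind p)) ≤ δ := by
    intro p hp
    have h1 : dist p.1 (e (ind p)).1 ≤ ε := by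
      rw [dist_comm]
      exact (le_max_left _ _).trans (hdist p hp).le
    have h2 : dist (e (ind p)).1 (Y (ind p)) ≤ δ / 2 := by
      rw [dist_eq_norm]
      have : (e (ind p)).1 - Y (ind p) = -((τ * ((ind p : ℕ) : ℝ)) • e0) := by
        simp [Y]
      rw [this, norm_neg]
      exact hsmul _ (hindle p)
    linarith [dist_triangle p.1 (e (ind p)).1 (Y (ind p))]
  have hY2 : ∀ p ∈ B, dist p.2 (Y (ind p) + V (ind p)) ≤ δ := by
    intro p hp
    have h1 : dist p.2 (e (ind p)).2 ≤ ε := by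
      rw [dist_comm]
      exact (le_max_right _ _).trans (hdist p hp).le
    have h2 : dist (e (ind p)).2 (Y (ind p) + V (ind p)) ≤ δ / 2 := by
      rw [dist_eq_norm]
      have : (e (ind p)).2 - (Y (ind p) + V (ind p)) = -((τ * ((ind p : ℕ) : ℝ)) • e0) := by
        simp only [Y, V]
        abel
      rw [this, norm_neg]
      exact hsmul _ (hindle p)
    linarith [dist_triangle p.2 (e (ind p)).2 (Y (ind p) + V (ind p))]
  let s : Finset ℕ := (Finset.range (K + 1)).filter fun i => 0 < π.real (ind ⁻¹' {i})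
  let eq := s.equivFin
  let idx : Fin s.card → ℕ := fun j => (eq.symm j : ℕ)
  have hidx_mem : ∀ j, idx j ∈ s := fun j => (eq.symm j).2
  have hidx_le : ∀ j, idx j ≤ K := fun j => by
    have := (Finset.mem_filter.1 (hidx_mem j)).1
    exact Nat.lt_succ_iff.1 (Finset.mem_range.1 this)
  have hidx_inj : Function.Injective idx := fun i j h => eq.symm.injective (Subtype.ext h)
  have hsum : ∀ Ψ : ℕ → ℝ, ∑ j, π.real (ind ⁻¹' {idx j}) * Ψ (idx j) = ∫ p, Ψ (ind p) ∂π := by
    intro Ψ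
    rw [sum_ind π ind K hindle Ψ]
    have h1 : ∑ j, π.real (ind ⁻¹' {idx j}) * Ψ (idx j)
        = ∑ i : s, π.real (ind ⁻¹' {(i : ℕ)}) * Ψ i :=
      Equiv.sum_comp eq.symm (fun i : s => π.real (ind ⁻¹' {(i : ℕ)}) * Ψ i)
    rw [h1, Finset.sum_coe_sort s (fun i => π.real (ind ⁻¹' {i}) * Ψ i), Finset.sum_filter]
    refine Finset.sum_congr rfl fun i _ => ?_
    split_ifs with h
    · rfl
    · have : π.real (ind ⁻¹' {i}) = 0 := le_antisymm (not_lt.1 h) measureReal_nonneg
      rw [this, zero_mul]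
  have hintg : ∀ F : E d × E d → ℝ, Continuous F → Integrable F π := by
    intro F hF
    obtain ⟨C, hC⟩ := hBc.exists_bound_of_continuousOn hF.continuousOn
    refine Integrable.of_bound hF.aestronglyMeasurable C ?_
    filter_upwards [hMB] with p hp
    exact hC p hp
  have hints : ∀ Ψ : ℕ → ℝ, Integrable (fun p => Ψ (ind p)) π := fun Ψ =>
    (ind.map Ψ).integrable_of_isFiniteMeasure (μ := π)
  refine ⟨s.card, fun j => π.real (ind ⁻¹' {idx j}), fun j => Y (idx j), fun j => V (idx j),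
    ?_, ?_, ?_, ?_, ?_, ?_, ?_⟩
  · intro j
    exact (Finset.mem_filter.1 (hidx_mem j)).2
  · have := hsum (fun _ => 1)
    simpa using this
  · intro j
    have h1 := heB (idx j)
    have h2 : ‖(e (idx j)).1‖ ≤ M := by simpa using h1.1
    have h3 : ‖(e (idx j)).2‖ ≤ M := by simpa using h1.2
    calc ‖V (idx j)‖ ≤ ‖(e (idx j)).2‖ + ‖(e (idx j)).1‖ := norm_sub_le _ _
      _ ≤ 2 * M + δ := by linarith
  · intro k hk i j hij
    by_contra hne
    exact hτ (idx i) (idx j) (hidx_le i) (hidx_le j) (fun h => hne (hidx_inj h)) k hk hij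
  · intro L ψ hψ
    have ii1 : Integrable (fun p : E d × E d => ψ p.1) π :=
      hintg _ (hψ.continuous.comp continuous_fst)
    have ii2 : Integrable (fun p => ψ (Y (ind p))) π := hints (fun i => ψ (Y i))
    rw [hsum (fun i => ψ (Y i)), ← integral_sub ii1 ii2]
    refine (abs_integral_le_integral_abs).trans ?_
    calc ∫ p, |ψ p.1 - ψ (Y (ind p))| ∂π ≤ ∫ _, (L : ℝ) * δ ∂π := by
          refine integral_mono_ae ?_ (integrable_const _) ?_
          · exact (ii1.sub ii2).abs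
          · filter_upwards [hMB] with p hp
            rw [← Real.dist_eq]
            exact (hψ.dist_le_mul _ _).trans (mul_le_mul_of_nonneg_left (hY1 p hp) L.2)
      _ = L * δ := by simp
  · intro L ψ hψ
    have ii1 : Integrable (fun p : E d × E d => ψ p.2) π :=
      hintg _ (hψ.continuous.comp continuous_snd)
    have ii2 : Integrable (fun p => ψ (Y (ind p) + V (ind p))) π := hints (fun i => ψ (Y i + V i))
    rw [hsum (fun i => ψ (Y i + V i)), ← integral_sub ii1 ii2]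
    refine (abs_integral_le_integral_abs).trans ?_
    calc ∫ p, |ψ p.2 - ψ (Y (ind p) + V (ind p))| ∂π ≤ ∫ _, (L : ℝ) * δ ∂π := by
          refine integral_mono_ae ?_ (integrable_const _) ?_
          · exact (ii1.sub ii2).abs
          · filter_upwards [hMB] with p hp
            rw [← Real.dist_eq]
            exact (hψ.dist_le_mul _ _).trans (mul_le_mul_of_nonneg_left (hY2 p hp) L.2)
      _ = L * δ := by simp
  · rw [hsum (fun i => ‖V i‖ ^ 2)]
    have hcont : Continuous fun p : E d × E d => ‖p.1 - p.2‖ ^ 2 := by fun_prop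
    calc ∫ p, ‖V (ind p)‖ ^ 2 ∂π ≤ ∫ p, (‖p.1 - p.2‖ ^ 2 + δ) ∂π := by
          refine integral_mono_ae (hints (fun i => ‖V i‖ ^ 2))
            ((hintg _ hcont).add (integrable_const _)) ?_
          filter_upwards [hMB] with p hp
          have h1 : ‖p.1‖ ≤ M := by simpa using hp.1
          have h2 : ‖p.2‖ ≤ M := by simpa using hp.2
          have h3 := heB (ind p)
          have h4 : ‖(e (ind p)).1‖ ≤ M := by simpa using h3.1
          have h5 : ‖(e (ind p)).2‖ ≤ M := by simpa using h3.2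
          have h6 : ‖V (ind p)‖ ≤ 2 * M := by
            have := norm_sub_le (e (ind p)).2 (e (ind p)).1
            simp only [V]
            linarith
          have h7 : ‖p.1 - p.2‖ ≤ 2 * M := by
            have := norm_sub_le p.1 p.2
            linarith
          have h8 : ‖V (ind p)‖ ≤ ‖p.1 - p.2‖ + 2 * ε := by
            have a1 : dist (e (ind p)).1 p.1 ≤ ε := (le_max_left _ _).trans (hdist p hp).le
            have a2 : dist (e (ind p)).2 p.2 ≤ ε := (le_max_right _ _).trans (hdist p hp).le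
            have a3 : V (ind p) = ((e (ind p)).2 - p.2) - ((e (ind p)).1 - p.1) - (p.1 - p.2) := by
              simp only [V]
              abel
            rw [dist_eq_norm] at a1 a2
            calc ‖V (ind p)‖ = ‖((e (ind p)).2 - p.2) - ((e (ind p)).1 - p.1) - (p.1 - p.2)‖ := by
                  rw [a3]
              _ ≤ ‖((e (ind p)).2 - p.2) - ((e (ind p)).1 - p.1)‖ + ‖p.1 - p.2‖ := norm_sub_le _ _
              _ ≤ (‖(e (ind p)).2 - p.2‖ + ‖(e (ind p)).1 - p.1‖) + ‖p.1 - p.2‖ := by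
                  gcongr
                  exact norm_sub_le _ _
              _ ≤ ‖p.1 - p.2‖ + 2 * ε := by linarith
          have n1 := norm_nonneg (V (ind p))
          have n2 := norm_nonneg (p.1 - p.2)
          show ‖V (ind p)‖ ^ 2 ≤ ‖p.1 - p.2‖ ^ 2 + δ
          have h9 : ‖V (ind p)‖ ^ 2 - ‖p.1 - p.2‖ ^ 2
              = (‖V (ind p)‖ - ‖p.1 - p.2‖) * (‖V (ind p)‖ + ‖p.1 - p.2‖) := by ring
          have h10 : (‖V (ind p)‖ - ‖p.1 - p.2‖) * (‖V (ind p)‖ + ‖p.1 - p.2‖)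
              ≤ (2 * ε) * (4 * M) := by
            calc _ ≤ (2 * ε) * (‖V (ind p)‖ + ‖p.1 - p.2‖) :=
                  mul_le_mul_of_nonneg_right (by linarith) (by positivity)
              _ ≤ _ := mul_le_mul_of_nonneg_left (by linarith) (by positivity)
          nlinarith
      _ = (∫ p, ‖p.1 - p.2‖ ^ 2 ∂π) + δ := by
          rw [integral_add (hintg _ hcont) (integrable_const _)]
          simp

end Vale.Agent.P074
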