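import Mathlib

/-!
# The Prékopa–Leindler inequality at the midpoint
-/

open MeasureTheory Set Filter Topology
open scoped ENNReal NNReal

namespace Vale.Agent.P074

/-! ### Dimension one: sets -/

theorem bm1_compact {A B C : Set ℝ} (hA : IsCompact A) (hB : IsCompact B) (hAn : A.Nonempty)
    (hBn : B.Nonempty) (h : ∀ a ∈ A, ∀ b ∈ B, (a + b) / 2 ∈ C) :
    volume A + volume B ≤ 2 * volume C := by
  obtain ⟨a1, ha1, hamax⟩ := hA.exists_isGreatest hAn
  obtain ⟨b0, hb0, hbmin⟩ := hB.exists_isLeast hBn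
  set C2 : Set ℝ := ((1 / 2 : ℝ) * ·) ⁻¹' C with hC2
  have hvol : volume C2 = 2 * volume C := by
    rw [hC2, Real.volume_preimage_mul_left (by norm_num)]
    norm_num
  set A' : Set ℝ := (fun t => t - b0) ⁻¹' A with hA'
  set B' : Set ℝ := (fun t => t - a1) ⁻¹' B with hB'
  have hvA : volume A' = volume A := by
    have := (measurePreserving_sub_right (volume : Measure ℝ) b0).measure_preimage
      hA.measurableSet.nullMeasurableSet
    exact this
  have hvB : volume B' = volume B := by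
    have := (measurePreserving_sub_right (volume : Measure ℝ) a1).measure_preimage
      hB.measurableSet.nullMeasurableSet
    exact this
  have hmB : MeasurableSet B' := (measurable_id.sub_const a1) hB.measurableSet
  have hsub : A' ∪ B' ⊆ C2 := by
    rintro t (ht | ht)
    · have := h (t - b0) ht b0 hb0
      simp only [hC2, mem_preimage]
      convert this using 1
      ring
    · have := h a1 ha1 (t - a1) ht
      simp only [hC2, mem_preimage]
      convert this using 1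
      ring
  have hinter : volume (A' ∩ B') = 0 := by
    refine measure_mono_null (t := {a1 + b0}) ?_ Real.volume_singleton
    rintro t ⟨h1, h2⟩
    have e1 : t - b0 ≤ a1 := hamax h1
    have e2 : b0 ≤ t - a1 := hbmin h2
    rw [mem_singleton_iff]
    linarith
  calc volume A + volume B = volume A' + volume B' := by rw [hvA, hvB]
    _ = volume (A' ∪ B') + volume (A' ∩ B') := (measure_union_add_inter A' hmB).symm
    _ = volume (A' ∪ B') := by rw [hinter, add_zero]
    _ ≤ volume C2 := measure_mono hsub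
    _ = 2 * volume C := hvol

theorem bm1 {A B C : Set ℝ} (hA : MeasurableSet A) (hB : MeasurableSet B) (hAn : A.Nonempty)
    (hBn : B.Nonempty) (h : ∀ a ∈ A, ∀ b ∈ B, (a + b) / 2 ∈ C) :
    volume A + volume B ≤ 2 * volume C := by
  obtain ⟨a, ha⟩ := hAn
  obtain ⟨b, hb⟩ := hBn
  rw [hA.measure_eq_iSup_isCompact, hB.measure_eq_iSup_isCompact]
  simp only [iSup_and']
  refine ENNReal.biSup_add_biSup_le' ⟨∅, by simp⟩ ⟨∅, by simp⟩ fun K hK L hL => ?_
  have hK' : IsCompact (insert a K) := hK.2.insert a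
  have hL' : IsCompact (insert b L) := hL.2.insert b
  have h1 := bm1_compact hK' hL' (insert_nonempty _ _) (insert_nonempty _ _) (C := C)
    fun x hx y hy => h x (insert_subset ha hK.1 hx) y (insert_subset hb hL.1 hy)
  exact (add_le_add (measure_mono (subset_insert _ _)) (measure_mono (subset_insert _ _))).trans h1

/-! ### Dimension one: functions -/

theorem pl1_real {f g h : ℝ → ℝ} (hf : Measurable f) (hg : Measurable g) (hh : Measurable h)
    (hf0 : ∀ x, 0 ≤ f x) (hg0 : ∀ x, 0 ≤ g x) (hh0 : ∀ x, 0 ≤ h x) (hf1 : ∀ x, f x ≤ 1)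
    (hg1 : ∀ x, g x ≤ 1) (hfs : ∀ s < 1, ∃ x, s < f x) (hgs : ∀ s < 1, ∃ x, s < g x)
    (H : ∀ x y, f x * g y ≤ h ((x + y) / 2) ^ 2) :
    (∫⁻ x, ENNReal.ofReal (f x)) + (∫⁻ x, ENNReal.ofReal (g x)) ≤
      2 * ∫⁻ x, ENNReal.ofReal (h x) := by
  rw [lintegral_eq_lintegral_meas_lt _ (Eventually.of_forall hf0) hf.aemeasurable,
    lintegral_eq_lintegral_meas_lt _ (Eventually.of_forall hg0) hg.aemeasurable,
    lintegral_eq_lintegral_meas_lt _ (Eventually.of_forall hh0) hh.aemeasurable]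
  have hmeas : ∀ {u : ℝ → ℝ}, Measurable fun t : ℝ => volume {a : ℝ | t < u a} := fun {u} =>
    Antitone.measurable fun s t hst => measure_mono fun a (ha : t < u a) => lt_of_le_of_lt hst ha
  rw [← lintegral_add_left hmeas, ← lintegral_const_mul _ hmeas]
  refine setLIntegral_mono' measurableSet_Ioi fun t ht => ?_
  have ht0 : (0 : ℝ) < t := ht
  rcases lt_or_ge t 1 with ht1 | ht1
  · refine bm1 (measurableSet_lt measurable_const hf) (measurableSet_lt measurable_const hg)
      (hfs t ht1) (hgs t ht1) fun a ha b hb => ?_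
    have ha' : t < f a := ha
    have hb' : t < g b := hb
    have h1 : t ^ 2 < h ((a + b) / 2) ^ 2 := by
      refine lt_of_lt_of_le ?_ (H a b)
      nlinarith
    exact lt_of_pow_lt_pow_left₀ 2 (hh0 _) h1
  · have e1 : {a : ℝ | t < f a} = ∅ := by
      rw [eq_empty_iff_forall_notMem]
      exact fun a (ha : t < f a) => absurd (hf1 a) (not_le.2 (lt_of_le_of_lt ht1 ha))
    have e2 : {a : ℝ | t < g a} = ∅ := by
      rw [eq_empty_iff_forall_notMem]
      exact fun a (ha : t < g a) => absurd (hg1 a) (not_le.2 (lt_of_le_of_lt ht1 ha))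
    rw [e1, e2]
    simp

theorem four_mul_le_sq (x y : ℝ≥0∞) : 4 * (x * y) ≤ (x + y) ^ 2 := by
  rcases eq_or_ne x ∞ with rfl | hx
  · simp
  rcases eq_or_ne y ∞ with rfl | hy
  · simp
  lift x to ℝ≥0 using hx
  lift y to ℝ≥0 using hy
  norm_cast
  rw [← NNReal.coe_le_coe]
  push_cast
  nlinarith [sq_nonneg ((x : ℝ) - y)]

theorem exists_lt_div_iSup {f : ℝ → ℝ≥0∞} (h0 : (⨆ x, f x) ≠ 0) (htop : (⨆ x, f x) ≠ ∞)
    {s : ℝ} (hs : s < 1) : ∃ x, s < (f x / ⨆ x, f x).toReal := by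
  rcases lt_or_ge s 0 with hs0 | hs0
  · exact ⟨0, lt_of_lt_of_le hs0 ENNReal.toReal_nonneg⟩
  have h1 : ENNReal.ofReal s * (⨆ x, f x) < ⨆ x, f x := by
    have : ENNReal.ofReal s < 1 := by rwa [ENNReal.ofReal_lt_one]
    calc ENNReal.ofReal s * (⨆ x, f x) < 1 * ⨆ x, f x :=
          ENNReal.mul_lt_mul_left h0 htop this
      _ = _ := one_mul _
  obtain ⟨x, hx⟩ := lt_iSup_iff.1 h1
  refine ⟨x, ?_⟩
  have hfx : f x ≠ ∞ := ne_top_of_le_ne_top htop (le_iSup f x)
  have h2 : ENNReal.ofReal s < f x / ⨆ x, f x := by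
    rwa [ENNReal.lt_div_iff_mul_lt (Or.inl h0) (Or.inl htop)]
  exact (ENNReal.ofReal_lt_iff_lt_toReal hs0 (ENNReal.div_ne_top hfx h0)).1 h2

theorem pl1_bdd {f g h : ℝ → ℝ≥0∞} (hf : Measurable f) (hg : Measurable g) (hh : Measurable h)
    (hfN : (⨆ x, f x) ≠ ∞) (hgN : (⨆ x, g x) ≠ ∞)
    (H : ∀ x y, f x * g y ≤ h ((x + y) / 2) ^ 2) :
    (∫⁻ x, f x) * (∫⁻ x, g x) ≤ (∫⁻ x, h x) ^ 2 := by
  rcases eq_or_ne (⨆ x, f x) 0 with ha0 | ha0
  · have : f = 0 := by
      funext x
      exact le_antisymm ((le_iSup f x).trans ha0.le) zero_le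
    subst this; simp
  rcases eq_or_ne (⨆ x, g x) 0 with hb0 | hb0
  · have : g = 0 := by
      funext x
      exact le_antisymm ((le_iSup g x).trans hb0.le) zero_le
    subst this; simp
  have hfa : ∀ x, f x ≤ ⨆ x, f x := le_iSup f
  have hgb : ∀ x, g x ≤ ⨆ x, g x := le_iSup g
  have hfs : ∀ s < 1, ∃ x, s < (f x / ⨆ x, f x).toReal := fun s hs =>
    exists_lt_div_iSup ha0 hfN hs
  have hgs : ∀ s < 1, ∃ x, s < (g x / ⨆ x, g x).toReal := fun s hs =>
    exists_lt_div_iSup hb0 hgN hs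
  generalize (⨆ x, f x) = a at *
  generalize (⨆ x, g x) = b at *
  obtain ⟨c, hc⟩ : ∃ c : ℝ≥0∞, c ^ 2 = a * b := by
    refine ⟨(a * b) ^ (1 / 2 : ℝ), ?_⟩
    rw [← ENNReal.rpow_natCast, ← ENNReal.rpow_mul]
    norm_num
  have hab0 : a * b ≠ 0 := mul_ne_zero ha0 hb0
  have habt : a * b ≠ ∞ := ENNReal.mul_ne_top hfN hgN
  have hc0 : c ≠ 0 := by rintro rfl; exact hab0 (by rw [← hc]; simp)
  have hct : c ≠ ∞ := by rintro rfl; exact habt (by rw [← hc]; simp)
  have f1 : ∀ x, f x / a ≤ 1 := fun x => ENNReal.div_le_of_le_mul (by rw [one_mul]; exact hfa x)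
  have g1 : ∀ x, g x / b ≤ 1 := fun x => ENNReal.div_le_of_le_mul (by rw [one_mul]; exact hgb x)
  have h1 : ∀ x, min (h x / c) 1 ≠ ∞ := fun x => ne_top_of_le_ne_top ENNReal.one_ne_top (min_le_right _ _)
  have key := pl1_real (f := fun x => (f x / a).toReal) (g := fun x => (g x / b).toReal)
    (h := fun x => (min (h x / c) 1).toReal) (hf.div_const a).ennreal_toReal
    (hg.div_const b).ennreal_toReal ((hh.div_const c).min measurable_const).ennreal_toReal
    (fun _ => ENNReal.toReal_nonneg) (fun _ => ENNReal.toReal_nonneg)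
    (fun _ => ENNReal.toReal_nonneg)
    (fun x => ENNReal.toReal_le_of_le_ofReal zero_le_one (by simpa using f1 x))
    (fun x => ENNReal.toReal_le_of_le_ofReal zero_le_one (by simpa using g1 x)) hfs hgs
    (by
      intro x y
      rw [← ENNReal.toReal_mul, ← ENNReal.toReal_pow]
      refine ENNReal.toReal_mono (ENNReal.pow_ne_top (h1 _)) ?_
      have e1 : f x / a * (g y / b) ≤ (h ((x + y) / 2) / c) ^ 2 := by
        rw [ENNReal.div_eq_inv_mul, ENNReal.div_eq_inv_mul, ENNReal.div_eq_inv_mul, mul_pow,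
          ← ENNReal.inv_pow, hc]
        calc a⁻¹ * f x * (b⁻¹ * g y) = (a⁻¹ * b⁻¹) * (f x * g y) := by ring
          _ = (a * b)⁻¹ * (f x * g y) := by rw [ENNReal.mul_inv (Or.inl ha0) (Or.inl hfN)]
          _ ≤ (a * b)⁻¹ * h ((x + y) / 2) ^ 2 := by gcongr; exact H x y
      have e2 : f x / a * (g y / b) ≤ 1 := mul_le_one' (f1 x) (g1 y)
      rcases le_total (h ((x + y) / 2) / c) 1 with h3 | h3
      · rw [min_eq_left h3]; exact e1
      · rw [min_eq_right h3]; simpa using e2)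
  have k1 : ∫⁻ x, ENNReal.ofReal (f x / a).toReal = (∫⁻ x, f x) / a := by
    rw [div_eq_mul_inv, ← lintegral_mul_const _ hf]
    refine lintegral_congr fun x => ?_
    rw [ENNReal.ofReal_toReal (ne_top_of_le_ne_top ENNReal.one_ne_top (f1 x)), div_eq_mul_inv]
  have k2 : ∫⁻ x, ENNReal.ofReal (g x / b).toReal = (∫⁻ x, g x) / b := by
    rw [div_eq_mul_inv, ← lintegral_mul_const _ hg]
    refine lintegral_congr fun x => ?_
    rw [ENNReal.ofReal_toReal (ne_top_of_le_ne_top ENNReal.one_ne_top (g1 x)), div_eq_mul_inv]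
  have k3 : ∫⁻ x, ENNReal.ofReal (min (h x / c) 1).toReal ≤ (∫⁻ x, h x) / c := by
    rw [div_eq_mul_inv, ← lintegral_mul_const _ hh]
    refine lintegral_mono fun x => ?_
    rw [ENNReal.ofReal_toReal (h1 x), ← div_eq_mul_inv]
    exact min_le_left _ _
  rw [k1, k2] at key
  have key2 : (∫⁻ x, f x) / a + (∫⁻ x, g x) / b ≤ 2 * ((∫⁻ x, h x) / c) :=
    key.trans (by gcongr)
  have k4 : 4 * (((∫⁻ x, f x) / a) * ((∫⁻ x, g x) / b)) ≤ 4 * ((∫⁻ x, h x) / c) ^ 2 := by
    refine (four_mul_le_sq _ _).trans ?_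
    calc ((∫⁻ x, f x) / a + (∫⁻ x, g x) / b) ^ 2 ≤ (2 * ((∫⁻ x, h x) / c)) ^ 2 := by gcongr
      _ = 4 * ((∫⁻ x, h x) / c) ^ 2 := by rw [mul_pow]; norm_num
  have k5 : ((∫⁻ x, f x) / a) * ((∫⁻ x, g x) / b) ≤ ((∫⁻ x, h x) / c) ^ 2 :=
    (ENNReal.mul_le_mul_iff_right (by norm_num) (by norm_num)).1 k4
  calc (∫⁻ x, f x) * (∫⁻ x, g x)
      = (((∫⁻ x, f x) / a) * a) * (((∫⁻ x, g x) / b) * b) := by
        rw [ENNReal.div_mul_cancel ha0 hfN, ENNReal.div_mul_cancel hb0 hgN]
    _ = (((∫⁻ x, f x) / a) * ((∫⁻ x, g x) / b)) * (a * b) := by ring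
    _ ≤ ((∫⁻ x, h x) / c) ^ 2 * c ^ 2 := by rw [hc]; gcongr
    _ = (∫⁻ x, h x) ^ 2 := by rw [← mul_pow, ENNReal.div_mul_cancel hc0 hct]

/-- The Prékopa–Leindler inequality on the line. -/
theorem pl1 {f g h : ℝ → ℝ≥0∞} (hf : Measurable f) (hg : Measurable g) (hh : Measurable h)
    (H : ∀ x y, f x * g y ≤ h ((x + y) / 2) ^ 2) :
    (∫⁻ x, f x) * (∫⁻ x, g x) ≤ (∫⁻ x, h x) ^ 2 := by
  have htr : ∀ {u : ℝ → ℝ≥0∞}, Measurable u →
      ∫⁻ x, u x = ⨆ N : ℕ, ∫⁻ x, min (u x) N := by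
    intro u hu
    rw [← lintegral_iSup (fun N => hu.min measurable_const)]
    · refine lintegral_congr fun x => ?_
      refine le_antisymm ?_ (iSup_le fun N => min_le_left _ _)
      rcases eq_or_ne (u x) ∞ with h | h
      · rw [h]
        simp only [min_eq_right le_top]
        exact ENNReal.iSup_natCast.ge
      · obtain ⟨N, hN⟩ := ENNReal.exists_nat_gt h
        exact (le_of_eq (min_eq_left hN.le).symm).trans (le_iSup (fun N : ℕ => min (u x) N) N)
    · intro N M hNM x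
      exact min_le_min_left _ (by exact_mod_cast hNM)
  rw [htr hf, htr hg, ENNReal.iSup_mul]
  refine iSup_le fun N => ?_
  rw [ENNReal.mul_iSup]
  refine iSup_le fun M => ?_
  refine pl1_bdd (hf.min measurable_const) (hg.min measurable_const) hh ?_ ?_ fun x y => ?_
  · exact ne_top_of_le_ne_top (ENNReal.natCast_ne_top N) (iSup_le fun x => min_le_right _ _)
  · exact ne_top_of_le_ne_top (ENNReal.natCast_ne_top M) (iSup_le fun x => min_le_right _ _)
  · exact (mul_le_mul' (min_le_left _ _) (min_le_left _ _)).trans (H x y)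

/-! ### Higher dimension -/

theorem pl_pi : ∀ (n : ℕ) {f g h : (Fin n → ℝ) → ℝ≥0∞}, Measurable f → Measurable g →
    Measurable h → (∀ x y, f x * g y ≤ h ((1 / 2 : ℝ) • (x + y)) ^ 2) →
    (∫⁻ x, f x) * (∫⁻ x, g x) ≤ (∫⁻ x, h x) ^ 2 := by
  intro n
  induction n with
  | zero =>
    intro f g h hf hg hh H
    have e : ∀ u : (Fin 0 → ℝ) → ℝ≥0∞, ∫⁻ x, u x = u 0 := by
      intro u
      rw [volume_pi, Measure.pi_of_empty (x := 0)]
      simp
    rw [e, e, e]
    have := H 0 0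
    simpa using this
  | succ n ih =>
    intro f g h hf hg hh H
    set e := MeasurableEquiv.piFinSuccAbove (fun _ : Fin (n + 1) => ℝ) 0 with he
    have hpres := (volume_preserving_piFinSuccAbove (fun _ : Fin (n + 1) => ℝ) 0).symm
    have hint : ∀ {u : (Fin (n + 1) → ℝ) → ℝ≥0∞}, Measurable u →
        ∫⁻ x, u x = ∫⁻ t : ℝ, ∫⁻ x : Fin n → ℝ, u (e.symm (t, x)) := by
      intro u hu
      rw [← hpres.lintegral_comp hu]
      rw [Measure.volume_eq_prod, lintegral_prod]
      exact (hu.comp e.symm.measurable).aemeasurable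
    rw [hint hf, hint hg, hint hh]
    have hmeas : ∀ {u : (Fin (n + 1) → ℝ) → ℝ≥0∞}, Measurable u →
        Measurable fun p : ℝ × (Fin n → ℝ) => u (e.symm p) := fun hu => hu.comp e.symm.measurable
    refine pl1 (hmeas hf).lintegral_prod_right' (hmeas hg).lintegral_prod_right'
      (hmeas hh).lintegral_prod_right' fun s t => ?_
    refine ih ((hmeas hf).comp measurable_prodMk_left) ((hmeas hg).comp measurable_prodMk_left)
      ((hmeas hh).comp measurable_prodMk_left) fun x y => ?_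
    have h1 := H (e.symm (s, x)) (e.symm (t, y))
    have h2 : (1 / 2 : ℝ) • (e.symm (s, x) + e.symm (t, y)) =
        e.symm ((s + t) / 2, (1 / 2 : ℝ) • (x + y)) := by
      rw [MeasurableEquiv.eq_symm_apply]
      ext1
      · simp [he, MeasurableEquiv.piFinSuccAbove]
        ring
      · ext i
        simp [he, MeasurableEquiv.piFinSuccAbove, Fin.tail, Fin.consEquiv]
        ring
    rw [h2] at h1
    exact h1

end Vale.Agent.P074
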