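import Vale.Agent.P074.SDefs
import Vale.Agent.P074.PL

/-!
# The Brunn–Minkowski inequality at the midpoint
-/

open MeasureTheory Set Metric
open scoped ENNReal NNReal InnerProductSpace

namespace Vale.Agent.P074

variable {d : ℕ}

/-- The Prékopa–Leindler inequality at the midpoint, in Euclidean space. -/
theorem prekopa_leindler {f g h : E d → ℝ≥0∞} (hf : Measurable f) (hg : Measurable g)
    (hh : Measurable h) (H : ∀ x y, f x * g y ≤ h ((1 / 2 : ℝ) • (x + y)) ^ 2) :
    (∫⁻ x, f x) * (∫⁻ x, g x) ≤ (∫⁻ x, h x) ^ 2 := by
  have hp := EuclideanSpace.volume_preserving_symm_measurableEquiv_toLp (Fin d)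
  set e := MeasurableEquiv.toLp 2 (Fin d → ℝ) with he
  have hint : ∀ {u : E d → ℝ≥0∞}, Measurable u → ∫⁻ x, u x = ∫⁻ x : Fin d → ℝ, u (e x) :=
    fun {u} hu => (hp.symm.lintegral_comp hu).symm
  rw [hint hf, hint hg, hint hh]
  refine pl_pi d (hf.comp e.measurable) (hg.comp e.measurable) (hh.comp e.measurable)
    fun x y => ?_
  exact H (e x) (e y)

/-- **Brunn–Minkowski** (multiplicative form, midpoint) for compact sets. -/
theorem bm_mid {P Q : Set (E d)} (hP : IsCompact P) (hQ : IsCompact Q) :
    volume P * volume Q ≤ volume (mid P Q) ^ 2 := by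
  have hm : IsCompact (mid P Q) := (hP.prod hQ).image (by fun_prop)
  have h := prekopa_leindler (f := P.indicator fun _ => 1) (g := Q.indicator fun _ => 1)
    (h := (mid P Q).indicator fun _ => 1) (measurable_const.indicator hP.measurableSet)
    (measurable_const.indicator hQ.measurableSet) (measurable_const.indicator hm.measurableSet)
    (fun x y => by
      by_cases hx : x ∈ P
      · by_cases hy : y ∈ Q
        · have hz : (1 / 2 : ℝ) • (x + y) ∈ mid P Q := ⟨(x, y), ⟨hx, hy⟩, rfl⟩
          rw [indicator_of_mem hx, indicator_of_mem hy, indicator_of_mem hz]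
          simp
        · rw [indicator_of_notMem hy]; simp
      · rw [indicator_of_notMem hx]; simp)
  rwa [lintegral_indicator_const hP.measurableSet, lintegral_indicator_const hQ.measurableSet,
    lintegral_indicator_const hm.measurableSet, one_mul, one_mul, one_mul] at h

end Vale.Agent.P074
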