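import Vale.Agent.P074.Stability

/-!
# Bounded measurable functions and shifts
-/

open MeasureTheory Set Metric
open scoped ENNReal NNReal InnerProductSpace

namespace Vale.Agent.P074

variable {d : ℕ}

/-- measurable and bounded on `K` -/
def BM (K : Set (E d)) (F : E d → ℝ) : Prop := Measurable F ∧ ∃ B, ∀ x ∈ K, |F x| ≤ B

namespace BM

variable {K : Set (E d)} {F G : E d → ℝ}

theorem add (hF : BM K F) (hG : BM K G) : BM K (fun x => F x + G x) := by
  obtain ⟨h1, B1, hB1⟩ := hF
  obtain ⟨h2, B2, hB2⟩ := hG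
  exact ⟨h1.add h2, B1 + B2, fun x hx => (abs_add_le _ _).trans (add_le_add (hB1 x hx) (hB2 x hx))⟩

theorem sub (hF : BM K F) (hG : BM K G) : BM K (fun x => F x - G x) := by
  obtain ⟨h1, B1, hB1⟩ := hF
  obtain ⟨h2, B2, hB2⟩ := hG
  exact ⟨h1.sub h2, B1 + B2, fun x hx => (abs_sub _ _).trans (add_le_add (hB1 x hx) (hB2 x hx))⟩

theorem neg (hF : BM K F) : BM K (fun x => - F x) := by
  obtain ⟨h1, B1, hB1⟩ := hF
  exact ⟨h1.neg, B1, fun x hx => by rw [abs_neg]; exact hB1 x hx⟩

theorem mul (hF : BM K F) (hG : BM K G) : BM K (fun x => F x * G x) := by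
  obtain ⟨h1, B1, hB1⟩ := hF
  obtain ⟨h2, B2, hB2⟩ := hG
  refine ⟨h1.mul h2, B1 * B2, fun x hx => ?_⟩
  rw [abs_mul]
  exact mul_le_mul (hB1 x hx) (hB2 x hx) (abs_nonneg _) ((abs_nonneg _).trans (hB1 x hx))

theorem sq (hF : BM K F) : BM K (fun x => F x ^ 2) := by
  have := hF.mul hF
  simpa only [pow_two] using this

theorem const (c : ℝ) : BM K (fun _ => c) := ⟨measurable_const, |c|, fun _ _ => le_rfl⟩

theorem const_mul (c : ℝ) (hF : BM K F) : BM K (fun x => c * F x) := (const c).mul hF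

theorem of_le {B : ℝ} (hF : Measurable F) (h : ∀ x, |F x| ≤ B) : BM K F :=
  ⟨hF, B, fun x _ => h x⟩

theorem of_continuous (hK : IsCompact K) (hF : Continuous F) : BM K F := by
  obtain ⟨B, hB⟩ := hK.exists_bound_of_continuousOn hF.continuousOn
  exact ⟨hF.measurable, B, hB⟩

theorem integrableOn (hF : BM K F) (hK : IsCompact K) : IntegrableOn F K := by
  obtain ⟨h1, B, hB⟩ := hF
  refine Measure.integrableOn_of_bounded (M := B) hK.measure_lt_top.ne h1.aestronglyMeasurable ?_
  filter_upwards [ae_restrict_mem hK.measurableSet] with x hx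
  exact hB x hx

end BM

/-- change of variables for functions supported in `K ∩ (K - h)` -/
theorem shift_integral {K : Set (E d)} {h : E d} {G : E d → ℝ}
    (hG : ∀ x, ¬ (x ∈ K ∧ x + h ∈ K) → G x = 0) (F : E d → ℝ) :
    ∫ x in K, F x * G (x - h) = ∫ x in K, F (x + h) * G x := by
  rw [setIntegral_eq_integral_of_forall_compl_eq_zero,
    setIntegral_eq_integral_of_forall_compl_eq_zero]
  · rw [← integral_add_right_eq_self (fun x => F x * G (x - h)) h]
    simp
  · intro x hx
    rw [hG x (fun h => hx h.1), mul_zero]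
  · intro x hx
    rw [hG (x - h) (fun h' => hx (by simpa using h'.2)), mul_zero]

end Vale.Agent.P074
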