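import Vale.Agent.P074.Pair

/-!
# Barycentres of power cells are stable under perturbation of the source
-/

open MeasureTheory Set Metric Filter Topology
open scoped ENNReal NNReal InnerProductSpace

namespace Vale.Agent.P074

variable {d n : ℕ}

theorem aedisjoint_mid_cells (K : Set (E d)) {y : Fin n → E d} (hy : Function.Injective y)
    (w u : Fin n → ℝ) :
    Pairwise (Function.onFun (AEDisjoint volume) fun i => mid (cell K y w i) (cell K y u i)) := by
  intro i j hij
  refine aedisjoint_mid_of_sep (v := y j - y i) (sub_ne_zero.2 (hy.ne hij.symm))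
    (c := w j - w i) (c' := u j - u i) ?_ ?_ ?_ ?_ <;> intro x hx <;> rw [inner_sub_right]
  · have := hx.2 j; linarith
  · have := hx.2 i; linarith
  · have := hx.2 j; linarith
  · have := hx.2 i; linarith

theorem sum_mid_cells_le {R : ℝ} {K : Set (E d)} (hK : IsCompact K) (hKc : Convex ℝ K)
    (hKR : K ⊆ closedBall 0 R) {y : Fin n → E d} (hy : Function.Injective y) (w u : Fin n → ℝ) :
    ∑ i, ∫ x in mid (cell K y w i) (cell K y u i), eta R x ≤ ∫ x in K, eta R x := by
  have hsub : ⋃ i, mid (cell K y w i) (cell K y u i) ⊆ K :=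
    iUnion_subset fun i => mid_subset_of_convex (cell_subset K y w i) (cell_subset K y u i) hKc
  have hc : ∀ i, IsCompact (mid (cell K y w i) (cell K y u i)) := fun i =>
    isCompact_mid (isCompact_cell hK y w i) (isCompact_cell hK y u i)
  have h1 : ∫ x in ⋃ i, mid (cell K y w i) (cell K y u i), eta R x =
      ∑ i, ∫ x in mid (cell K y w i) (cell K y u i), eta R x := by
    rw [integral_iUnion_ae (fun i => (hc i).measurableSet.nullMeasurableSet)
      (aedisjoint_mid_cells K hy w u) ((integrableOn_eta R hK).mono_set hsub), tsum_fintype]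
  rw [← h1]
  refine setIntegral_mono_set (integrableOn_eta R hK) ?_ (LE.le.eventuallyLE hsub)
  exact (ae_restrict_iff' hK.measurableSet).2 (Eventually.of_forall fun x hx => eta_nonneg (hKR hx))

/-- **Stability of the barycentres of the cells.** -/
theorem cells_ineq (hn : 0 < n) {R : ℝ} {K : Set (E d)} (hK : IsCompact K) (hKc : Convex ℝ K)
    (hKR : K ⊆ closedBall 0 R) {f : E d → ℝ} (hf : Measurable f) (hf1 : ∀ x, |f x| ≤ 1 / 2)
    {m : Fin n → ℝ} {y : Fin n → E d} (hy : Function.Injective y) {w u : Fin n → ℝ}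
    (hw : Fits K 0 m y w) (hu : Fits K f m y u) :
    ∑ i, ‖mom K f y u i - mom K 0 y w i‖ ^ 2 / m i ≤ 30 * R ^ 2 * (∫ x in K, f x ^ 2) := by
  have hm : ∀ i, volume.real (cell K y w i) = m i := fun i => by
    have h := hw i
    simpa using h
  have hmom : ∀ i, mom K 0 y w i = ∫ x in cell K y w i, x := fun i => by
    unfold mom; simp
  have hpair : ∀ i, (1 / 2) * (∫ x in cell K y w i, eta R x)
      + (1 / 2) * (∫ x in cell K y u i, eta R x)
      + (1 / 24) * (‖mom K f y u i - mom K 0 y w i‖ ^ 2 / m i)
      - (5 / 4) * R ^ 2 * (∫ x in cell K y u i, f x ^ 2) ≤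
      ∫ x in mid (cell K y w i) (cell K y u i), eta R x := by
    intro i
    have h := pair_ineq (R := R) (isCompact_cell hK y w i) (isCompact_cell hK y u i)
      ((cell_subset K y w i).trans hKR) ((cell_subset K y u i).trans hKR) hf hf1
      ((hm i).trans (hu i).symm)
    rw [norm_sub_rev, ← hmom i, hm i] at h
    exact h
  have hsum := Finset.sum_le_sum fun i (_ : i ∈ Finset.univ) => hpair i
  rw [Finset.sum_sub_distrib, Finset.sum_add_distrib, Finset.sum_add_distrib, ← Finset.mul_sum,
    ← Finset.mul_sum, ← Finset.mul_sum, ← Finset.mul_sum,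
    ← integral_cells hn hK hy w (integrableOn_eta R hK),
    ← integral_cells hn hK hy u (integrableOn_eta R hK),
    ← integral_cells hn hK hy u (integrableOn_f_sq hK hf hf1)] at hsum
  have hle := sum_mid_cells_le hK hKc hKR hy w u
  linarith

end Vale.Agent.P074
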