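import Vale.Agent.P074.Dual

open MeasureTheory
open scoped ENNReal NNReal InnerProductSpace

namespace Vale.Agent.P074

def box {d : ℕ} (a b : Fin d → ℝ) : Set (E d) := {x | ∀ i, x i ∈ Set.Icc (a i) (b i)}

theorem box_eq_preimage {d : ℕ} (a b : Fin d → ℝ) :
    box a b = (MeasurableEquiv.toLp 2 (Fin d → ℝ)).symm ⁻¹' (Set.Icc a b) := by
  ext x
  simp only [box, Set.mem_ofPred_eq, Set.mem_Icc, Set.mem_preimage, Pi.le_def]
  constructor
  · intro h
    exact ⟨fun i => (h i).1, fun i => (h i).2⟩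
  · intro h i
    exact ⟨h.1 i, h.2 i⟩

theorem measurableSet_box {d : ℕ} (a b : Fin d → ℝ) : MeasurableSet (box a b) := by
  rw [box_eq_preimage]
  exact (MeasurableEquiv.toLp 2 (Fin d → ℝ)).symm.measurable measurableSet_Icc

theorem volume_box {d : ℕ} (a b : Fin d → ℝ) :
    volume (box a b) = ∏ i, ENNReal.ofReal (b i - a i) := by
  rw [box_eq_preimage, (EuclideanSpace.volume_preserving_symm_measurableEquiv_toLp
    (Fin d)).measure_preimage measurableSet_Icc.nullMeasurableSet, Real.volume_Icc_pi]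

def cube (d : ℕ) : Set (E d) := box (fun _ => -1) (fun _ => 1)

theorem volume_cube (d : ℕ) : volume (cube d) = 2 ^ d := by
  rw [cube, volume_box]
  have : ENNReal.ofReal ((1:ℝ) - -1) = 2 := by norm_num
  rw [Finset.prod_const, this]
  simp

theorem isClosed_box {d : ℕ} (a b : Fin d → ℝ) : IsClosed (box a b) := by
  have : box a b = ⋂ i, (fun x : E d => x i) ⁻¹' Set.Icc (a i) (b i) := by
    ext x; simp [box]
  rw [this]
  apply isClosed_iInter
  intro i
  exact isClosed_Icc.preimage (by fun_prop)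

theorem convex_box {d : ℕ} (a b : Fin d → ℝ) : Convex ℝ (box a b) := by
  intro x hx y hy s t hs ht hst i
  have := (convex_Icc (a i) (b i)) (hx i) (hy i) hs ht hst
  simpa using this

theorem norm_le_of_mem_cube {d : ℕ} {x : E d} (hx : x ∈ cube d) : ‖x‖ ^ 2 ≤ d := by
  rw [EuclideanSpace.norm_sq_eq]
  calc ∑ i, ‖x i‖ ^ 2 ≤ ∑ _i : Fin d, (1:ℝ) := by
        apply Finset.sum_le_sum
        intro i _
        have := hx i
        simp only [Set.mem_Icc] at this
        rw [Real.norm_eq_abs, sq_abs]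
        nlinarith [this.1, this.2]
    _ = d := by simp

theorem isCompact_cube (d : ℕ) : IsCompact (cube d) := by
  apply Metric.isCompact_of_isClosed_isBounded (isClosed_box _ _)
  rw [Metric.isBounded_iff_subset_closedBall 0]
  refine ⟨Real.sqrt d, fun x hx => ?_⟩
  rw [mem_closedBall_zero_iff]
  exact Real.le_sqrt_of_sq_le (norm_le_of_mem_cube hx)

theorem interior_cube_nonempty (d : ℕ) : (interior (cube d)).Nonempty := by
  refine ⟨0, mem_interior.2 ⟨{x | ∀ i, x i ∈ Set.Ioo (-1:ℝ) 1}, ?_, ?_, ?_⟩⟩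
  · intro x hx i
    exact Set.Ioo_subset_Icc_self (hx i)
  · have : {x : E d | ∀ i, x i ∈ Set.Ioo (-1:ℝ) 1} =
        ⋂ i, (fun x : E d => x i) ⁻¹' Set.Ioo (-1:ℝ) 1 := by
      ext x; simp
    rw [this]
    apply isOpen_iInter_of_finite
    intro i
    exact isOpen_Ioo.preimage (by fun_prop)
  · intro i
    simp

theorem uniform_apply {d : ℕ} (K : Set (E d)) {s : Set (E d)} (hs : MeasurableSet s) :
    uniform K s = (volume K)⁻¹ * volume (s ∩ K) := by
  simp [uniform, Measure.restrict_apply hs]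

instance (d : ℕ) : IsProbabilityMeasure (uniform (cube d)) := by
  constructor
  rw [uniform_apply _ MeasurableSet.univ, Set.univ_inter, volume_cube]
  apply ENNReal.inv_mul_cancel
  · positivity
  · exact ENNReal.pow_ne_top (by norm_num)

theorem ae_mem_cube (d : ℕ) : ∀ᵐ x ∂(uniform (cube d)), x ∈ cube d := by
  rw [uniform]
  apply Measure.ae_smul_measure
  exact ae_restrict_mem (measurableSet_box _ _)

noncomputable def e0 (n : ℕ) : E (n + 2) := EuclideanSpace.single 0 1
noncomputable def e1 (n : ℕ) : E (n + 2) := EuclideanSpace.single 1 1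

noncomputable def TT (n : ℕ) (h t : ℝ) (x : E (n + 2)) : E (n + 2) :=
  if x 0 < -(h + t * x 1) then -e0 n else if h + t * x 1 < x 0 then e0 n else t • e1 n

theorem measurable_TT (n : ℕ) (h t : ℝ) : Measurable (TT n h t) := by
  unfold TT
  apply Measurable.ite
  · exact measurableSet_lt (by fun_prop) (by fun_prop)
  · exact measurable_const
  · apply Measurable.ite
    · exact measurableSet_lt (by fun_prop) (by fun_prop)
    · exact measurable_const
    · exact measurable_const

noncomputable def R (n : ℕ) : E (n + 2) ≃ₗᵢ[ℝ] E (n + 2) :=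
  LinearIsometryEquiv.piLpCongrRight 2
    (fun i => if i = 1 then LinearIsometryEquiv.neg ℝ else LinearIsometryEquiv.refl ℝ ℝ)

theorem R_apply (n : ℕ) (x : E (n + 2)) (i : Fin (n + 2)) :
    R n x i = if i = 1 then -x i else x i := by
  simp only [R]
  by_cases h : i = 1
  · simp [h]
  · simp [h]

theorem R_preimage_cube (n : ℕ) : R n ⁻¹' cube (n + 2) = cube (n + 2) := by
  ext x
  simp only [Set.mem_preimage, cube, box, Set.mem_ofPred_eq, R_apply]
  constructor
  · intro h i
    have := h i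
    by_cases hi : i = 1
    · simp only [hi, if_true, Set.mem_Icc] at this ⊢
      constructor <;> linarith [this.1, this.2]
    · simpa [hi] using this
  · intro h i
    have := h i
    by_cases hi : i = 1
    · simp only [hi, if_true, Set.mem_Icc] at this ⊢
      constructor <;> linarith [this.1, this.2]
    · simpa [hi] using this

theorem map_R_uniform (n : ℕ) : (uniform (cube (n + 2))).map (R n) = uniform (cube (n + 2)) := by
  have h := (LinearIsometryEquiv.measurePreserving (R n)).restrict_preimage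
    (measurableSet_box (fun _ => (-1 : ℝ)) (fun _ => 1))
  change MeasurePreserving (R n) (volume.restrict (R n ⁻¹' cube (n + 2)))
    (volume.restrict (cube (n + 2))) at h
  rw [R_preimage_cube] at h
  rw [uniform, Measure.map_smul, h.map_eq]

theorem R_TT_R (n : ℕ) (h t : ℝ) (x : E (n + 2)) : R n (TT n h t (R n x)) = TT n h (-t) x := by
  have h0 : R n x 0 = x 0 := by rw [R_apply]; simp
  have h1 : R n x 1 = - x 1 := by rw [R_apply]; simp
  have he0 : R n (e0 n) = e0 n := by
    ext i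
    rw [R_apply]
    by_cases hi : i = 1
    · simp [hi, e0]
    · simp [hi]
  have he1 : R n (e1 n) = - e1 n := by
    ext i
    rw [R_apply]
    by_cases hi : i = 1
    · simp [hi, e1]
    · simp [hi, e1]
  unfold TT
  rw [h0, h1]
  have e : h + t * -x 1 = h + -t * x 1 := by ring
  rw [e]
  split_ifs
  · rw [map_neg, he0]
  · rw [he0]
  · rw [map_smul, he1]; simp

noncomputable def phi (n : ℕ) (h t : ℝ) (x : E (n + 2)) : ℝ :=
  max (max (-x 0 - h) (t * x 1)) (x 0 - h)

noncomputable def psi (n : ℕ) (h : ℝ) (y : E (n + 2)) : ℝ := h * |y 0|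

theorem inner_e0 (n : ℕ) (x : E (n + 2)) : ⟪x, e0 n⟫_ℝ = x 0 := by
  rw [e0, real_inner_comm, EuclideanSpace.inner_single_left]; simp

theorem inner_e1 (n : ℕ) (x : E (n + 2)) : ⟪x, e1 n⟫_ℝ = x 1 := by
  rw [e1, real_inner_comm, EuclideanSpace.inner_single_left]; simp

theorem e0_zero (n : ℕ) : e0 n 0 = 1 := by simp [e0]
theorem e0_one (n : ℕ) : e0 n 1 = 0 := by simp [e0]
theorem e1_zero (n : ℕ) : e1 n 0 = 0 := by simp [e1]
theorem e1_one (n : ℕ) : e1 n 1 = 1 := by simp [e1]

theorem norm_e0 (n : ℕ) : ‖e0 n‖ = 1 := by simp [e0]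
theorem norm_e1 (n : ℕ) : ‖e1 n‖ = 1 := by simp [e1]

theorem TT_mem (n : ℕ) (h t : ℝ) (x : E (n + 2)) :
    TT n h t x = -e0 n ∨ TT n h t x = e0 n ∨ TT n h t x = t • e1 n := by
  unfold TT
  split_ifs <;> simp

theorem inner_le (n : ℕ) (h t : ℝ) (x y : E (n + 2))
    (hy : y = -e0 n ∨ y = e0 n ∨ y = t • e1 n) : ⟪x, y⟫_ℝ ≤ phi n h t x + psi n h y := by
  unfold phi psi
  rcases hy with rfl | rfl | rfl
  · rw [inner_neg_right, inner_e0]
    have : (-e0 n) 0 = -1 := by simp [e0_zero]
    rw [this]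
    simp only [abs_neg, abs_one]
    have : -x 0 - h ≤ max (max (-x 0 - h) (t * x 1)) (x 0 - h) :=
      (le_max_left _ _).trans (le_max_left _ _)
    linarith
  · rw [inner_e0, e0_zero]
    have : x 0 - h ≤ max (max (-x 0 - h) (t * x 1)) (x 0 - h) := le_max_right _ _
    simp only [abs_one]
    linarith
  · rw [inner_smul_right, inner_e1]
    have : (t • e1 n) 0 = 0 := by simp [e1_zero]
    rw [this]
    have : t * x 1 ≤ max (max (-x 0 - h) (t * x 1)) (x 0 - h) :=
      (le_max_right _ _).trans (le_max_left _ _)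
    simp only [abs_zero]
    linarith

theorem inner_eq (n : ℕ) {h t : ℝ} (ht : |t| ≤ h) {x : E (n + 2)} (hx : x ∈ cube (n + 2)) :
    ⟪x, TT n h t x⟫_ℝ = phi n h t x + psi n h (TT n h t x) := by
  have hx1 : |x 1| ≤ 1 := abs_le.2 (hx 1)
  have htx : |t * x 1| ≤ h := by
    rw [abs_mul]
    calc |t| * |x 1| ≤ h * 1 := mul_le_mul ht hx1 (abs_nonneg _) ((abs_nonneg _).trans ht)
      _ = h := mul_one _
  have htx' := abs_le.1 htx
  unfold TT phi psi
  split_ifs with h1 h2
  · rw [inner_neg_right, inner_e0]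
    have : (-e0 n) 0 = -1 := by simp [e0_zero]
    rw [this]
    simp only [abs_neg, abs_one]
    rw [max_eq_left, max_eq_left]
    · ring
    · linarith
    · rw [max_eq_left] <;> linarith
  · rw [inner_e0, e0_zero]
    simp only [abs_one]
    rw [max_eq_right]
    · ring
    · apply max_le <;> linarith
  · rw [inner_smul_right, inner_e1]
    have : (t • e1 n) 0 = 0 := by simp [e1_zero]
    rw [this]
    push Not at h1 h2
    rw [max_eq_left, max_eq_right]
    · simp
    · linarith
    · rw [max_eq_right] <;> linarith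

theorem norm_TT_le (n : ℕ) {h t : ℝ} (ht : |t| ≤ 1) (x : E (n + 2)) : ‖TT n h t x‖ ≤ 1 := by
  rcases TT_mem n h t x with e | e | e
  · rw [e, norm_neg, norm_e0]
  · rw [e, norm_e0]
  · rw [e, norm_smul, norm_e1]; simpa using ht

theorem isOptimalMap_TT (n : ℕ) {h t : ℝ} (ht : |t| ≤ h) (h1 : h ≤ 1) :
    IsOptimalMap (uniform (cube (n + 2))) ((uniform (cube (n + 2))).map (TT n h t))
      (TT n h t) := by
  have ht1 : |t| ≤ 1 := ht.trans h1
  have hh0 : 0 ≤ h := (abs_nonneg _).trans ht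
  have hphim : Measurable (phi n h t) := by unfold phi; fun_prop
  have hpsim : Measurable (psi n h) := by
    have : Continuous (psi n h) := by unfold psi; fun_prop
    exact this.measurable
  refine isOptimalMap_of_dual (measurable_TT n h t)
    (F := {y | y = -e0 n ∨ y = e0 n ∨ y = t • e1 n}) ?_ ?_ (φ := phi n h t) (ψ := psi n h)
    hpsim ?_ ?_ ?_ ?_ ?_ ?_
  · have : {y : E (n + 2) | y = -e0 n ∨ y = e0 n ∨ y = t • e1 n} =
      ({-e0 n, e0 n, t • e1 n} : Set (E (n + 2))) := by
      ext y; simp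
    rw [this]
    exact (Set.toFinite _).measurableSet
  · exact Filter.Eventually.of_forall fun x => TT_mem n h t x
  · apply Integrable.of_bound hphim.aestronglyMeasurable (2 : ℝ)
    filter_upwards [ae_mem_cube (n + 2)] with x hx
    have hx0 := hx 0
    have hx1 : |x 1| ≤ 1 := abs_le.2 (hx 1)
    have htx : |t * x 1| ≤ 1 := by
      rw [abs_mul]
      calc |t| * |x 1| ≤ 1 * 1 := mul_le_mul ht1 hx1 (abs_nonneg _) zero_le_one
        _ = 1 := mul_one _
    have htx' := abs_le.1 htx
    simp only [Set.mem_Icc] at hx0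
    rw [Real.norm_eq_abs, abs_le]
    unfold phi
    constructor
    · have : x 0 - h ≤ max (max (-x 0 - h) (t * x 1)) (x 0 - h) := le_max_right _ _
      linarith [hx0.1]
    · apply max_le
      · apply max_le <;> linarith [hx0.1]
      · linarith [hx0.2]
  · apply Integrable.of_bound (by fun_prop) ((n + 2 : ℕ) : ℝ)
    filter_upwards [ae_mem_cube (n + 2)] with x hx
    rw [Real.norm_eq_abs, abs_of_nonneg (by positivity)]
    exact norm_le_of_mem_cube hx
  · apply Integrable.of_bound (hpsim.comp (measurable_TT n h t)).aestronglyMeasurable (1 : ℝ)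
    refine Filter.Eventually.of_forall fun x => ?_
    rw [Real.norm_eq_abs]
    show abs (h * abs ((TT n h t x) 0)) ≤ 1
    rcases TT_mem n h t x with e | e | e
    · rw [e]; simp [e0_zero, abs_of_nonneg hh0, h1]
    · rw [e]; simp [e0_zero, abs_of_nonneg hh0, h1]
    · rw [e]; simp [e1_zero]
  · apply Integrable.of_bound
      ((measurable_norm.comp (measurable_TT n h t)).pow_const 2).aestronglyMeasurable (1 : ℝ)
    refine Filter.Eventually.of_forall fun x => ?_
    rw [Real.norm_eq_abs, abs_of_nonneg (by positivity)]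
    have := norm_TT_le n (h := h) ht1 x
    have h0 := norm_nonneg (TT n h t x)
    show ‖TT n h t x‖ ^ 2 ≤ 1
    nlinarith
  · refine Filter.Eventually.of_forall fun x y hy => inner_le n h t x y hy
  · filter_upwards [ae_mem_cube (n + 2)] with x hx
    exact inner_eq n ht hx


theorem uniform_box_le (n : ℕ) (c : ℝ) :
    uniform (cube (n + 2)) {x | |x 0| ≤ c} ≤ ENNReal.ofReal c := by
  have hm : MeasurableSet {x : E (n + 2) | |x 0| ≤ c} :=
    measurableSet_le (by fun_prop) (by fun_prop)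
  rw [uniform_apply _ hm, volume_cube]
  have hsub : {x : E (n + 2) | |x 0| ≤ c} ∩ cube (n + 2) ⊆
      box (fun i => if i = 0 then -c else -1) (fun i => if i = 0 then c else 1) := by
    rintro x ⟨hx, hx'⟩ i
    by_cases hi : i = 0
    · simp only [hi, if_true]
      exact abs_le.1 hx
    · simp only [hi, if_false]
      exact hx' i
  have hvol : volume (box (d := n + 2) (fun i => if i = 0 then -c else -1)
      (fun i => if i = 0 then c else 1)) = ENNReal.ofReal (2 * c) * 2 ^ (n + 1) := by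
    rw [volume_box, Fin.prod_univ_succ]
    have h2 : ENNReal.ofReal ((1:ℝ) - -1) = 2 := by norm_num
    simp only [if_true, Fin.succ_ne_zero, if_false, h2]
    rw [Finset.prod_const]
    simp only [Finset.card_univ, Fintype.card_fin]
    congr 2
    ring
  calc (2 ^ (n + 2) : ℝ≥0∞)⁻¹ * volume ({x : E (n + 2) | |x 0| ≤ c} ∩ cube (n + 2))
      ≤ (2 ^ (n + 2) : ℝ≥0∞)⁻¹ * (ENNReal.ofReal (2 * c) * 2 ^ (n + 1)) := by
        rw [← hvol]
        gcongr
    _ = ENNReal.ofReal c := by
        rw [ENNReal.ofReal_mul (by norm_num)]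
        have : ENNReal.ofReal 2 = 2 := by norm_num
        rw [this]
        have h3 : (2:ℝ≥0∞) * ENNReal.ofReal c * 2 ^ (n + 1) = 2 ^ (n + 2) * ENNReal.ofReal c := by
          ring
        rw [h3, ← mul_assoc, ENNReal.inv_mul_cancel (by positivity)
          (ENNReal.pow_ne_top (by norm_num)), one_mul]

theorem le_uniform_box (n : ℕ) {h : ℝ} (h0 : 0 ≤ h) (h1 : h ≤ 1 / 2) :
    ENNReal.ofReal (h / 16) ≤
      uniform (cube (n + 2)) {x | h ≤ x 0 ∧ x 0 ≤ 3 / 2 * h ∧ 1 / 2 ≤ x 1 ∧ x 1 ≤ 1} := by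
  have hm : MeasurableSet {x : E (n + 2) | h ≤ x 0 ∧ x 0 ≤ 3 / 2 * h ∧ 1 / 2 ≤ x 1 ∧ x 1 ≤ 1} := by
    have e : {x : E (n + 2) | h ≤ x 0 ∧ x 0 ≤ 3 / 2 * h ∧ 1 / 2 ≤ x 1 ∧ x 1 ≤ 1} =
        {x | h ≤ x 0} ∩ ({x | x 0 ≤ 3 / 2 * h} ∩ ({x | 1 / 2 ≤ x 1} ∩ {x | x 1 ≤ 1})) := by
      ext x
      simp
    rw [e]
    exact (measurableSet_le (by fun_prop) (by fun_prop)).inter
      ((measurableSet_le (by fun_prop) (by fun_prop)).inter
      ((measurableSet_le (by fun_prop) (by fun_prop)).inter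
      (measurableSet_le (by fun_prop) (by fun_prop))))
  rw [uniform_apply _ hm, volume_cube]
  have hsub : box (d := n + 2) (fun i => if i = 0 then h else if i = 1 then 1 / 2 else -1)
      (fun i => if i = 0 then 3 / 2 * h else 1) ⊆
      {x : E (n + 2) | h ≤ x 0 ∧ x 0 ≤ 3 / 2 * h ∧ 1 / 2 ≤ x 1 ∧ x 1 ≤ 1} ∩ cube (n + 2) := by
    intro x hx
    have a0 := hx 0
    have a1 := hx 1
    simp only [if_true, Set.mem_Icc] at a0 a1
    have h10 : ¬ ((1 : Fin (n + 2)) = 0) := by simp
    simp only [h10, if_false] at a1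
    refine ⟨⟨a0.1, a0.2, a1.1, a1.2⟩, fun i => ?_⟩
    have ai := hx i
    simp only [Set.mem_Icc] at ai ⊢
    by_cases hi : i = 0
    · subst hi
      simp only [if_true] at ai
      constructor <;> linarith [ai.1, ai.2]
    · simp only [hi, if_false] at ai
      by_cases hi1 : i = 1
      · subst hi1
        simp only [if_true] at ai
        constructor <;> linarith [ai.1, ai.2]
      · simp only [hi1, if_false] at ai
        exact ai
  have hvol : volume (box (d := n + 2) (fun i => if i = 0 then h else if i = 1 then 1 / 2 else -1)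
      (fun i => if i = 0 then 3 / 2 * h else 1)) = ENNReal.ofReal (h / 4) * 2 ^ n := by
    rw [volume_box, Fin.prod_univ_succ, Fin.prod_univ_succ]
    have h2 : ENNReal.ofReal ((1:ℝ) - -1) = 2 := by norm_num
    have h10 : ¬ ((Fin.succ 0 : Fin (n + 2)) = 0) := by simp
    have h11 : (Fin.succ 0 : Fin (n + 2)) = 1 := by simp
    have hss : ∀ i : Fin n, ¬ (i.succ.succ = (1 : Fin (n + 2))) := by
      intro i hi
      have : i.succ.succ = Fin.succ 0 := by rw [hi, h11]
      exact Fin.succ_ne_zero _ (Fin.succ_injective _ this)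
    simp only [if_true, Fin.succ_ne_zero, if_false, hss, h2, h11]
    have h10' : ¬ ((1 : Fin (n + 2)) = 0) := by simp
    simp only [h10', if_false]
    rw [Finset.prod_const]
    simp only [Finset.card_univ, Fintype.card_fin]
    rw [← mul_assoc, ← ENNReal.ofReal_mul (by linarith)]
    congr 2
    ring
  calc ENNReal.ofReal (h / 16) = (2 ^ (n + 2) : ℝ≥0∞)⁻¹ * (ENNReal.ofReal (h / 4) * 2 ^ n) := by
        have h4 : h / 4 = 4 * (h / 16) := by ring
        rw [h4, ENNReal.ofReal_mul (by norm_num)]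
        have : ENNReal.ofReal 4 = 4 := by norm_num
        rw [this]
        have h3 : (4:ℝ≥0∞) * ENNReal.ofReal (h / 16) * 2 ^ n
            = 2 ^ (n + 2) * ENNReal.ofReal (h / 16) := by
          rw [pow_add]; ring
        rw [h3, ← mul_assoc, ENNReal.inv_mul_cancel (by positivity)
          (ENNReal.pow_ne_top (by norm_num)), one_mul]
    _ ≤ _ := by
        rw [← hvol]
        gcongr

theorem one_le_norm_diff (n : ℕ) {h : ℝ} (h0 : 0 < h) (h1 : h ≤ 1 / 2) {x : E (n + 2)}
    (hx : h ≤ x 0 ∧ x 0 ≤ 3 / 2 * h ∧ 1 / 2 ≤ x 1 ∧ x 1 ≤ 1) :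
    1 ≤ ‖TT n h h x - TT n h (-h) x‖ := by
  obtain ⟨a, b, c, d⟩ := hx
  have e1' : TT n h h x = h • e1 n := by
    unfold TT
    rw [if_neg, if_neg]
    · push Not; nlinarith
    · push Not; nlinarith
  have e2' : TT n h (-h) x = e0 n := by
    unfold TT
    rw [if_neg, if_pos]
    · nlinarith
    · push Not; nlinarith
  rw [e1', e2']
  have hn := EuclideanSpace.norm_sq_eq (h • e1 n - e0 n)
  have h3 : (1:ℝ) ≤ ‖h • e1 n - e0 n‖ ^ 2 := by
    rw [hn]
    calc (1:ℝ) ≤ ‖(h • e1 n - e0 n) 0‖ ^ 2 := by simp [e1_zero, e0_zero]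
      _ ≤ _ := Finset.single_le_sum (f := fun i => ‖(h • e1 n - e0 n) i‖ ^ 2)
        (fun i _ => by positivity) (Finset.mem_univ 0)
  have h4 := norm_nonneg (h • e1 n - e0 n)
  nlinarith

theorem le_eLpNorm (n : ℕ) {h : ℝ} (h0 : 0 < h) (h1 : h ≤ 1 / 2) :
    ENNReal.ofReal (h / 16) ^ (1 / 2 : ℝ) ≤
      eLpNorm (fun x => TT n h h x - TT n h (-h) x) 2 (uniform (cube (n + 2))) := by
  rw [eLpNorm_eq_lintegral_rpow_enorm_toReal (by norm_num) (by norm_num)]
  simp only [ENNReal.toReal_ofNat]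
  gcongr
  have hmeas : Measurable (fun x => ‖TT n h h x - TT n h (-h) x‖ₑ ^ (2:ℝ)) :=
    ((measurable_TT n h h).sub (measurable_TT n h (-h))).enorm.pow_const _
  have := mul_meas_ge_le_lintegral (μ := uniform (cube (n + 2))) hmeas 1
  refine le_trans ?_ this
  rw [one_mul]
  refine (le_uniform_box n h0.le h1).trans ?_
  apply measure_mono
  intro x hx
  have h2 := one_le_norm_diff n h0 h1 hx
  show (1:ℝ≥0∞) ≤ _
  have h3 : (1:ℝ≥0∞) ≤ ‖TT n h h x - TT n h (-h) x‖ₑ := by
    rw [← ofReal_norm]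
    rw [← ENNReal.ofReal_one]
    exact ENNReal.ofReal_le_ofReal h2
  calc (1:ℝ≥0∞) = 1 ^ (2:ℝ) := by simp
    _ ≤ _ := by gcongr

theorem norm_TT_sub_R_le (n : ℕ) {h : ℝ} (h0 : 0 ≤ h) (x : E (n + 2)) (hx : x ∈ cube (n + 2)) :
    ‖TT n h h x - R n (TT n h h x)‖ₑ ^ 2 ≤
      Set.indicator {x : E (n + 2) | |x 0| ≤ 2 * h} (fun _ => ENNReal.ofReal (4 * h ^ 2)) x := by
  have he0 : R n (e0 n) = e0 n := by
    ext i
    rw [R_apply]
    by_cases hi : i = 1
    · simp [hi, e0]
    · simp [hi]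
  have he1 : R n (e1 n) = - e1 n := by
    ext i
    rw [R_apply]
    by_cases hi : i = 1
    · simp [hi, e1]
    · simp [hi, e1]
  by_cases hc : |x 0| ≤ 2 * h
  · rw [Set.indicator_of_mem (by exact hc), enorm_sq_eq_ofReal]
    apply ENNReal.ofReal_le_ofReal
    rcases TT_mem n h h x with e | e | e
    · rw [e, map_neg, he0]; simp; positivity
    · rw [e, he0]; simp; positivity
    · rw [e, map_smul, he1, smul_neg, sub_neg_eq_add, ← two_smul ℝ, norm_smul, norm_smul, norm_e1]
      simp only [Real.norm_eq_abs, mul_one]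
      rw [abs_of_nonneg h0]
      norm_num
      nlinarith
  · rw [Set.indicator_of_notMem (by exact hc)]
    have hx1 := hx 1
    simp only [Set.mem_Icc] at hx1
    have hnot : ¬ (-(h + h * x 1) ≤ x 0 ∧ x 0 ≤ h + h * x 1) := by
      rintro ⟨a, b⟩
      apply hc
      rw [abs_le]
      constructor <;> nlinarith
    have : TT n h h x = - e0 n ∨ TT n h h x = e0 n := by
      unfold TT
      by_cases h1 : x 0 < -(h + h * x 1)
      · left; rw [if_pos h1]
      · by_cases h2 : h + h * x 1 < x 0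
        · right; rw [if_neg h1, if_pos h2]
        · exfalso
          push Not at h1 h2
          exact hnot ⟨h1, h2⟩
    rcases this with e | e
    · rw [e, map_neg, he0]; simp
    · rw [e, he0]; simp

theorem W2_le (n : ℕ) {h : ℝ} (h0 : 0 ≤ h) :
    W2 ((uniform (cube (n + 2))).map (TT n h h)) ((uniform (cube (n + 2))).map (TT n h (-h)))
      ≤ ENNReal.ofReal (8 * h ^ 3) ^ (1 / 2 : ℝ) := by
  unfold W2
  gcongr
  set ρ := uniform (cube (n + 2)) with hρ
  have hRm : Measurable (R n) := (R n).continuous.measurable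
  have hcomp : Measurable (fun x => R n (TT n h h x)) := hRm.comp (measurable_TT n h h)
  have hF : Measurable (fun x => (TT n h h x, R n (TT n h h x))) :=
    (measurable_TT n h h).prodMk hcomp
  refine iInf₂_le_of_le (ρ.map (fun x => (TT n h h x, R n (TT n h h x)))) ?_ ?_
  · constructor
    · rw [Measure.map_map measurable_fst hF]
      rfl
    · rw [Measure.map_map measurable_snd hF]
      have e : TT n h (-h) = (fun x => R n (TT n h h x)) ∘ (R n) := by
        funext x
        exact (R_TT_R n h h x).symm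
      rw [e, ← Measure.map_map hcomp hRm, map_R_uniform]
      rfl
  · have hm2 : Measurable (fun p : E (n + 2) × E (n + 2) => ‖p.1 - p.2‖ₑ ^ 2) :=
      (measurable_fst.sub measurable_snd).enorm.pow_const 2
    rw [lintegral_map hm2 hF]
    calc ∫⁻ x, ‖TT n h h x - R n (TT n h h x)‖ₑ ^ 2 ∂ρ
        ≤ ∫⁻ x, Set.indicator {x : E (n + 2) | |x 0| ≤ 2 * h}
            (fun _ => ENNReal.ofReal (4 * h ^ 2)) x ∂ρ := by
          apply lintegral_mono_ae
          filter_upwards [ae_mem_cube (n + 2)] with x hx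
          exact norm_TT_sub_R_le n h0 x hx
      _ = ENNReal.ofReal (4 * h ^ 2) * ρ {x : E (n + 2) | |x 0| ≤ 2 * h} := by
          rw [lintegral_indicator (measurableSet_le (by fun_prop) (by fun_prop))]
          simp
      _ ≤ ENNReal.ofReal (4 * h ^ 2) * ENNReal.ofReal (2 * h) := by
          gcongr
          exact uniform_box_le n (2 * h)
      _ = ENNReal.ofReal (8 * h ^ 3) := by
          rw [← ENNReal.ofReal_mul (by positivity)]
          congr 1
          ring

theorem not_admissible_succ (n : ℕ) {α : ℝ} (hα : 1 / 3 < α) : ¬ Admissible (n + 2) α := by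
  rintro ⟨hα0, hα1, H⟩
  obtain ⟨C, hC⟩ := H (cube (n + 2)) (isCompact_cube _) (convex_box _ _)
    (interior_cube_nonempty _) (Metric.closedBall 0 1) (isCompact_closedBall _ _) (by simp)
  have key : ∀ h : ℝ, 0 < h → h ≤ 1 / 2 →
      ENNReal.ofReal (h / 16) ^ (1 / 2 : ℝ) ≤
        C * (ENNReal.ofReal (8 * h ^ 3) ^ (1 / 2 : ℝ)) ^ α := by
    intro h h0 h1
    have habs : |h| ≤ h := by rw [abs_of_pos h0]
    have habs' : |-h| ≤ h := by rw [abs_neg, abs_of_pos h0]
    have hball : ∀ t : ℝ, |t| ≤ h →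
        ((uniform (cube (n + 2))).map (TT n h t)) (Metric.closedBall 0 1)ᶜ = 0 := by
      intro t ht
      rw [Measure.map_apply (measurable_TT n h t) Metric.isClosed_closedBall.measurableSet.compl]
      have : TT n h t ⁻¹' (Metric.closedBall 0 1)ᶜ = ∅ := by
        ext x
        simp only [Set.mem_preimage, Set.mem_compl_iff, mem_closedBall_zero_iff,
          Set.mem_empty_iff_false, iff_false, not_not]
        exact norm_TT_le n (by linarith) x
      rw [this, measure_empty]
    have h2 := hC ((uniform (cube (n + 2))).map (TT n h h))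
      ((uniform (cube (n + 2))).map (TT n h (-h)))
      (Measure.isProbabilityMeasure_map (measurable_TT n h h).aemeasurable)
      (Measure.isProbabilityMeasure_map (measurable_TT n h (-h)).aemeasurable)
      (hball h habs) (hball (-h) habs') (TT n h h) (TT n h (-h))
      (isOptimalMap_TT n habs (by linarith)) (isOptimalMap_TT n habs' (by linarith))
    refine (le_eLpNorm n h0 h1).trans (h2.trans ?_)
    gcongr
    exact W2_le n h0.le
  have key2 : ∀ h : ℝ, 0 < h → h ≤ 1 / 2 →
      (1 / 4 : ℝ) ≤ C * 8 ^ (α / 2) * h ^ ((3 * α - 1) / 2) := by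
    intro h h0 h1
    have h3 := key h h0 h1
    rw [← ENNReal.rpow_mul, ENNReal.ofReal_rpow_of_pos (by positivity),
      ENNReal.ofReal_rpow_of_pos (by positivity), ← ENNReal.ofReal_coe_nnreal,
      ← ENNReal.ofReal_mul (by positivity), ENNReal.ofReal_le_ofReal_iff (by positivity)] at h3
    have e1 : (h / 16) ^ (1 / 2 : ℝ) = h ^ (1 / 2 : ℝ) * (1 / 4) := by
      rw [div_eq_mul_inv, Real.mul_rpow h0.le (by norm_num)]
      congr 1
      have : (16 : ℝ)⁻¹ = (1 / 4) ^ (2 : ℝ) := by norm_num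
      rw [this, ← Real.rpow_mul (by norm_num)]
      norm_num
    have e2 : (8 * h ^ 3) ^ (1 / 2 * α) =
        h ^ (1 / 2 : ℝ) * (8 ^ (α / 2) * h ^ ((3 * α - 1) / 2)) := by
      rw [Real.mul_rpow (by norm_num) (by positivity), ← Real.rpow_natCast h 3,
        ← Real.rpow_mul h0.le]
      have : h ^ ((3 : ℕ) * (1 / 2 * α) : ℝ) = h ^ (1 / 2 : ℝ) * h ^ ((3 * α - 1) / 2) := by
        rw [← Real.rpow_add h0]
        congr 1
        push_cast
        ring
      rw [this]
      have : (1 / 2 * α : ℝ) = α / 2 := by ring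
      rw [this]
      ring
    rw [e1, e2] at h3
    have hpos : 0 < h ^ (1 / 2 : ℝ) := Real.rpow_pos_of_pos h0 _
    have h4 : h ^ (1 / 2 : ℝ) * (1 / 4) ≤
        h ^ (1 / 2 : ℝ) * (C * 8 ^ (α / 2) * h ^ ((3 * α - 1) / 2)) := by
      calc _ ≤ _ := h3
        _ = _ := by ring
    exact le_of_mul_le_mul_left h4 hpos
  have hexp : 0 < (3 * α - 1) / 2 := by linarith
  have hlim : Filter.Tendsto (fun h : ℝ => (C : ℝ) * 8 ^ (α / 2) * h ^ ((3 * α - 1) / 2))
      (nhdsWithin 0 (Set.Ioi 0)) (nhds 0) := by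
    have h5 : Filter.Tendsto (fun h : ℝ => h ^ ((3 * α - 1) / 2)) (nhds 0) (nhds 0) := by
      have := (Real.continuousAt_rpow_const 0 ((3 * α - 1) / 2) (Or.inr hexp.le)).tendsto
      rwa [Real.zero_rpow hexp.ne'] at this
    have h6 := (h5.const_mul ((C : ℝ) * 8 ^ (α / 2))).mono_left
      (nhdsWithin_le_nhds (s := Set.Ioi (0:ℝ)))
    simpa using h6
  have hev1 : ∀ᶠ h : ℝ in nhdsWithin 0 (Set.Ioi 0),
      (C : ℝ) * 8 ^ (α / 2) * h ^ ((3 * α - 1) / 2) < 1 / 4 :=
    hlim.eventually (gt_mem_nhds (by norm_num))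
  have hev2 : ∀ᶠ h : ℝ in nhdsWithin 0 (Set.Ioi 0), h ≤ 1 / 2 :=
    nhdsWithin_le_nhds (ge_mem_nhds (by norm_num))
  have hev3 : ∀ᶠ h : ℝ in nhdsWithin 0 (Set.Ioi 0), 0 < h := self_mem_nhdsWithin
  obtain ⟨h, ha, hb, hc⟩ := (hev1.and (hev2.and hev3)).exists
  exact absurd (key2 h hc hb) (not_le.2 ha)

theorem not_admissible_of_gt {d : ℕ} (hd : 2 ≤ d) {α : ℝ} (hα : 1 / 3 < α) :
    ¬ Admissible d α := by
  obtain ⟨n, rfl⟩ : ∃ n, d = n + 2 := ⟨d - 2, by omega⟩
  exact not_admissible_succ n hα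

end Vale.Agent.P074
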