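import Vale.Agent.P074.SDefs

/-!
# Cutting compact sets by coordinate hyperplanes
-/

open MeasureTheory Set Metric Filter Topology
open scoped ENNReal NNReal InnerProductSpace

namespace Vale.Agent.P074

variable {d : ℕ}

/-- The part of `P` below the level `c` of coordinate `k`. -/
def lo (P : Set (E d)) (k : Fin d) (c : ℝ) : Set (E d) := P ∩ {x | x k ≤ c}

/-- The part of `P` above the level `c` of coordinate `k`. -/
def hi (P : Set (E d)) (k : Fin d) (c : ℝ) : Set (E d) := P ∩ {x | c ≤ x k}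

theorem continuous_coord (k : Fin d) : Continuous fun x : E d => x k := by fun_prop

theorem isCompact_lo {P : Set (E d)} (hP : IsCompact P) (k : Fin d) (c : ℝ) :
    IsCompact (lo P k c) :=
  hP.inter_right (isClosed_le (continuous_coord k) continuous_const)

theorem isCompact_hi {P : Set (E d)} (hP : IsCompact P) (k : Fin d) (c : ℝ) :
    IsCompact (hi P k c) :=
  hP.inter_right (isClosed_le continuous_const (continuous_coord k))

theorem lo_subset (P : Set (E d)) (k : Fin d) (c : ℝ) : lo P k c ⊆ P := inter_subset_left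

theorem hi_subset (P : Set (E d)) (k : Fin d) (c : ℝ) : hi P k c ⊆ P := inter_subset_left

theorem lo_union_hi (P : Set (E d)) (k : Fin d) (c : ℝ) : lo P k c ∪ hi P k c = P := by
  ext x
  constructor
  · rintro (h | h) <;> exact h.1
  · intro h
    rcases le_total (x k) c with h1 | h1
    · exact Or.inl ⟨h, h1⟩
    · exact Or.inr ⟨h, h1⟩

theorem volume_coord_eq (k : Fin d) (c : ℝ) : volume {x : E d | x k = c} = 0 := by
  have h := volume_hyperplane (v := EuclideanSpace.single k (1 : ℝ)) (by simp) c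
  refine measure_mono_null (fun x hx => ?_) h
  have hx' : x k = c := hx
  simp only [mem_ofPred_eq, EuclideanSpace.inner_single_right]
  simpa using hx'

theorem aedisjoint_lo_hi (P : Set (E d)) (k : Fin d) (c : ℝ) :
    AEDisjoint volume (lo P k c) (hi P k c) := by
  refine measure_mono_null ?_ (volume_coord_eq k c)
  rintro x ⟨h1, h2⟩
  exact le_antisymm h1.2 h2.2

theorem integral_lo_add_hi {P : Set (E d)} (hP : IsCompact P) (k : Fin d) (c : ℝ)
    {V : Type*} [NormedAddCommGroup V] [NormedSpace ℝ V] {F : E d → V} (hF : IntegrableOn F P) :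
    ∫ x in P, F x = (∫ x in lo P k c, F x) + ∫ x in hi P k c, F x := by
  conv_lhs => rw [← lo_union_hi P k c]
  exact setIntegral_union₀ (aedisjoint_lo_hi P k c)
    (isCompact_hi hP k c).measurableSet.nullMeasurableSet
    (hF.mono_set (lo_subset P k c)) (hF.mono_set (hi_subset P k c))

theorem volume_real_lo_add_hi {P : Set (E d)} (hP : IsCompact P) (k : Fin d) (c : ℝ) :
    volume.real P = volume.real (lo P k c) + volume.real (hi P k c) := by
  have h := integral_lo_add_hi hP k c (F := fun _ => (1 : ℝ))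
    (integrableOn_const hP.measure_lt_top.ne)
  simpa using h

/-- The mass below the level `c` is continuous in `c`. -/
theorem continuous_mass_lo {P : Set (E d)} (k : Fin d) {g : E d → ℝ}
    (hg : IntegrableOn g P) : Continuous fun c => ∫ x in lo P k c, g x := by
  have hcm : ∀ c : ℝ, MeasurableSet {x : E d | x k ≤ c} := fun c =>
    (isClosed_le (continuous_coord k) continuous_const).measurableSet
  have h1 : ∀ c, ∫ x in lo P k c, g x = ∫ x in P, ({x : E d | x k ≤ c}).indicator g x := by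
    intro c
    rw [setIntegral_indicator (hcm c)]
    rfl
  simp only [h1]
  rw [continuous_iff_continuousAt]
  intro c
  refine continuousAt_of_dominated (bound := fun x => ‖g x‖) ?_ ?_ hg.norm ?_
  · exact Eventually.of_forall fun c => hg.aestronglyMeasurable.indicator (hcm c)
  · exact Eventually.of_forall fun c => Eventually.of_forall fun x => norm_indicator_le_norm_self _ _
  · have h2 : ∀ᵐ x ∂(volume : Measure (E d)), x k ≠ c := by
      rw [ae_iff]
      simpa using volume_coord_eq k c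
    refine ae_restrict_of_ae (h2.mono fun x hx => ?_)
    rcases lt_or_gt_of_ne hx with h | h
    · refine (continuousAt_const (y := g x)).congr ?_
      filter_upwards [lt_mem_nhds h] with c' hc'
      rw [indicator_of_mem]
      exact (le_of_lt hc' : x k ≤ c')
    · refine (continuousAt_const (y := (0 : ℝ))).congr ?_
      filter_upwards [gt_mem_nhds h] with c' hc'
      rw [indicator_of_notMem]
      exact fun h' : x k ≤ c' => absurd hc' (not_lt.2 h')

/-- Intermediate value theorem for cuts. -/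
theorem exists_cut {P : Set (E d)} (hP : IsCompact P) (k : Fin d) {g : E d → ℝ}
    (hg : IntegrableOn g P) {a : ℝ} (ha0 : 0 ≤ a) (ha : a ≤ ∫ x in P, g x) :
    ∃ c, ∫ x in lo P k c, g x = a := by
  obtain ⟨R, hR⟩ := hP.isBounded.exists_norm_le
  have hcoord : ∀ x ∈ P, |x k| ≤ R := fun x hx => by
    have := (PiLp.norm_apply_le x k).trans (hR x hx)
    simpa using this
  have h0 : ∫ x in lo P k (-|R| - 1), g x = 0 := by
    have : lo P k (-|R| - 1) = ∅ := by
      rw [eq_empty_iff_forall_notMem]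
      rintro x ⟨h1, h2⟩
      have h3 := hcoord x h1
      have h4 : x k ≤ -|R| - 1 := h2
      have := (abs_le.1 h3).1
      have := le_abs_self R
      linarith
    rw [this]; simp
  have h1 : ∫ x in lo P k |R|, g x = ∫ x in P, g x := by
    have : lo P k |R| = P := by
      refine Subset.antisymm (lo_subset _ _ _) fun x hx => ⟨hx, ?_⟩
      exact ((le_abs_self _).trans (hcoord x hx)).trans (le_abs_self R)
    rw [this]
  have hab : -|R| - 1 ≤ |R| := by
    have := abs_nonneg R
    linarith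
  obtain ⟨c, -, hc⟩ := intermediate_value_Icc hab (continuous_mass_lo k hg).continuousOn
    (show a ∈ Icc _ _ by rw [h0, h1]; exact ⟨ha0, ha⟩)
  exact ⟨c, hc⟩

/-! ### Midpoint sets -/

theorem isCompact_mid {P Q : Set (E d)} (hP : IsCompact P) (hQ : IsCompact Q) :
    IsCompact (mid P Q) :=
  (hP.prod hQ).image (by fun_prop)

theorem mid_mono {P P' Q Q' : Set (E d)} (h1 : P ⊆ P') (h2 : Q ⊆ Q') : mid P Q ⊆ mid P' Q' :=
  image_mono (prod_mono h1 h2)

theorem mid_subset_of_convex {P Q K : Set (E d)} (hP : P ⊆ K) (hQ : Q ⊆ K) (hK : Convex ℝ K) :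
    mid P Q ⊆ K := by
  rintro _ ⟨⟨a, b⟩, ⟨ha, hb⟩, rfl⟩
  have := hK (hP ha) (hQ hb) (by norm_num : (0 : ℝ) ≤ 1 / 2) (by norm_num : (0 : ℝ) ≤ 1 / 2)
    (by norm_num)
  simpa [smul_add] using this

theorem aedisjoint_mid_of_sep {P Q P' Q' : Set (E d)} {v : E d} (hv : v ≠ 0) {c c' : ℝ}
    (h1 : ∀ x ∈ P, ⟪x, v⟫_ℝ ≤ c) (h2 : ∀ x ∈ P', c ≤ ⟪x, v⟫_ℝ) (h3 : ∀ x ∈ Q, ⟪x, v⟫_ℝ ≤ c')
    (h4 : ∀ x ∈ Q', c' ≤ ⟪x, v⟫_ℝ) : AEDisjoint volume (mid P Q) (mid P' Q') := by
  refine measure_mono_null ?_ (volume_hyperplane hv ((c + c') / 2))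
  rintro z ⟨⟨⟨a, b⟩, ⟨ha, hb⟩, rfl⟩, ⟨⟨a', b'⟩, ⟨ha', hb'⟩, hz⟩⟩
  simp only at ha hb ha' hb' hz
  simp only [mem_ofPred_eq]
  have e1 : ⟪(1 / 2 : ℝ) • (a + b), v⟫_ℝ = (⟪a, v⟫_ℝ + ⟪b, v⟫_ℝ) / 2 := by
    rw [real_inner_smul_left, inner_add_left]; ring
  have e2 : ⟪(1 / 2 : ℝ) • (a' + b'), v⟫_ℝ = (⟪a', v⟫_ℝ + ⟪b', v⟫_ℝ) / 2 := by
    rw [real_inner_smul_left, inner_add_left]; ring
  have := h1 a ha
  have := h2 a' ha'
  have := h3 b hb
  have := h4 b' hb'
  rw [hz] at e2
  linarith

end Vale.Agent.P074
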