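import Vale.Agent.P074.Defs

open MeasureTheory Set Filter Topology
open scoped ENNReal NNReal InnerProductSpace

namespace Vale.Agent.P074

section swap

variable {d n : ℕ} {K A : Set (E d)} {y : Fin n → E d}

/-- The translate `y i + A`. -/
def tr (y : Fin n → E d) (A : Set (E d)) (i : Fin n) : Set (E d) := (fun x => x - y i) ⁻¹' A

theorem measurableSet_tr (hA : MeasurableSet A) (i : Fin n) : MeasurableSet (tr y A i) :=
  (measurable_id.sub_const (y i)) hA

theorem lintegral_tr (hA : MeasurableSet A) {g : E d → ℝ≥0∞} (hg : Measurable g) (i : Fin n) :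
    ∫⁻ x in tr y A i, g x = ∫⁻ z in A, g (z + y i) := by
  have h := (measurePreserving_sub_right (volume : Measure (E d)) (y i)).setLIntegral_comp_preimage
    hA (f := fun z => g (z + y i)) (hg.comp (measurable_id.add_const _))
  simpa [tr] using h

theorem lintegral_decomp (hA : MeasurableSet A)
    (hdisj : Pairwise (Function.onFun Disjoint (tr y A))) (hsub : ∀ i, tr y A i ⊆ K)
    {g : E d → ℝ≥0∞} (hg : Measurable g) :
    ∫⁻ x in K, g x = (∫⁻ x in K \ ⋃ i, tr y A i, g x) + ∑ i, ∫⁻ z in A, g (z + y i) := by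
  have hU : MeasurableSet (⋃ i, tr y A i) := MeasurableSet.iUnion fun i => measurableSet_tr hA i
  rw [← lintegral_inter_add_sdiff g K hU, add_comm]
  congr 1
  have h1 : K ∩ ⋃ i, tr y A i = ⋃ i, tr y A i := inter_eq_right.2 (iUnion_subset hsub)
  rw [h1, lintegral_iUnion (fun i => measurableSet_tr hA i) hdisj, tsum_fintype]
  exact Finset.sum_congr rfl fun i _ => lintegral_tr hA hg i

/-- The swap. -/
noncomputable def swapMap (y : Fin n → E d) (A : Set (E d)) (τ : Equiv.Perm (Fin n)) (x : E d) :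
    E d := x + ∑ i, (tr y A (τ i)).indicator (fun _ => y i - y (τ i)) x

theorem measurable_swapMap (hA : MeasurableSet A) (τ : Equiv.Perm (Fin n)) :
    Measurable (swapMap y A τ) := by
  unfold swapMap
  refine measurable_id.add (Finset.measurable_sum _ fun i _ => ?_)
  exact measurable_const.indicator (measurableSet_tr hA _)

theorem swapMap_of_notMem (τ : Equiv.Perm (Fin n)) {x : E d} (hx : x ∉ ⋃ i, tr y A i) :
    swapMap y A τ x = x := by
  unfold swapMap
  rw [Finset.sum_eq_zero, add_zero]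
  intro i _
  exact indicator_of_notMem (fun h => hx (mem_iUnion.2 ⟨τ i, h⟩)) _

theorem swapMap_of_mem (hdisj : Pairwise (Function.onFun Disjoint (tr y A)))
    (τ : Equiv.Perm (Fin n)) {z : E d} (hz : z ∈ A) (j : Fin n) :
    swapMap y A τ (z + y (τ j)) = z + y j := by
  unfold swapMap
  have hmem : z + y (τ j) ∈ tr y A (τ j) := by simp [tr, hz]
  rw [Finset.sum_eq_single j]
  · rw [indicator_of_mem hmem]; abel
  · intro i _ hij
    refine indicator_of_notMem (fun h => ?_) _
    have h1 : τ i ≠ τ j := fun h => hij (τ.injective h)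
    exact Set.disjoint_left.1 (hdisj h1) h hmem
  · intro h; exact absurd (Finset.mem_univ j) h

theorem lintegral_swap (hA : MeasurableSet A) (hK : MeasurableSet K)
    (hdisj : Pairwise (Function.onFun Disjoint (tr y A))) (hsub : ∀ i, tr y A i ⊆ K)
    (τ : Equiv.Perm (Fin n)) {H : E d → E d → ℝ≥0∞} (hH : Measurable (Function.uncurry H)) :
    ∫⁻ x in K, H x (swapMap y A τ x) = (∫⁻ x in K \ ⋃ i, tr y A i, H x x)
      + ∑ i, ∫⁻ z in A, H (z + y (τ i)) (z + y i) := by
  have hU : MeasurableSet (⋃ i, tr y A i) := MeasurableSet.iUnion fun i => measurableSet_tr hA i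
  have hm : Measurable fun x => H x (swapMap y A τ x) :=
    hH.comp (measurable_id.prodMk (measurable_swapMap hA τ))
  rw [lintegral_decomp hA hdisj hsub hm]
  congr 1
  · refine setLIntegral_congr_fun (hK.diff hU) fun x hx => ?_
    rw [swapMap_of_notMem τ hx.2]
  · rw [← Equiv.sum_comp τ]
    refine Finset.sum_congr rfl fun i _ => ?_
    refine setLIntegral_congr_fun hA fun z hz => ?_
    rw [swapMap_of_mem hdisj τ hz]

theorem map_swap (hA : MeasurableSet A) (hK : MeasurableSet K)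
    (hdisj : Pairwise (Function.onFun Disjoint (tr y A))) (hsub : ∀ i, tr y A i ⊆ K)
    (τ : Equiv.Perm (Fin n)) :
    (volume.restrict K).map (swapMap y A τ) = volume.restrict K := by
  refine Measure.ext_of_lintegral _ fun g hg => ?_
  rw [lintegral_map hg (measurable_swapMap hA τ)]
  rw [lintegral_swap hA hK hdisj hsub τ (H := fun _ x => g x) (hg.comp measurable_snd),
    lintegral_decomp hA hdisj hsub hg]

end swap

theorem uniform_map_swap {d n : ℕ} {K A : Set (E d)} {y : Fin n → E d}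
    (hA : MeasurableSet A) (hK : MeasurableSet K)
    (hdisj : Pairwise (Function.onFun Disjoint (tr y A))) (hsub : ∀ i, tr y A i ⊆ K)
    (τ : Equiv.Perm (Fin n)) : (uniform K).map (swapMap y A τ) = uniform K := by
  unfold uniform
  rw [Measure.map_smul, map_swap hA hK hdisj hsub]

theorem sum_sq_identity {d n : ℕ} (τ : Equiv.Perm (Fin n)) (p q : Fin n → E d) :
    ∑ i, ‖p (τ i) - q i‖ ^ 2 = ∑ i, ‖p i - q i‖ ^ 2 - 2 * ∑ i, ⟪p (τ i) - p i, q i⟫_ℝ := by
  have h1 : ∀ a b : E d, ‖a - b‖ ^ 2 = ‖a‖ ^ 2 - 2 * ⟪a, b⟫_ℝ + ‖b‖ ^ 2 := fun a b =>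
    norm_sub_sq_real a b
  simp only [h1, inner_sub_left, Finset.sum_add_distrib, Finset.sum_sub_distrib,
    ← Finset.mul_sum]
  rw [Equiv.sum_comp τ (fun i => ‖p i‖ ^ 2)]
  ring

/-- The core of cyclical monotonicity. -/
theorem core_swap {d n : ℕ} {K A : Set (E d)} {y : Fin n → E d} {μ : Measure (E d)}
    {T : E d → E d} (hK : IsCompact K) (hK0 : volume K ≠ 0)
    (hT : IsOptimalMap (uniform K) μ T) {M : ℝ≥0} (hTM : ∀ x, ‖T x‖ ≤ M)
    (hA : MeasurableSet A) (hA0 : volume A ≠ 0)
    (hdisj : Pairwise (Function.onFun Disjoint (tr y A))) (hsub : ∀ i, tr y A i ⊆ K)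
    (τ : Equiv.Perm (Fin n))
    (hpos : ∀ z ∈ A, 0 < ∑ i, ⟪y (τ i) - y i, T (z + y i)⟫_ℝ) : False := by
  have hKm : MeasurableSet K := hK.measurableSet
  have hKtop : volume K ≠ ∞ := hK.measure_lt_top.ne
  have hTm := hT.measurable
  set S : E d → E d := fun x => T (swapMap y A τ x) with hS
  have hSm : Measurable S := hTm.comp (measurable_swapMap hA τ)
  have hSmap : (uniform K).map S = μ := by
    have h1 : S = T ∘ swapMap y A τ := rfl
    rw [h1, ← Measure.map_map hTm (measurable_swapMap hA τ),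
      uniform_map_swap hA hKm hdisj hsub, hT.map_eq]
  have hcost := hT.cost_le S hSm hSmap
  unfold uniform at hcost
  rw [lintegral_smul_measure, lintegral_smul_measure, smul_eq_mul, smul_eq_mul,
    ENNReal.mul_le_mul_iff_right (ENNReal.inv_ne_zero.2 hKtop) (ENNReal.inv_ne_top.2 hK0)] at hcost
  -- decompose both costs
  have hH : Measurable (Function.uncurry fun x x' : E d => ‖x - T x'‖ₑ ^ 2) := by
    have : Measurable fun p : E d × E d => p.1 - T p.2 :=
      measurable_fst.sub (hTm.comp measurable_snd)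
    exact this.enorm.pow_const 2
  have e1 := lintegral_swap (y := y) hA hKm hdisj hsub τ hH
  have e2 := lintegral_decomp (y := y) hA hdisj hsub (g := fun x => ‖x - T x‖ₑ ^ 2)
    ((measurable_id.sub hTm).enorm.pow_const 2)
  have e1' : ∫⁻ x in K, ‖x - S x‖ₑ ^ 2 = (∫⁻ x in K \ ⋃ i, tr y A i, ‖x - T x‖ₑ ^ 2)
      + ∑ i, ∫⁻ z in A, ‖(z + y (τ i)) - T (z + y i)‖ₑ ^ 2 := e1
  rw [e1', e2] at hcost
  -- finiteness
  obtain ⟨R, hR⟩ := hK.isBounded.exists_norm_le
  have hbound : ∀ x ∈ K, ‖x - T x‖ₑ ^ 2 ≤ ENNReal.ofReal ((R + M) ^ 2) := by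
    intro x hx
    have h1 : ‖x - T x‖ ≤ R + M := (norm_sub_le _ _).trans (add_le_add (hR x hx) (hTM x))
    rw [← ofReal_norm, ← ENNReal.ofReal_pow (norm_nonneg _)]
    exact ENNReal.ofReal_le_ofReal (pow_le_pow_left₀ (norm_nonneg _) h1 2)
  have hfin : ∫⁻ x in K \ ⋃ i, tr y A i, ‖x - T x‖ₑ ^ 2 ≠ ∞ := by
    have h1 : ∫⁻ x in K \ ⋃ i, tr y A i, ‖x - T x‖ₑ ^ 2
        ≤ ∫⁻ x in K \ ⋃ i, tr y A i, ENNReal.ofReal ((R + M) ^ 2) := by
      refine setLIntegral_mono measurable_const fun x hx => hbound x hx.1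
    rw [setLIntegral_const] at h1
    refine ne_top_of_le_ne_top (ENNReal.mul_ne_top ENNReal.ofReal_ne_top ?_) h1
    exact ne_top_of_le_ne_top hKtop (measure_mono sdiff_subset)
  have hcost' := (ENNReal.add_le_add_iff_left hfin).1 hcost
  have hAtop : volume A ≠ ∞ := by
    rcases n with _ | n
    · intro _
      obtain ⟨z, hz⟩ : A.Nonempty := by
        rw [nonempty_iff_ne_empty]; rintro rfl; simp at hA0
      have := hpos z hz
      simp at this
    · have h1 : volume A = volume (tr y A 0) := by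
        have h2 := (measurePreserving_sub_right (volume : Measure (E d)) (y 0)).measure_preimage
          hA.nullMeasurableSet
        exact h2.symm
      rw [h1]
      exact ne_top_of_le_ne_top hKtop (measure_mono (hsub 0))
  have hmeas1 : ∀ i, Measurable fun z : E d => ‖(z + y (τ i)) - T (z + y i)‖ₑ ^ 2 := fun i =>
    ((measurable_id.add_const _).sub (hTm.comp (measurable_id.add_const _))).enorm.pow_const 2
  have hmeas2 : ∀ i, Measurable fun z : E d => ‖(z + y i) - T (z + y i)‖ₑ ^ 2 := fun i =>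
    ((measurable_id.add_const _).sub (hTm.comp (measurable_id.add_const _))).enorm.pow_const 2
  rw [← lintegral_finsetSum _ fun i _ => hmeas1 i,
    ← lintegral_finsetSum _ fun i _ => hmeas2 i] at hcost'
  have hsum : ∀ (f : Fin n → E d), ∑ i, ‖f i‖ₑ ^ 2 = ENNReal.ofReal (∑ i, ‖f i‖ ^ 2) := by
    intro f
    rw [ENNReal.ofReal_sum_of_nonneg fun i _ => by positivity]
    refine Finset.sum_congr rfl fun i _ => ?_
    rw [← ofReal_norm, ← ENNReal.ofReal_pow (norm_nonneg _)]
  have hlt : ∀ z ∈ A, ∑ i, ‖(z + y (τ i)) - T (z + y i)‖ₑ ^ 2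
      < ∑ i, ‖(z + y i) - T (z + y i)‖ₑ ^ 2 := by
    intro z hz
    rw [hsum, hsum]
    have h1 := sum_sq_identity τ (fun i => z + y i) (fun i => T (z + y i))
    have h2 := hpos z hz
    have h3 : ∀ i, (z + y (τ i)) - (z + y i) = y (τ i) - y i := fun i => by abel
    simp only [h3] at h1
    have h4 : 0 ≤ ∑ i, ‖(z + y (τ i)) - T (z + y i)‖ ^ 2 :=
      Finset.sum_nonneg fun i _ => by positivity
    rw [ENNReal.ofReal_lt_ofReal_iff_of_nonneg h4]
    linarith
  have hmono : ∫⁻ z in A, ∑ i, ‖(z + y (τ i)) - T (z + y i)‖ₑ ^ 2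
      < ∫⁻ z in A, ∑ i, ‖(z + y i) - T (z + y i)‖ₑ ^ 2 := by
    refine lintegral_strict_mono ?_ ?_ ?_ ?_
    · rwa [Ne, Measure.restrict_eq_zero]
    · exact (Finset.measurable_sum _ fun i _ => hmeas2 i).aemeasurable
    · -- finiteness
      have h1 : ∫⁻ z in A, ∑ i, ‖(z + y (τ i)) - T (z + y i)‖ₑ ^ 2
          ≤ ∫⁻ z in A, ∑ _i : Fin n, ENNReal.ofReal ((R + M) ^ 2) := by
        refine setLIntegral_mono measurable_const fun z hz => Finset.sum_le_sum fun i _ => ?_
        have hmem : z + y (τ i) ∈ K := hsub (τ i) (by simp [tr, hz])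
        have h1 : ‖(z + y (τ i)) - T (z + y i)‖ ≤ R + M :=
          (norm_sub_le _ _).trans (add_le_add (hR _ hmem) (hTM _))
        rw [← ofReal_norm, ← ENNReal.ofReal_pow (norm_nonneg _)]
        exact ENNReal.ofReal_le_ofReal (pow_le_pow_left₀ (norm_nonneg _) h1 2)
      rw [setLIntegral_const] at h1
      refine ne_top_of_le_ne_top (ENNReal.mul_ne_top ?_ hAtop) h1
      simp
      exact ENNReal.mul_ne_top (by simp) (by simp)
    · exact (ae_restrict_iff' hA).2 (Eventually.of_forall hlt)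
  exact absurd hcost' (not_le.2 hmono)

end Vale.Agent.P074
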