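import Mathlib

open MeasureTheory
open scoped ENNReal NNReal

namespace Vale.Agent.P074

abbrev E (d : ℕ) := EuclideanSpace ℝ (Fin d)

noncomputable def uniform {d : ℕ} (K : Set (E d)) : Measure (E d) :=
  (volume K)⁻¹ • volume.restrict K

structure IsOptimalMap {d : ℕ} (ρ μ : Measure (E d)) (T : E d → E d) : Prop where
  measurable : Measurable T
  map_eq : ρ.map T = μ
  cost_le : ∀ S : E d → E d, Measurable S → ρ.map S = μ →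
    ∫⁻ x, ‖x - T x‖ₑ ^ 2 ∂ρ ≤ ∫⁻ x, ‖x - S x‖ₑ ^ 2 ∂ρ

noncomputable def W2 {d : ℕ} (μ ν : Measure (E d)) : ℝ≥0∞ :=
  (⨅ π ∈ {π : Measure (E d × E d) | π.map Prod.fst = μ ∧ π.map Prod.snd = ν},
    ∫⁻ p, ‖p.1 - p.2‖ₑ ^ 2 ∂π) ^ (1 / 2 : ℝ)

def Admissible (d : ℕ) (α : ℝ) : Prop :=
  0 < α ∧ α ≤ 1 ∧
    ∀ K : Set (E d), IsCompact K → Convex ℝ K → (interior K).Nonempty →
    ∀ Y : Set (E d), IsCompact Y → Y.Nonempty →
    ∃ C : ℝ≥0, ∀ μ ν : Measure (E d), IsProbabilityMeasure μ → IsProbabilityMeasure ν →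
      μ Yᶜ = 0 → ν Yᶜ = 0 →
      ∀ Tμ Tν : E d → E d, IsOptimalMap (uniform K) μ Tμ → IsOptimalMap (uniform K) ν Tν →
        eLpNorm (fun x => Tμ x - Tν x) 2 (uniform K) ≤ C * W2 μ ν ^ α

end Vale.Agent.P074
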