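import Vale.Agent.P074.Defs

open MeasureTheory
open scoped ENNReal NNReal InnerProductSpace

namespace Vale.Agent.P074

theorem enorm_sq_eq_ofReal {F : Type*} [NormedAddCommGroup F] (v : F) :
    ‖v‖ₑ ^ 2 = ENNReal.ofReal (‖v‖ ^ 2) := by
  rw [← ofReal_norm, ENNReal.ofReal_pow (norm_nonneg _)]

theorem ofReal_integral_le_lintegral_ofReal' {α : Type*} {m : MeasurableSpace α} {μ : Measure α}
    {f : α → ℝ} (hf : Integrable f μ) :
    ENNReal.ofReal (∫ x, f x ∂μ) ≤ ∫⁻ x, ENNReal.ofReal (f x) ∂μ := by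
  have h1 : ∫ x, f x ∂μ ≤ ∫ x, max (f x) 0 ∂μ :=
    integral_mono hf hf.pos_part (fun x => le_max_left _ _)
  refine (ENNReal.ofReal_le_ofReal h1).trans ?_
  rw [ofReal_integral_eq_lintegral_ofReal hf.pos_part
    (Filter.Eventually.of_forall fun x => le_max_right _ _)]
  apply lintegral_mono
  intro x
  simp only
  rcases le_total (f x) 0 with h | h
  · rw [max_eq_right h]; simp
  · rw [max_eq_left h]

theorem isOptimalMap_of_dual {d : ℕ} {ρ : Measure (E d)} [IsFiniteMeasure ρ] {T : E d → E d}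
    (hT : Measurable T) {F : Set (E d)} (hF : MeasurableSet F) (hTF : ∀ᵐ x ∂ρ, T x ∈ F)
    {φ ψ : E d → ℝ} (hψ : Measurable ψ) (hφi : Integrable φ ρ)
    (hxi : Integrable (fun x => ‖x‖ ^ 2) ρ) (hψi : Integrable (fun x => ψ (T x)) ρ)
    (hTi : Integrable (fun x => ‖T x‖ ^ 2) ρ)
    (hle : ∀ᵐ x ∂ρ, ∀ y ∈ F, ⟪x, y⟫_ℝ ≤ φ x + ψ y)
    (heq : ∀ᵐ x ∂ρ, ⟪x, T x⟫_ℝ = φ x + ψ (T x)) :
    IsOptimalMap ρ (ρ.map T) T := by
  refine ⟨hT, rfl, fun S hS hmap => ?_⟩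
  have hSF : ∀ᵐ x ∂ρ, S x ∈ F := by
    have h1 : ∀ᵐ y ∂(ρ.map T), y ∈ F := (ae_map_iff hT.aemeasurable hF).2 hTF
    rw [← hmap] at h1
    exact (ae_map_iff hS.aemeasurable hF).1 h1
  set g : E d → ℝ := fun y => ‖y‖ ^ 2 - 2 * ψ y with hg
  have hgm : Measurable g := (measurable_norm.pow_const 2).sub (hψ.const_mul 2)
  have hgT : Integrable (fun x => g (T x)) ρ := hTi.sub (hψi.const_mul 2)
  have hgT' : Integrable g (ρ.map T) := by
    rw [integrable_map_measure hgm.aestronglyMeasurable hT.aemeasurable]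
    exact hgT
  have hgS : Integrable (fun x => g (S x)) ρ := by
    have h2 : Integrable g (ρ.map S) := by rw [hmap]; exact hgT'
    exact (integrable_map_measure hgm.aestronglyMeasurable hS.aemeasurable).1 h2
  have hint : ∫ x, g (S x) ∂ρ = ∫ x, g (T x) ∂ρ := by
    rw [← integral_map hS.aemeasurable hgm.aestronglyMeasurable,
      ← integral_map hT.aemeasurable hgm.aestronglyMeasurable, hmap]
  have hf : Integrable (fun x => ‖x‖ ^ 2 - 2 * φ x) ρ := hxi.sub (hφi.const_mul 2)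
  have hTcost : ∀ᵐ x ∂ρ, ‖x - T x‖ ^ 2 = (‖x‖ ^ 2 - 2 * φ x) + g (T x) := by
    filter_upwards [heq] with x hx
    rw [norm_sub_sq_real, hx, hg]
    ring
  have hScost : ∀ᵐ x ∂ρ, (‖x‖ ^ 2 - 2 * φ x) + g (S x) ≤ ‖x - S x‖ ^ 2 := by
    filter_upwards [hle, hSF] with x hx hxS
    rw [norm_sub_sq_real, hg]
    have := hx _ hxS
    simp only
    linarith
  have hsum_T : Integrable (fun x => (‖x‖ ^ 2 - 2 * φ x) + g (T x)) ρ := hf.add hgT
  have hsum_S : Integrable (fun x => (‖x‖ ^ 2 - 2 * φ x) + g (S x)) ρ := hf.add hgS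
  have e1 : ∫⁻ x, ‖x - T x‖ₑ ^ 2 ∂ρ
      = ENNReal.ofReal (∫ x, ((‖x‖ ^ 2 - 2 * φ x) + g (T x)) ∂ρ) := by
    rw [ofReal_integral_eq_lintegral_ofReal hsum_T]
    · apply lintegral_congr_ae
      filter_upwards [hTcost] with x hx
      rw [enorm_sq_eq_ofReal, hx]
    · filter_upwards [hTcost] with x hx
      rw [← hx]
      positivity
  have e2 : ∫ x, ((‖x‖ ^ 2 - 2 * φ x) + g (T x)) ∂ρ
      = ∫ x, ((‖x‖ ^ 2 - 2 * φ x) + g (S x)) ∂ρ := by
    rw [integral_add hf hgT, integral_add hf hgS, hint]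
  rw [e1, e2]
  calc ENNReal.ofReal (∫ x, ((‖x‖ ^ 2 - 2 * φ x) + g (S x)) ∂ρ)
      ≤ ∫⁻ x, ENNReal.ofReal ((‖x‖ ^ 2 - 2 * φ x) + g (S x)) ∂ρ := by
        exact ofReal_integral_le_lintegral_ofReal' hsum_S
    _ ≤ ∫⁻ x, ‖x - S x‖ₑ ^ 2 ∂ρ := by
        apply lintegral_mono_ae
        filter_upwards [hScost] with x hx
        rw [enorm_sq_eq_ofReal]
        exact ENNReal.ofReal_le_ofReal hx

end Vale.Agent.P074
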