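import Mathlib

open Set
open scoped NNReal InnerProductSpace

namespace Vale.Agent.P074

variable {V : Type*} [NormedAddCommGroup V] [InnerProductSpace ℝ V]

/-- Value at `z` of the chain `x 0, …, x m` along the field `T`. -/
noncomputable def chainVal (T : V → V) (c : ℕ × (ℕ → V)) (z : V) : ℝ :=
  ∑ i ∈ Finset.range c.1, ⟪c.2 (i + 1) - c.2 i, T (c.2 i)⟫_ℝ + ⟪z - c.2 c.1, T (c.2 c.1)⟫_ℝ

theorem chainVal_sub (T : V → V) (c : ℕ × (ℕ → V)) (z w : V) :
    chainVal T c z - chainVal T c w = ⟪z - w, T (c.2 c.1)⟫_ℝ := by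
  unfold chainVal
  rw [add_sub_add_left_eq_sub, ← inner_sub_left, sub_sub_sub_cancel_right]

theorem chainVal_le_add {T : V → V} {M : ℝ} (hM : ∀ x, ‖T x‖ ≤ M) (c : ℕ × (ℕ → V)) (z w : V) :
    chainVal T c z ≤ chainVal T c w + M * ‖z - w‖ := by
  have h1 := chainVal_sub T c z w
  have h2 : ⟪z - w, T (c.2 c.1)⟫_ℝ ≤ ‖z - w‖ * ‖T (c.2 c.1)‖ := real_inner_le_norm _ _
  have h3 : ‖z - w‖ * ‖T (c.2 c.1)‖ ≤ ‖z - w‖ * M :=
    mul_le_mul_of_nonneg_left (hM _) (norm_nonneg _)
  linarith [mul_comm M ‖z - w‖]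

theorem chainVal_convex (T : V → V) (c : ℕ × (ℕ → V)) (z w : V) {s t : ℝ} (hst : s + t = 1) :
    chainVal T c (s • z + t • w) = s * chainVal T c z + t * chainVal T c w := by
  have h1 := chainVal_sub T c z (s • z + t • w)
  have h2 := chainVal_sub T c w (s • z + t • w)
  have h3 : s * ⟪z - (s • z + t • w), T (c.2 c.1)⟫_ℝ + t * ⟪w - (s • z + t • w), T (c.2 c.1)⟫_ℝ
      = 0 := by
    rw [← real_inner_smul_left, ← real_inner_smul_left, ← inner_add_left]
    have : s • (z - (s • z + t • w)) + t • (w - (s • z + t • w)) = (0 : V) := by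
      have : s = 1 - t := by linarith
      subst this
      module
    rw [this, inner_zero_left]
  rw [← h1, ← h2] at h3
  have h4 : chainVal T c (s • z + t • w) = (s + t) * chainVal T c (s • z + t • w) := by
    rw [hst, one_mul]
  linarith

/-- **Rockafellar**: a cyclically monotone bounded field on `G` is contained in the
subdifferential of a convex Lipschitz function. -/
theorem rockafellar {G : Set V} {T : V → V} {M : ℝ≥0} (hM : ∀ x, ‖T x‖ ≤ M)
    (hcyc : ∀ (n : ℕ) (x : Fin n → V), (∀ i, x i ∈ G) → ∀ τ : Equiv.Perm (Fin n),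
      ∑ i, ⟪x (τ i) - x i, T (x i)⟫_ℝ ≤ 0) :
    ∃ φ : V → ℝ, LipschitzWith M φ ∧ ConvexOn ℝ univ φ ∧
      ∀ x ∈ G, ∀ z, φ x + ⟪z - x, T x⟫_ℝ ≤ φ z := by
  rcases G.eq_empty_or_nonempty with rfl | ⟨a, ha⟩
  · exact ⟨fun _ => 0, (LipschitzWith.const _).weaken zero_le, convexOn_const _ convex_univ,
      fun x hx => absurd hx (notMem_empty x)⟩
  let ι := {c : ℕ × (ℕ → V) // c.2 0 = a ∧ ∀ i, c.2 i ∈ G}
  have : Nonempty ι := ⟨⟨(0, fun _ => a), rfl, fun _ => ha⟩⟩
  have hclosed : ∀ c : ι, chainVal T c.1 a ≤ 0 := by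
    rintro ⟨⟨m, x⟩, hx0, hxG⟩
    have h := hcyc (m + 1) (fun i => x i) (fun i => hxG i) (finRotate (m + 1))
    rw [Fin.sum_univ_castSucc] at h
    simp only [finRotate_last, Fin.val_last, Fin.val_castSucc, Fin.val_zero] at h
    have h2 : ∀ i : Fin m, ((finRotate (m + 1) i.castSucc : Fin (m + 1)) : ℕ) = i + 1 := by
      intro i
      have := finRotate_of_lt i.2
      have h3 : (i.castSucc : Fin (m + 1)) = ⟨(i : ℕ), i.2.trans_le m.le_succ⟩ := rfl
      rw [h3, this]
    simp only [h2] at h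
    have hx0' : x 0 = a := hx0
    rw [hx0'] at h
    unfold chainVal
    simp only
    rw [Finset.sum_range (fun i => ⟪x (i + 1) - x i, T (x i)⟫_ℝ)]
    exact h
  have hbdd : ∀ z, BddAbove (range fun c : ι => chainVal T c.1 z) := by
    intro z
    refine ⟨M * ‖z - a‖, ?_⟩
    rintro _ ⟨c, rfl⟩
    have := chainVal_le_add hM c.1 z a
    have := hclosed c
    simp only
    linarith
  refine ⟨fun z => ⨆ c : ι, chainVal T c.1 z, ?_, ?_, ?_⟩
  · refine LipschitzWith.of_le_add_mul M fun z w => ?_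
    refine ciSup_le fun c => ?_
    rw [dist_eq_norm]
    exact (chainVal_le_add hM c.1 z w).trans (add_le_add (le_ciSup (hbdd w) c) le_rfl)
  · refine ⟨convex_univ, fun z _ w _ s t hs ht hst => ?_⟩
    refine ciSup_le fun c => ?_
    rw [chainVal_convex T c.1 z w hst, smul_eq_mul, smul_eq_mul]
    exact add_le_add (mul_le_mul_of_nonneg_left (le_ciSup (hbdd z) c) hs)
      (mul_le_mul_of_nonneg_left (le_ciSup (hbdd w) c) ht)
  · intro p hp z
    rw [← le_sub_iff_add_le]
    refine ciSup_le fun c => ?_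
    rw [le_sub_iff_add_le]
    obtain ⟨⟨m, x⟩, hx0, hxG⟩ := c
    let c' : ι := ⟨(m + 1, Function.update x (m + 1) p), by
      refine ⟨?_, fun i => ?_⟩
      · simp only
        rw [Function.update_of_ne (by omega)]
        exact hx0
      · simp only
        by_cases hi : i = m + 1
        · subst hi; simpa using hp
        · rw [Function.update_of_ne hi]; exact hxG i⟩
    refine le_trans (le_of_eq ?_) (le_ciSup (hbdd z) c')
    simp only [c', chainVal]
    rw [Finset.sum_range_succ]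
    have h1 : Function.update x (m + 1) p (m + 1) = p := Function.update_self _ _ _
    have h2 : ∀ i, i ≤ m → Function.update x (m + 1) p i = x i := fun i hi =>
      Function.update_of_ne (by omega) _ _
    rw [h1, h2 m le_rfl]
    congr 2
    refine Finset.sum_congr rfl fun i hi => ?_
    have hi' := Finset.mem_range.1 hi
    rw [h2 i (by omega), h2 (i + 1) (by omega)]

end Vale.Agent.P074
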