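import Vale.Agent.P074.GoodPt
import Vale.Agent.P074.Rockafellar

open MeasureTheory Set Filter Topology
open scoped ENNReal NNReal InnerProductSpace

namespace Vale.Agent.P074

/-- **Kantorovich potentials of optimal maps.** An optimal map for the quadratic cost from the
uniform measure on a convex body to a measure on a bounded set is a.e. a subgradient field of a
convex Lipschitz function. -/
theorem exists_potential {d : ℕ} {K Y : Set (E d)} (hK : IsCompact K) (hKc : Convex ℝ K)
    (hKi : (interior K).Nonempty) {M : ℝ≥0} (hY : ∀ y ∈ Y, ‖y‖ ≤ M) {μ : Measure (E d)}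
    {T : E d → E d} (hT : IsOptimalMap (uniform K) μ T) (hTY : ∀ x, T x ∈ Y) :
    ∃ φ : E d → ℝ, LipschitzWith M φ ∧ ConvexOn ℝ univ φ ∧
      ∀ᵐ x ∂(uniform K), ∀ z, φ x + ⟪z - x, T x⟫_ℝ ≤ φ z := by
  have hTM : ∀ x, ‖T x‖ ≤ M := fun x => hY _ (hTY x)
  obtain ⟨φ, h1, h2, h3⟩ := rockafellar (G := Good K T) hTM
    (fun n x hx τ => cyc_good hK hKi hT hTM n x hx τ)
  exact ⟨φ, h1, h2, (ae_good hK hKc hT.measurable).mono h3⟩

end Vale.Agent.P074
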