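import Vale.Agent.P074.Main
import Vale.Agent.P074.Potential

open MeasureTheory
open scoped ENNReal NNReal InnerProductSpace

namespace Vale.Agent.P074

theorem exists_modification {d : ℕ} {K Y : Set (E d)} (hK : IsCompact K) (hKc : Convex ℝ K)
    (hKi : (interior K).Nonempty) (hY : IsCompact Y) (hYn : Y.Nonempty) {M : ℝ≥0}
    (hM : ∀ y ∈ Y, ‖y‖ ≤ M) {μ : Measure (E d)} (hμ : μ Yᶜ = 0) {T : E d → E d}
    (hT : IsOptimalMap (uniform K) μ T) :
    ∃ (T' : E d → E d) (φ : E d → ℝ), HasPotential K M T' φ ∧ (uniform K).map T' = μ ∧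
      ∀ᵐ x ∂(uniform K), T x = T' x := by
  classical
  obtain ⟨y0, hy0⟩ := hYn
  have hYm : MeasurableSet Y := hY.measurableSet
  set T' : E d → E d := fun x => if T x ∈ Y then T x else y0 with hT'
  have hm : Measurable T' :=
    Measurable.ite (hT.measurable hYm) hT.measurable measurable_const
  have hae : ∀ᵐ x ∂(uniform K), T x = T' x := by
    have h1 : ∀ᵐ x ∂(uniform K), T x ∈ Y := by
      have h2 : (uniform K) (T ⁻¹' Yᶜ) = 0 := by
        rw [← Measure.map_apply hT.measurable hYm.compl, hT.map_eq, hμ]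
      rw [ae_iff]
      exact h2
    filter_upwards [h1] with x hx
    simp only [hT', if_pos hx]
  have hTY : ∀ x, T' x ∈ Y := by
    intro x
    simp only [hT']
    split_ifs with h
    · exact h
    · exact hy0
  have hmap : (uniform K).map T' = μ := by
    rw [← hT.map_eq]
    exact (Measure.map_congr hae).symm
  have hopt : IsOptimalMap (uniform K) μ T' := by
    refine ⟨hm, hmap, fun S hS hSm => ?_⟩
    have h3 : ∫⁻ x, ‖x - T' x‖ₑ ^ 2 ∂(uniform K) = ∫⁻ x, ‖x - T x‖ₑ ^ 2 ∂(uniform K) := by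
      apply lintegral_congr_ae
      filter_upwards [hae] with x hx
      rw [hx]
    rw [h3]
    exact hT.cost_le S hS hSm
  obtain ⟨φ, hφ, -, hsub⟩ := exists_potential hK hKc hKi hM hopt hTY
  exact ⟨T', φ, ⟨hm, fun x => hM _ (hTY x), hφ, hsub⟩, hmap, hae⟩

theorem admissible_quarter (d : ℕ) : Admissible d (1 / 4) := by
  refine ⟨by norm_num, by norm_num, fun K hK hKc hKi Y hY hYn => ?_⟩
  obtain ⟨M0, hM0⟩ := hY.isBounded.subset_closedBall 0
  set M : ℝ≥0 := Real.toNNReal M0 with hMdef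
  have hM : ∀ y ∈ Y, ‖y‖ ≤ M := by
    intro y hy
    have h1 : ‖y‖ ≤ M0 := by simpa using hM0 hy
    exact h1.trans (Real.le_coe_toNNReal M0)
  obtain ⟨C, hC⟩ := L2_stability hK hKc hKi M
  refine ⟨C, fun μ ν _ _ hμ hν Tμ Tν hTμ hTν => ?_⟩
  obtain ⟨T0, φ0, h0, hm0, hae0⟩ := exists_modification hK hKc hKi hY hYn hM hμ hTμ
  obtain ⟨T1, φ1, h1, hm1, hae1⟩ := exists_modification hK hKc hKi hY hYn hM hν hTν
  have h2 := hC T0 T1 φ0 φ1 h0 h1
  rw [hm0, hm1] at h2
  refine le_trans (le_of_eq ?_) h2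
  apply eLpNorm_congr_ae
  filter_upwards [hae0, hae1] with x hx0 hx1
  rw [hx0, hx1]

end Vale.Agent.P074
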