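import Vale.Agent.P074.Energy
import Vale.Agent.P074.Quarter

/-!
# The exponent `1/3` is admissible
-/

open MeasureTheory Set Metric
open scoped ENNReal NNReal InnerProductSpace

namespace Vale.Agent.P074

variable {d : ℕ}

theorem pointwise_bound {M n a1 a0 b1 b0 p q : ℝ} (hM : 0 ≤ M) (hn : 0 ≤ n)
    (ga1 : |a1| ≤ n * M) (ga0 : |a0| ≤ n * M) (gb1 : |b1| ≤ n * M) (gb0 : |b0| ≤ n * M)
    (u1 : a1 ≤ p) (u2 : p ≤ b1) (v1 : a0 ≤ q) (v2 : q ≤ b0) :
    (a1 - a0) ^ 2 ≤ 2 * (1 * (p - q) ^ 2)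
      + 4 * M * n * (1 * (b1 - a1) + 1 * (b0 - a0)) := by
  have g1 := abs_le.1 ga1
  have g0 := abs_le.1 ga0
  have g1h := abs_le.1 gb1
  have g0h := abs_le.1 gb0
  have w1 : (a1 - a0) ^ 2 ≤ 2 * (p - q) ^ 2 + 2 * ((p - a1) - (q - a0)) ^ 2 := by
    nlinarith [sq_nonneg ((p - q) + ((p - a1) - (q - a0)))]
  have w2 : ((p - a1) - (q - a0)) ^ 2 ≤ 2 * M * n * ((b1 - a1) + (b0 - a0)) := by
    have w3 : |(p - a1) - (q - a0)| ≤ 2 * M * n := by
      rw [abs_le]; constructor <;> linarith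
    have w4 : |(p - a1) - (q - a0)| ≤ (b1 - a1) + (b0 - a0) := by
      rw [abs_le]; constructor <;> linarith
    rw [← sq_abs, sq]
    exact mul_le_mul w3 w4 (abs_nonneg _) (by positivity)
  linarith

theorem comp_bound {K : Set (E d)} (hK : IsCompact K) {C : ℝ} (hC0 : 0 ≤ C)
    (hC : ∀ h : E d, ‖h‖ ≤ 1 → volume (((fun x => x + h) '' K) \ K) ≤ ENNReal.ofReal (C * ‖h‖))
    {M : ℝ≥0} {T0 T1 : E d → E d} {φ0 φ1 : E d → ℝ} (h0 : HasPotential K M T0 φ0)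
    (h1 : HasPotential K M T1 φ1) {h : E d} (hh : ‖h‖ ≤ 1) :
    ∫ x in K, ⟪h, T1 x - T0 x⟫_ℝ ^ 2 ≤
      2 * (∫ x in K, ind K h x * ((φ1 (x + h) - φ1 x) - (φ0 (x + h) - φ0 x)) ^ 2)
      + 24 * M ^ 2 * C * ‖h‖ ^ 3 := by
  have hKm := hK.measurableSet
  have c0 : Continuous φ0 := h0.lip.continuous
  have c1 : Continuous φ1 := h1.lip.continuous
  have mF : ∀ {T : E d → E d}, Measurable T → Measurable (fun x => ⟪h, T x⟫_ℝ) :=
    fun hT => measurable_const.inner hT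
  have bdF : ∀ {T : E d → E d}, (∀ x, ‖T x‖ ≤ M) → ∀ x, |⟪h, T x⟫_ℝ| ≤ ‖h‖ * M := fun hT x =>
    (abs_real_inner_le_norm _ _).trans (mul_le_mul_of_nonneg_left (hT x) (norm_nonneg _))
  set F0 : E d → ℝ := fun x => ⟪h, T0 x⟫_ℝ with hF0
  set F1 : E d → ℝ := fun x => ⟪h, T1 x⟫_ℝ with hF1
  have mF0 : Measurable F0 := mF h0.meas
  have mF1 : Measurable F1 := mF h1.meas
  have dF0 : ∀ x, |F0 x| ≤ ‖h‖ * M := bdF h0.bdd
  have dF1 : ∀ x, |F1 x| ≤ ‖h‖ * M := bdF h1.bdd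
  have bF0 : BM K F0 := BM.of_le mF0 dF0
  have bF1 : BM K F1 := BM.of_le mF1 dF1
  have bF0h : BM K (fun x => F0 (x + h)) :=
    BM.of_le (mF0.comp (measurable_id.add_const h)) (fun x => dF0 _)
  have bF1h : BM K (fun x => F1 (x + h)) :=
    BM.of_le (mF1.comp (measurable_id.add_const h)) (fun x => dF1 _)
  have bD : BM K (fun x => (φ1 (x + h) - φ1 x) - (φ0 (x + h) - φ0 x)) :=
    BM.of_continuous hK (by fun_prop)
  have bi := bm_ind hKm h
  have bl := bm_lay hKm h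
  have bq1 := bi.mul (bF1h.sub bF1)
  have bq0 := bi.mul (bF0h.sub bF0)
  have step : ∫ x in K, ⟪h, T1 x - T0 x⟫_ℝ ^ 2 ≤
      ∫ x in K, (2 * (ind K h x * ((φ1 (x + h) - φ1 x) - (φ0 (x + h) - φ0 x)) ^ 2)
        + 4 * M * ‖h‖ * (ind K h x * (F1 (x + h) - F1 x) + ind K h x * (F0 (x + h) - F0 x))
        + 4 * M ^ 2 * ‖h‖ ^ 2 * lay K h x) := by
    have bl' : BM K (fun x => ⟪h, T1 x - T0 x⟫_ℝ ^ 2) := by
      have := (bF1.sub bF0).sq
      simpa only [hF1, hF0, ← inner_sub_right] using this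
    refine setIntegral_mono_on_ae (bl'.integrableOn hK)
      ((((BM.const_mul 2 (bi.mul bD.sq)).add (BM.const_mul (4 * M * ‖h‖) (bq1.add bq0))).add
        (BM.const_mul (4 * M ^ 2 * ‖h‖ ^ 2) bl)).integrableOn hK) hKm ?_
    filter_upwards [ae_sub hK h1, ae_sub_shift hK h1 h, ae_sub hK h0, ae_sub_shift hK h0 h] with
      x hx1 hx1h hx0 hx0h hxK
    rw [inner_sub_right]
    change (F1 x - F0 x) ^ 2 ≤ _
    have g1 := abs_le.1 (dF1 x)
    have g0 := abs_le.1 (dF0 x)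
    have hl0 := lay_nonneg K h x
    by_cases hx' : x + h ∈ K
    · have i1 := ind_of hxK hx'
      have e1 : x + h - x = h := by abel
      have e2 : x - (x + h) = -h := by abel
      have a1 := hx1 hxK (x + h)
      have a2 := hx1h hx' x
      have b1 := hx0 hxK (x + h)
      have b2 := hx0h hx' x
      rw [e1] at a1 b1
      rw [e2, inner_neg_left] at a2 b2
      have u1 : F1 x ≤ φ1 (x + h) - φ1 x := by simp only [hF1]; linarith
      have u2 : φ1 (x + h) - φ1 x ≤ F1 (x + h) := by simp only [hF1]; linarith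
      have v1 : F0 x ≤ φ0 (x + h) - φ0 x := by simp only [hF0]; linarith
      have v2 : φ0 (x + h) - φ0 x ≤ F0 (x + h) := by simp only [hF0]; linarith
      rw [i1]
      have w5 : 0 ≤ 4 * (M : ℝ) ^ 2 * ‖h‖ ^ 2 * lay K h x := by positivity
      exact (pointwise_bound M.2 (norm_nonneg h) (dF1 x) (dF0 x) (dF1 (x + h)) (dF0 (x + h))
        u1 u2 v1 v2).trans (le_add_of_nonneg_right w5)
    · have hn : ¬ (x ∈ K ∧ x + h ∈ K) := fun h' => hx' h'.2
      have hl : 1 ≤ lay K h x := one_le_lay (fun h' => hx' h'.1)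
      rw [ind_of_not hn]
      have w3 : |F1 x - F0 x| ≤ 2 * M * ‖h‖ := by
        rw [abs_le]; constructor <;> linarith
      have w4 : (F1 x - F0 x) ^ 2 ≤ (2 * M * ‖h‖) ^ 2 := by
        rw [← sq_abs]; gcongr
      have w5 : 4 * (M : ℝ) ^ 2 * ‖h‖ ^ 2 * 1 ≤ 4 * (M : ℝ) ^ 2 * ‖h‖ ^ 2 * lay K h x := by
        gcongr
      have w6 : (2 * (M : ℝ) * ‖h‖) ^ 2 = 4 * (M : ℝ) ^ 2 * ‖h‖ ^ 2 * 1 := by ring
      rw [w6] at w4
      simpa using w4.trans w5
  have i1 := integral_ind_shift hK hC0 hC hh mF1 dF1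
  have i0 := integral_ind_shift hK hC0 hC hh mF0 dF0
  have il := integral_lay hK hC0 hC hh
  have ee : ∫ x in K, (2 * (ind K h x * ((φ1 (x + h) - φ1 x) - (φ0 (x + h) - φ0 x)) ^ 2)
        + 4 * M * ‖h‖ * (ind K h x * (F1 (x + h) - F1 x) + ind K h x * (F0 (x + h) - F0 x))
        + 4 * M ^ 2 * ‖h‖ ^ 2 * lay K h x) =
      2 * (∫ x in K, ind K h x * ((φ1 (x + h) - φ1 x) - (φ0 (x + h) - φ0 x)) ^ 2)
      + 4 * M * ‖h‖ * ((∫ x in K, ind K h x * (F1 (x + h) - F1 x))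
        + (∫ x in K, ind K h x * (F0 (x + h) - F0 x)))
      + 4 * M ^ 2 * ‖h‖ ^ 2 * (∫ x in K, lay K h x) := by
    rw [integral_add (((BM.const_mul 2 (bi.mul bD.sq)).add
        (BM.const_mul (4 * M * ‖h‖) (bq1.add bq0))).integrableOn hK)
        ((BM.const_mul (4 * M ^ 2 * ‖h‖ ^ 2) bl).integrableOn hK),
      integral_add ((BM.const_mul 2 (bi.mul bD.sq)).integrableOn hK)
        ((BM.const_mul (4 * M * ‖h‖) (bq1.add bq0)).integrableOn hK),
      integral_const_mul, integral_const_mul, integral_const_mul,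
      integral_add (bq1.integrableOn hK) (bq0.integrableOn hK)]
  rw [ee] at step
  refine step.trans ?_
  have j1 : 4 * M * ‖h‖ * ((∫ x in K, ind K h x * (F1 (x + h) - F1 x))
        + (∫ x in K, ind K h x * (F0 (x + h) - F0 x))) ≤
      4 * M * ‖h‖ * (‖h‖ * M * (2 * C * ‖h‖) + ‖h‖ * M * (2 * C * ‖h‖)) := by gcongr
  have j2 : 4 * M ^ 2 * ‖h‖ ^ 2 * (∫ x in K, lay K h x) ≤ 4 * M ^ 2 * ‖h‖ ^ 2 * (2 * C * ‖h‖) := by
    gcongr
  nlinarith [j1, j2]

theorem coord_bound (hd : 0 < d) {K : Set (E d)} (hK : IsCompact K) (hKc : Convex ℝ K)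
    (hKi : (interior K).Nonempty) {R : ℝ≥0} (hKR : K ⊆ closedBall 0 R) {C : ℝ} (hC0 : 0 ≤ C)
    (hC : ∀ h : E d, ‖h‖ ≤ 1 → volume (((fun x => x + h) '' K) \ K) ≤ ENNReal.ofReal (C * ‖h‖))
    {M : ℝ≥0} {T0 T1 : E d → E d} {φ0 φ1 : E d → ℝ} (h0 : HasPotential K M T0 φ0)
    (h1 : HasPotential K M T1 φ1) {π : Measure (E d × E d)}
    (hπ0 : π.map Prod.fst = (uniform K).map T0) (hπ1 : π.map Prod.snd = (uniform K).map T1)
    {r : ℝ} (hr0 : 0 < r) (hr1 : r ≤ 1) (i : Fin d) :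
    ∫ x in K, (T1 x i - T0 x i) ^ 2 ≤
      32 * (M + 1) * √(30 * (R : ℝ) ^ 2 * C) * √(volume.real K) *
        (√(∫ p, ‖p.1 - p.2‖ ^ 2 ∂π) / √r) + (8 * (M + 1) * M + 24 * M ^ 2) * C * r := by
  set h : E d := EuclideanSpace.single i r with hh
  have hn : ‖h‖ = r := by rw [hh]; simp [abs_of_pos hr0]
  have hh1 : ‖h‖ ≤ 1 := by rw [hn]; exact hr1
  set κ : ℝ := 1 / (16 * (M + 1) * r) with hκ
  have hM1 : (0 : ℝ) < M + 1 := by positivity
  have hκ0 : 0 ≤ κ := by positivity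
  have hκ1 : κ * (2 * M * ‖h‖) ≤ 1 / 8 := by
    rw [hn, hκ]
    rw [div_mul_eq_mul_div, one_mul, div_le_iff₀ (by positivity)]
    nlinarith
  have e1 := energy_bound hd hK hKc hKi hKR hC0 hC h0 h1 hπ0 hπ1 hh1 hκ0 hκ1
  have e2 := comp_bound hK hC0 hC h0 h1 hh1
  set I := ∫ x in K, ind K h x * ((φ1 (x + h) - φ1 x) - (φ0 (x + h) - φ0 x)) ^ 2 with hI
  set V := ∫ p, ‖p.1 - p.2‖ ^ 2 ∂π with hV
  have hVn : 0 ≤ V := integral_nonneg fun _ => by positivity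
  rw [hn] at e1 e2
  have e3 : ∫ x in K, ⟪h, T1 x - T0 x⟫_ℝ ^ 2 = r ^ 2 * ∫ x in K, (T1 x i - T0 x i) ^ 2 := by
    rw [← integral_const_mul]
    congr 1
    ext x
    rw [hh, inner_single_eq]
    simp only [PiLp.sub_apply]
    ring
  rw [e3] at e2
  have e4 : I ≤ 16 * (M + 1) * r * (√(30 * (R : ℝ) ^ 2 * (C * r)) * √(volume.real K * V)
      + 1 / 8 * (r * M * (2 * C * r))) := by
    rw [hκ, div_mul_eq_mul_div, one_mul, div_le_iff₀ (by positivity)] at e1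
    linarith
  have s1 : √(30 * (R : ℝ) ^ 2 * (C * r)) = √(30 * (R : ℝ) ^ 2 * C) * √r := by
    rw [← Real.sqrt_mul (by positivity)]; congr 1; ring
  have s2 : √(volume.real K * V) = √(volume.real K) * √V := Real.sqrt_mul (by positivity) _
  rw [s1, s2] at e4
  have hr2 : 0 < r ^ 2 := by positivity
  have hsr : 0 < √r := Real.sqrt_pos.2 hr0
  have hsq : √r * √r = r := Real.mul_self_sqrt hr0.le
  rw [← sub_nonneg]
  have goal : 0 ≤ r ^ 2 * ((32 * (M + 1) * √(30 * (R : ℝ) ^ 2 * C) * √(volume.real K) *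
        (√V / √r) + (8 * (M + 1) * M + 24 * M ^ 2) * C * r)
        - ∫ x in K, (T1 x i - T0 x i) ^ 2) := by
    rw [mul_sub]
    have t1 : r ^ 2 * (32 * (M + 1) * √(30 * (R : ℝ) ^ 2 * C) * √(volume.real K) *
        (√V / √r) + (8 * (M + 1) * M + 24 * M ^ 2) * C * r) =
        32 * (M + 1) * r * (√(30 * (R : ℝ) ^ 2 * C) * √r * (√(volume.real K) * √V))
        + (8 * (M + 1) * M + 24 * M ^ 2) * C * r ^ 3 := by
      have : r ^ 2 / √r = r * √r := by
        rw [div_eq_iff hsr.ne']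
        calc r ^ 2 = r * r := by ring
          _ = r * (√r * √r) := by rw [hsq]
          _ = r * √r * √r := by ring
      calc _ = 32 * (M + 1) * √(30 * (R : ℝ) ^ 2 * C) * √(volume.real K) * √V * (r ^ 2 / √r)
            + (8 * (M + 1) * M + 24 * M ^ 2) * C * r ^ 3 := by ring
        _ = _ := by rw [this]; ring
    rw [t1]
    nlinarith [e2, e4]
  exact (mul_nonneg_iff_of_pos_left hr2).1 goal

theorem L2_bound (hd : 0 < d) {K : Set (E d)} (hK : IsCompact K) (hKc : Convex ℝ K)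
    (hKi : (interior K).Nonempty) (M : ℝ≥0) :
    ∃ A : ℝ, 0 ≤ A ∧ ∀ (T0 T1 : E d → E d) (φ0 φ1 : E d → ℝ), HasPotential K M T0 φ0 →
      HasPotential K M T1 φ1 → ∀ π : Measure (E d × E d), π.map Prod.fst = (uniform K).map T0 →
      π.map Prod.snd = (uniform K).map T1 → ∀ r : ℝ, 0 < r → r ≤ 1 →
      ∫ x in K, ‖T0 x - T1 x‖ ^ 2 ≤ A * (√(∫ p, ‖p.1 - p.2‖ ^ 2 ∂π) / √r + r) := by
  obtain ⟨C, hC0, hC⟩ := volume_translate_diff hK hKc hKi
  obtain ⟨R0, hR0⟩ := hK.isBounded.subset_closedBall 0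
  set R : ℝ≥0 := Real.toNNReal R0 with hR
  have hKR : K ⊆ closedBall 0 (R : ℝ) :=
    hR0.trans (closedBall_subset_closedBall (Real.le_coe_toNNReal R0))
  set A1 : ℝ := 32 * (M + 1) * √(30 * (R : ℝ) ^ 2 * C) * √(volume.real K) with hA1
  set A2 : ℝ := (8 * (M + 1) * M + 24 * M ^ 2) * C with hA2
  have hA1n : 0 ≤ A1 := by positivity
  have hA2n : 0 ≤ A2 := by positivity
  refine ⟨d * (A1 + A2), by positivity, fun T0 T1 φ0 φ1 h0 h1 π hπ0 hπ1 r hr0 hr1 => ?_⟩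
  have hb : ∀ i : Fin d, BM K (fun x => (T1 x i - T0 x i) ^ 2) := by
    intro i
    have m1 : Measurable fun x => T1 x i - T0 x i := by
      have a1 : Measurable fun x => T1 x i :=
        (EuclideanSpace.proj (𝕜 := ℝ) i).continuous.measurable.comp h1.meas
      have a0 : Measurable fun x => T0 x i :=
        (EuclideanSpace.proj (𝕜 := ℝ) i).continuous.measurable.comp h0.meas
      exact a1.sub a0
    refine BM.sq (BM.of_le m1 (B := 2 * M) fun x => ?_)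
    calc |T1 x i - T0 x i| = ‖(T1 x - T0 x) i‖ := rfl
      _ ≤ ‖T1 x - T0 x‖ := PiLp.norm_apply_le _ _
      _ ≤ ‖T1 x‖ + ‖T0 x‖ := norm_sub_le _ _
      _ ≤ 2 * M := by linarith [h1.bdd x, h0.bdd x]
  have e1 : ∫ x in K, ‖T0 x - T1 x‖ ^ 2 = ∑ i, ∫ x in K, (T1 x i - T0 x i) ^ 2 := by
    rw [← integral_finsetSum _ fun i _ => (hb i).integrableOn hK]
    congr 1
    ext x
    rw [norm_sub_rev, EuclideanSpace.norm_sq_eq]
    simp
  rw [e1]
  set S := √(∫ p, ‖p.1 - p.2‖ ^ 2 ∂π) / √r with hS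
  have hSn : 0 ≤ S := by positivity
  calc ∑ i, ∫ x in K, (T1 x i - T0 x i) ^ 2 ≤ ∑ _i : Fin d, (A1 * S + A2 * r) :=
        Finset.sum_le_sum fun i _ =>
          coord_bound hd hK hKc hKi hKR hC0 hC h0 h1 hπ0 hπ1 hr0 hr1 i
    _ = d * (A1 * S + A2 * r) := by
        rw [Finset.sum_const, Finset.card_univ, Fintype.card_fin, nsmul_eq_mul]
    _ ≤ d * ((A1 + A2) * (S + r)) := by
        apply mul_le_mul_of_nonneg_left _ (Nat.cast_nonneg d)
        nlinarith [mul_nonneg hA1n hr0.le, mul_nonneg hA2n hSn]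
    _ = d * (A1 + A2) * (S + r) := by ring

theorem L2_rate (hd : 0 < d) {K : Set (E d)} (hK : IsCompact K) (hKc : Convex ℝ K)
    (hKi : (interior K).Nonempty) (M : ℝ≥0) :
    ∃ B : ℝ, 0 < B ∧ ∀ (T0 T1 : E d → E d) (φ0 φ1 : E d → ℝ), HasPotential K M T0 φ0 →
      HasPotential K M T1 φ1 → ∀ π : Measure (E d × E d), π.map Prod.fst = (uniform K).map T0 →
      π.map Prod.snd = (uniform K).map T1 →
      ∫ x, ‖T0 x - T1 x‖ ^ 2 ∂(uniform K) ≤ B * (∫ p, ‖p.1 - p.2‖ ^ 2 ∂π) ^ (1 / 3 : ℝ) := by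
  obtain ⟨A, hA, H⟩ := L2_bound hd hK hKc hKi M
  have hv := volume_real_pos hK hKi
  have hprob := isProbabilityMeasure_uniform hK hKi
  refine ⟨2 * A / volume.real K + 4 * M ^ 2 + 1, by positivity,
    fun T0 T1 φ0 φ1 h0 h1 π hπ0 hπ1 => ?_⟩
  have H' := H T0 T1 φ0 φ1 h0 h1 π hπ0 hπ1
  set V := ∫ p, ‖p.1 - p.2‖ ^ 2 ∂π with hV
  have hVn : 0 ≤ V := integral_nonneg fun _ => by positivity
  have hVr : 0 ≤ V ^ (1 / 3 : ℝ) := by positivity
  have hI : ∫ x, ‖T0 x - T1 x‖ ^ 2 ∂(uniform K) =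
      (∫ x in K, ‖T0 x - T1 x‖ ^ 2) / volume.real K := by
    rw [eq_div_iff hv.ne', mul_comm]
    exact integral_uniform hK hKi _
  rcases hVn.eq_or_lt with hV0 | hV0
  · rw [← hV0] at H' ⊢
    simp only [Real.sqrt_zero, zero_div, zero_add] at H'
    rw [Real.zero_rpow (by norm_num), mul_zero, hI]
    apply div_nonpos_of_nonpos_of_nonneg _ hv.le
    by_contra hcon
    push Not at hcon
    set I := ∫ x in K, ‖T0 x - T1 x‖ ^ 2 with hIdef
    have h2 := H' (min 1 (I / (2 * (A + 1)))) (by positivity) (min_le_left _ _)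
    have h3 : A * min 1 (I / (2 * (A + 1))) ≤ A * (I / (2 * (A + 1))) := by
      gcongr; exact min_le_right _ _
    have h4 : A * (I / (2 * (A + 1))) < I := by
      rw [← mul_div_assoc, div_lt_iff₀ (by positivity)]
      nlinarith
    linarith
  · by_cases hV1 : V ≤ 1
    · have hr0 : 0 < V ^ (1 / 3 : ℝ) := by positivity
      have hr1 : V ^ (1 / 3 : ℝ) ≤ 1 := Real.rpow_le_one hVn hV1 (by norm_num)
      have h2 := H' _ hr0 hr1
      have h3 : √V / √(V ^ (1 / 3 : ℝ)) = V ^ (1 / 3 : ℝ) := by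
        rw [Real.sqrt_eq_rpow, Real.sqrt_eq_rpow, ← Real.rpow_mul hVn, ← Real.rpow_sub hV0]
        norm_num
      rw [h3] at h2
      rw [hI]
      have h4 : (∫ x in K, ‖T0 x - T1 x‖ ^ 2) / volume.real K ≤
          (A * (V ^ (1 / 3 : ℝ) + V ^ (1 / 3 : ℝ))) / volume.real K := by gcongr
      have h5 : (A * (V ^ (1 / 3 : ℝ) + V ^ (1 / 3 : ℝ))) / volume.real K =
          2 * A / volume.real K * V ^ (1 / 3 : ℝ) := by ring
      have h6 : 0 ≤ (4 * (M : ℝ) ^ 2 + 1) * V ^ (1 / 3 : ℝ) := by positivity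
      linarith
    · push Not at hV1
      have hs1 : 1 ≤ V ^ (1 / 3 : ℝ) := Real.one_le_rpow hV1.le (by norm_num)
      have hI2 : ∫ x, ‖T0 x - T1 x‖ ^ 2 ∂(uniform K) ≤ 4 * M ^ 2 := by
        calc _ ≤ ∫ _x, (4 * M ^ 2 : ℝ) ∂(uniform K) := by
              apply integral_mono_of_nonneg (Filter.Eventually.of_forall fun _ => by positivity)
                (integrable_const _)
              refine Filter.Eventually.of_forall fun x => ?_
              have h3 : ‖T0 x - T1 x‖ ≤ 2 * M := by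
                calc ‖T0 x - T1 x‖ ≤ ‖T0 x‖ + ‖T1 x‖ := norm_sub_le _ _
                  _ ≤ 2 * M := by linarith [h0.bdd x, h1.bdd x]
              calc ‖T0 x - T1 x‖ ^ 2 ≤ (2 * (M : ℝ)) ^ 2 := by gcongr
                _ = 4 * (M : ℝ) ^ 2 := by ring
          _ = 4 * M ^ 2 := by simp
      have h4 : (4 * (M : ℝ) ^ 2) * 1 ≤ (4 * (M : ℝ) ^ 2) * V ^ (1 / 3 : ℝ) := by gcongr
      have h5 : 0 ≤ (2 * A / volume.real K + 1) * V ^ (1 / 3 : ℝ) := by positivity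
      linarith

theorem L2_third (hd : 0 < d) {K : Set (E d)} (hK : IsCompact K) (hKc : Convex ℝ K)
    (hKi : (interior K).Nonempty) (M : ℝ≥0) :
    ∃ C : ℝ≥0, ∀ (T0 T1 : E d → E d) (φ0 φ1 : E d → ℝ), HasPotential K M T0 φ0 →
      HasPotential K M T1 φ1 →
      eLpNorm (fun x => T0 x - T1 x) 2 (uniform K) ≤
        C * W2 ((uniform K).map T0) ((uniform K).map T1) ^ (1 / 3 : ℝ) := by
  obtain ⟨B, hB, H⟩ := L2_rate hd hK hKc hKi M
  have hprob := isProbabilityMeasure_uniform hK hKi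
  set C : ℝ := B ^ (1 / 2 : ℝ) with hC
  have hCpos : 0 < C := by positivity
  refine ⟨Real.toNNReal C, fun T0 T1 φ0 φ1 h0 h1 => ?_⟩
  change _ ≤ ENNReal.ofReal C * _
  have hC0 : ENNReal.ofReal C ≠ 0 := by simpa using hCpos
  have hCt : ENNReal.ofReal C ≠ ∞ := ENNReal.ofReal_ne_top
  have key : ∀ π : Measure (E d × E d), π.map Prod.fst = (uniform K).map T0 →
      π.map Prod.snd = (uniform K).map T1 →
      eLpNorm (fun x => T0 x - T1 x) 2 (uniform K) ≤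
        ENNReal.ofReal C * (∫⁻ p, ‖p.1 - p.2‖ₑ ^ 2 ∂π) ^ (1 / 6 : ℝ) := by
    intro π hπ0 hπ1
    have hL := H T0 T1 φ0 φ1 h0 h1 π hπ0 hπ1
    have hπfin : IsProbabilityMeasure π := prob_of_map hK hKi h0.meas hπ0
    have hM := ae_norm_le h0.meas h1.meas h0.bdd h1.bdd hπ0 hπ1
    have hi2 : Integrable (fun p : E d × E d => ‖p.1 - p.2‖ ^ 2) π := by
      refine Integrable.of_bound (by fun_prop) ((2 * M) ^ 2) ?_
      filter_upwards [hM] with p hp
      rw [norm_pow, norm_norm]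
      have : ‖p.1 - p.2‖ ≤ 2 * M := (norm_sub_le _ _).trans (by linarith [hp.1, hp.2])
      gcongr
    set V : ℝ := ∫ p, ‖p.1 - p.2‖ ^ 2 ∂π with hV
    have hVn : 0 ≤ V := integral_nonneg fun _ => by positivity
    have hVl : ∫⁻ p, ‖p.1 - p.2‖ₑ ^ 2 ∂π = ENNReal.ofReal V := by
      rw [hV, ofReal_integral_eq_lintegral_ofReal hi2
        (Filter.Eventually.of_forall fun _ => by positivity)]
      apply lintegral_congr
      intro p
      rw [← ofReal_norm, ENNReal.ofReal_pow (norm_nonneg _)]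
    have iT : Integrable (fun x => ‖T0 x - T1 x‖ ^ 2) (uniform K) := by
      refine Integrable.of_bound
        ((h0.meas.sub h1.meas).norm.pow_const 2).aestronglyMeasurable ((2 * M) ^ 2) ?_
      refine Filter.Eventually.of_forall fun x => ?_
      rw [norm_pow, norm_norm]
      have : ‖T0 x - T1 x‖ ≤ 2 * M :=
        (norm_sub_le _ _).trans (by linarith [h0.bdd x, h1.bdd x])
      gcongr
    have hbound : ∫⁻ x, ‖T0 x - T1 x‖ₑ ^ (2 : ℝ) ∂(uniform K) ≤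
        ENNReal.ofReal (B * V ^ (1 / 3 : ℝ)) := by
      calc ∫⁻ x, ‖T0 x - T1 x‖ₑ ^ (2 : ℝ) ∂(uniform K)
          = ∫⁻ x, ENNReal.ofReal (‖T0 x - T1 x‖ ^ 2) ∂(uniform K) := by
            apply lintegral_congr
            intro x
            rw [← ofReal_norm, ENNReal.ofReal_rpow_of_nonneg (norm_nonneg _) (by norm_num),
              Real.rpow_two]
        _ = ENNReal.ofReal (∫ x, ‖T0 x - T1 x‖ ^ 2 ∂(uniform K)) := by
            rw [ofReal_integral_eq_lintegral_ofReal iT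
              (Filter.Eventually.of_forall fun _ => by positivity)]
        _ ≤ ENNReal.ofReal (B * V ^ (1 / 3 : ℝ)) := ENNReal.ofReal_le_ofReal hL
    rw [eLpNorm_eq_lintegral_rpow_enorm_toReal (by norm_num) (by norm_num), hVl]
    simp only [ENNReal.toReal_ofNat]
    calc (∫⁻ x, ‖T0 x - T1 x‖ₑ ^ (2 : ℝ) ∂(uniform K)) ^ (1 / (2 : ℝ))
        ≤ (ENNReal.ofReal (B * V ^ (1 / 3 : ℝ))) ^ (1 / (2 : ℝ)) := by gcongr
      _ = ENNReal.ofReal C * ENNReal.ofReal V ^ (1 / 6 : ℝ) := by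
        rw [ENNReal.ofReal_mul hB.le, ENNReal.mul_rpow_of_nonneg _ _ (by norm_num),
          ENNReal.ofReal_rpow_of_nonneg hB.le (by norm_num),
          ENNReal.ofReal_rpow_of_nonneg (by positivity) (by norm_num),
          ENNReal.ofReal_rpow_of_nonneg hVn (by norm_num), ← Real.rpow_mul hVn]
        norm_num [hC]
  unfold W2
  rw [← ENNReal.rpow_mul]
  norm_num only
  have hfin : ∀ x y : ℝ≥0∞, x ≤ ENNReal.ofReal C * y ^ (1 / 6 : ℝ) ↔
      (x / ENNReal.ofReal C) ^ (6 : ℝ) ≤ y := by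
    intro x y
    rw [mul_comm, ← ENNReal.div_le_iff hC0 hCt]
    constructor
    · intro h
      calc (x / ENNReal.ofReal C) ^ (6 : ℝ) ≤ (y ^ (1 / 6 : ℝ)) ^ (6 : ℝ) := by gcongr
        _ = y := by rw [← ENNReal.rpow_mul]; norm_num
    · intro h
      calc x / ENNReal.ofReal C = ((x / ENNReal.ofReal C) ^ (6 : ℝ)) ^ (1 / 6 : ℝ) := by
            rw [← ENNReal.rpow_mul]; norm_num
        _ ≤ y ^ (1 / 6 : ℝ) := by gcongr
  rw [hfin]
  refine le_iInf₂ fun π hπ => ?_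
  rw [← hfin]
  exact key π hπ.1 hπ.2

/-- the exponent `1/3` is admissible -/
theorem admissible_third (hd : 1 ≤ d) : Admissible d (1 / 3) := by
  refine ⟨by norm_num, by norm_num, fun K hK hKc hKi Y hY hYn => ?_⟩
  obtain ⟨M0, hM0⟩ := hY.isBounded.subset_closedBall 0
  set M : ℝ≥0 := Real.toNNReal M0 with hMdef
  have hM : ∀ y ∈ Y, ‖y‖ ≤ M := by
    intro y hy
    have h1 : ‖y‖ ≤ M0 := by simpa using hM0 hy
    exact h1.trans (Real.le_coe_toNNReal M0)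
  obtain ⟨C, hC⟩ := L2_third hd hK hKc hKi M
  refine ⟨C, fun μ ν _ _ hμ hν Tμ Tν hTμ hTν => ?_⟩
  obtain ⟨T0, φ0, h0, hm0, hae0⟩ := exists_modification hK hKc hKi hY hYn hM hμ hTμ
  obtain ⟨T1, φ1, h1, hm1, hae1⟩ := exists_modification hK hKc hKi hY hYn hM hν hTν
  have h2 := hC T0 T1 φ0 φ1 h0 h1
  rw [hm0, hm1] at h2
  refine le_trans (le_of_eq ?_) h2
  apply eLpNorm_congr_ae
  filter_upwards [hae0, hae1] with x hx0 hx1
  rw [hx0, hx1]

end Vale.Agent.P074
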