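import Vale.Agent.P074.Weights
import Vale.Agent.P074.CellIneq

/-!
# Duality for semidiscrete plans and the path inequality
-/

open MeasureTheory Set Metric
open scoped ENNReal NNReal InnerProductSpace

namespace Vale.Agent.P074

variable {d n : ℕ}

theorem integrableOn_smul_cont {V : Type*} [NormedAddCommGroup V] [NormedSpace ℝ V]
    {K : Set (E d)} (hK : IsCompact K)
    {f : E d → ℝ} (hf : Measurable f) (hf1 : ∀ x, |f x| ≤ 1 / 2) {g : E d → V}
    (hg : Continuous g) : IntegrableOn (fun x => (1 + f x) • g x) K := by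
  have h1 : IntegrableOn g K := hg.continuousOn.integrableOn_compact hK
  refine Integrable.mono' ((h1.norm).const_mul (3 / 2)) ?_ ?_
  · exact ((measurable_const.add hf).aestronglyMeasurable).smul h1.aestronglyMeasurable
  · refine Filter.Eventually.of_forall fun x => ?_
    rw [norm_smul]
    have h2 : ‖1 + f x‖ ≤ 3 / 2 := by
      rw [Real.norm_eq_abs, abs_le]
      have := abs_le.1 (hf1 x)
      constructor <;> linarith [this.1, this.2]
    exact mul_le_mul_of_nonneg_right h2 (norm_nonneg _)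

theorem integrableOn_mul_cont {K : Set (E d)} (hK : IsCompact K)
    {f : E d → ℝ} (hf : Measurable f) (hf1 : ∀ x, |f x| ≤ 1 / 2) {g : E d → ℝ}
    (hg : Continuous g) : IntegrableOn (fun x => g x * (1 + f x)) K := by
  refine (integrableOn_smul_cont hK hf hf1 hg).congr_fun_ae ?_
  exact Filter.Eventually.of_forall fun x => by simp [mul_comm]

theorem integrableOn_one_add_path {K : Set (E d)} (hK : IsCompact K)
    {f : E d → ℝ} (hf : Measurable f) (hf1 : ∀ x, |f x| ≤ 1 / 2) :
    IntegrableOn (fun x => 1 + f x) K := by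
  refine (integrableOn_mul_cont hK hf hf1 (g := fun _ => (1 : ℝ)) continuous_const).congr_fun_ae ?_
  exact Filter.Eventually.of_forall fun x => by simp

theorem inner_mom {K : Set (E d)} (hK : IsCompact K) {f : E d → ℝ}
    (hf : Measurable f) (hf1 : ∀ x, |f x| ≤ 1 / 2) (y : Fin n → E d) (w : Fin n → ℝ)
    (i : Fin n) (z : E d) :
    ⟪mom K f y w i, z⟫_ℝ = ∫ x in cell K y w i, ⟪x, z⟫_ℝ * (1 + f x) := by
  have hI : IntegrableOn (fun x : E d => (1 + f x) • x) (cell K y w i) :=
    integrableOn_smul_cont (isCompact_cell hK y w i) hf hf1 continuous_id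
  rw [real_inner_comm, mom, ← integral_inner hI]
  refine integral_congr_ae (Filter.Eventually.of_forall fun x => ?_)
  simp only [real_inner_smul_right]
  rw [real_inner_comm, mul_comm]

/-- integrating an upper bound over the cells -/
theorem sum_inner_le (hn : 0 < n) {K : Set (E d)} (hK : IsCompact K) {f : E d → ℝ}
    (hf : Measurable f) (hf1 : ∀ x, |f x| ≤ 1 / 2) {m : Fin n → ℝ} {y : Fin n → E d}
    (hy : Function.Injective y) {w : Fin n → ℝ} (hw : Fits K f m y w) {φ : E d → ℝ}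
    (hφ : Continuous φ) (z : Fin n → E d) (c : Fin n → ℝ)
    (h : ∀ x ∈ K, ∀ i, ⟪x, z i⟫_ℝ ≤ φ x + c i) :
    ∑ i, ⟪mom K f y w i, z i⟫_ℝ ≤ (∫ x in K, φ x * (1 + f x)) + ∑ i, m i * c i := by
  rw [integral_cells hn hK hy w (integrableOn_mul_cont hK hf hf1 hφ), ← Finset.sum_add_distrib]
  refine Finset.sum_le_sum fun i _ => ?_
  rw [inner_mom hK hf hf1, ← hw i]
  have hC := isCompact_cell hK y w i
  have e1 : (∫ x in cell K y w i, (1 + f x)) * c i = ∫ x in cell K y w i, c i * (1 + f x) := by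
    rw [integral_const_mul, mul_comm]
  rw [e1, ← integral_add (integrableOn_mul_cont hC hf hf1 hφ)
    ((integrableOn_one_add_path hC hf hf1).const_mul _)]
  refine setIntegral_mono_on ?_ ?_ (measurableSet_cell hK y w i) ?_
  · exact integrableOn_mul_cont hC hf hf1 (by fun_prop)
  · exact (integrableOn_mul_cont hC hf hf1 hφ).add
      ((integrableOn_one_add_path hC hf hf1).const_mul _)
  · intro x hx
    have h0 : 0 ≤ 1 + f x := by
      have := (abs_le.1 (hf1 x)).1
      linarith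
    have := mul_le_mul_of_nonneg_right (h x hx.1 i) h0
    linarith [this, add_mul (φ x) (c i) (1 + f x)]

/-- weak duality for the cells -/
theorem val_le_of_potentials (hn : 0 < n) {K : Set (E d)} (hK : IsCompact K) {f : E d → ℝ}
    (hf : Measurable f) (hf1 : ∀ x, |f x| ≤ 1 / 2) {m : Fin n → ℝ} {y : Fin n → E d}
    (hy : Function.Injective y) {w : Fin n → ℝ} (hw : Fits K f m y w) {φ : E d → ℝ}
    {ψ : E d → ℝ} (hφ : Continuous φ) (h : ∀ x ∈ K, ∀ i, ⟪x, y i⟫_ℝ ≤ φ x + ψ (y i)) :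
    val K f y w ≤ (∫ x in K, φ x * (1 + f x)) + ∑ i, m i * ψ (y i) :=
  sum_inner_le hn hK hf hf1 hy hw hφ y (fun i => ψ (y i)) h

/-- the value of the optimal semidiscrete plan, in terms of the dual potentials -/
theorem exists_dual (hn : 0 < n) {R : ℝ≥0} {K : Set (E d)} (hK : IsCompact K)
    (hKR : K ⊆ closedBall 0 R) {f : E d → ℝ} (hf : Measurable f) (hf1 : ∀ x, |f x| ≤ 1 / 2)
    {m : Fin n → ℝ} (hm : ∀ i, 0 ≤ m i) {y : Fin n → E d} (hy : Function.Injective y)
    {w : Fin n → ℝ} (hw : Fits K f m y w) :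
    ∃ φ ψ : E d → ℝ, Continuous φ ∧ LipschitzWith R ψ ∧ (∀ x ∈ K, ∀ z, ⟪x, z⟫_ℝ ≤ φ x + ψ z) ∧
      (∫ x in K, φ x * (1 + f x)) + ∑ i, m i * ψ (y i) ≤ val K f y w := by
  rcases K.eq_empty_or_nonempty with rfl | hne
  · refine ⟨fun _ => 0, fun _ => 0, continuous_const, LipschitzWith.const' 0 |>.weaken zero_le,
      fun x hx => absurd hx (notMem_empty x), ?_⟩
    simp only [zero_mul, mul_zero, Finset.sum_const_zero, integral_zero, add_zero]
    have : val (∅ : Set (E d)) f y w = 0 := by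
      unfold val mom
      refine Finset.sum_eq_zero fun i _ => ?_
      have : cell (∅ : Set (E d)) y w i = ∅ := by
        ext x; simp [cell]
      rw [this]; simp
    rw [this]
  have : Nonempty (Fin n) := ⟨⟨0, hn⟩⟩
  have huniv : (Finset.univ : Finset (Fin n)).Nonempty := Finset.univ_nonempty
  set φ : E d → ℝ := fun x => Finset.univ.sup' huniv fun i => ⟪x, y i⟫_ℝ - w i with hφdef
  have hφc : Continuous φ := by
    have : ∀ i ∈ (Finset.univ : Finset (Fin n)), Continuous fun x : E d => ⟪x, y i⟫_ℝ - w i :=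
      fun i _ => by fun_prop
    exact Continuous.finset_sup'_apply huniv this
  have hφle : ∀ x i, ⟪x, y i⟫_ℝ - w i ≤ φ x := fun x i =>
    Finset.le_sup' (fun i => ⟪x, y i⟫_ℝ - w i) (Finset.mem_univ i)
  have hφeq : ∀ i, ∀ x ∈ cell K y w i, φ x = ⟪x, y i⟫_ℝ - w i := fun i x hx =>
    le_antisymm (Finset.sup'_le _ _ fun j _ => hx.2 j) (hφle x i)
  set ψ : E d → ℝ := fun z => sSup ((fun x => ⟪x, z⟫_ℝ - φ x) '' K) with hψdef
  have hbdd : ∀ z, BddAbove ((fun x => ⟪x, z⟫_ℝ - φ x) '' K) := fun z =>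
    (hK.image (by fun_prop)).bddAbove
  have hψ1 : ∀ x ∈ K, ∀ z, ⟪x, z⟫_ℝ - φ x ≤ ψ z := fun x hx z =>
    le_csSup (hbdd z) ⟨x, hx, rfl⟩
  have hψ2 : ∀ z c, (∀ x ∈ K, ⟪x, z⟫_ℝ - φ x ≤ c) → ψ z ≤ c := fun z c h =>
    csSup_le (hne.image _) (by rintro _ ⟨x, hx, rfl⟩; exact h x hx)
  refine ⟨φ, ψ, hφc, ?_, fun x hx z => by linarith [hψ1 x hx z], ?_⟩
  · refine LipschitzWith.of_le_add_mul R fun z z' => hψ2 z _ fun x hx => ?_
    have h1 := hψ1 x hx z'
    have h2 : ⟪x, z⟫_ℝ - ⟪x, z'⟫_ℝ ≤ R * dist z z' := by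
      rw [← inner_sub_right, dist_eq_norm]
      refine (real_inner_le_norm _ _).trans (mul_le_mul_of_nonneg_right ?_ (norm_nonneg _))
      simpa using hKR hx
    linarith
  · have hψw : ∀ i, ψ (y i) ≤ w i := fun i => hψ2 _ _ fun x _ => by linarith [hφle x i]
    have e : ∫ x in K, φ x * (1 + f x) = val K f y w - ∑ i, m i * w i := by
      rw [integral_cells hn hK hy w (integrableOn_mul_cont hK hf hf1 hφc), val,
        ← Finset.sum_sub_distrib]
      refine Finset.sum_congr rfl fun i _ => ?_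
      have hC := isCompact_cell hK y w i
      rw [inner_mom hK hf hf1, ← hw i]
      have e1 : (∫ x in cell K y w i, (1 + f x)) * w i
          = ∫ x in cell K y w i, w i * (1 + f x) := by
        rw [integral_const_mul, mul_comm]
      rw [e1, ← integral_sub (integrableOn_mul_cont hC hf hf1 (by fun_prop))
        ((integrableOn_one_add_path hC hf hf1).const_mul _)]
      refine setIntegral_congr_fun (measurableSet_cell hK y w i) fun x hx => ?_
      simp only [hφeq i x hx]
      ring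
    have h3 : ∑ i, m i * ψ (y i) ≤ ∑ i, m i * w i :=
      Finset.sum_le_sum fun i _ => mul_le_mul_of_nonneg_left (hψw i) (hm i)
    linarith

/-- comparison of a plan with the optimal value for other sites -/
theorem sum_inner_le_val (hn : 0 < n) {R : ℝ≥0} {K : Set (E d)} (hK : IsCompact K)
    (hKR : K ⊆ closedBall 0 R) {f : E d → ℝ} (hf : Measurable f) (hf1 : ∀ x, |f x| ≤ 1 / 2)
    {m : Fin n → ℝ} (hm : ∀ i, 0 ≤ m i) {y z : Fin n → E d} (hy : Function.Injective y)
    (hz : Function.Injective z) {w u : Fin n → ℝ} (hw : Fits K f m y w) (hu : Fits K f m z u) :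
    ∑ i, ⟪mom K f y w i, z i⟫_ℝ ≤ val K f z u := by
  obtain ⟨φ, ψ, hφ, -, hle, hval⟩ := exists_dual hn hK hKR hf hf1 hm hz hu
  exact (sum_inner_le hn hK hf hf1 hy hw hφ z (fun i => ψ (z i))
    fun x hx i => hle x hx (z i)).trans hval

theorem val_unique (hn : 0 < n) {R : ℝ≥0} {K : Set (E d)} (hK : IsCompact K)
    (hKR : K ⊆ closedBall 0 R) {f : E d → ℝ} (hf : Measurable f) (hf1 : ∀ x, |f x| ≤ 1 / 2)
    {m : Fin n → ℝ} (hm : ∀ i, 0 ≤ m i) {y : Fin n → E d} (hy : Function.Injective y)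
    {w u : Fin n → ℝ} (hw : Fits K f m y w) (hu : Fits K f m y u) :
    val K f y w = val K f y u :=
  le_antisymm (sum_inner_le_val hn hK hKR hf hf1 hm hy hy hw hu)
    (sum_inner_le_val hn hK hKR hf hf1 hm hy hy hu hw)

theorem norm_mom_zero_le {R : ℝ} {K : Set (E d)} (hK : IsCompact K)
    (hKR : K ⊆ closedBall 0 R) {m : Fin n → ℝ} {y : Fin n → E d} {w : Fin n → ℝ}
    (hw : Fits K 0 m y w) (i : Fin n) : ‖mom K 0 y w i‖ ≤ R * m i := by
  have hC := isCompact_cell hK y w i
  have h1 : m i = volume.real (cell K y w i) := by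
    rw [← hw i]; simp
  rw [h1, mom]
  refine norm_setIntegral_le_of_norm_le_const hC.measure_lt_top fun x hx => ?_
  have := hKR hx.1
  simpa using this

theorem path_ineq (hn : 0 < n) {R : ℝ} {K : Set (E d)} (hK : IsCompact K) (hKc : Convex ℝ K)
    (hKR : K ⊆ closedBall 0 R) {f : E d → ℝ} (hf : Measurable f) (hf1 : ∀ x, |f x| ≤ 1 / 2)
    (hf0 : ∫ x in K, f x = 0) {m : Fin n → ℝ} (hm : ∀ i, 0 < m i)
    (hsum : ∑ i, m i = volume.real K) {N : ℕ} (hN : 0 < N) {y v : Fin n → E d}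
    (hinj : ∀ k : ℕ, k ≤ N → Function.Injective fun i => y i + ((k : ℝ) / N) • v i)
    {w0 w1 u0 u1 : Fin n → ℝ} (hw0 : Fits K 0 m y w0) (hw1 : Fits K 0 m (y + v) w1)
    (hu0 : Fits K f m y u0) (hu1 : Fits K f m (y + v) u1) :
    (val K f (y + v) u1 - val K 0 (y + v) w1) - (val K f y u0 - val K 0 y w0) ≤
      √(30 * R ^ 2 * (∫ x in K, f x ^ 2)) * √(∑ i, m i * ‖v i‖ ^ 2)
        + 2 * R * (∑ i, m i * ‖v i‖) / N := by
  have hm0 : ∀ i, 0 ≤ m i := fun i => (hm i).le
  have : Nonempty (Fin n) := ⟨⟨0, hn⟩⟩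
  have hKne : K.Nonempty := by
    rw [nonempty_iff_ne_empty]
    rintro rfl
    have : 0 < ∑ i, m i := Finset.sum_pos (fun i _ => hm i) Finset.univ_nonempty
    rw [hsum] at this
    simp at this
  have hR : 0 ≤ R := by
    obtain ⟨x, hx⟩ := hKne
    have := hKR hx
    rw [mem_closedBall] at this
    exact dist_nonneg.trans this
  lift R to ℝ≥0 using hR
  have hz : ∀ x : E d, |(0 : E d → ℝ) x| ≤ 1 / 2 := fun x => by norm_num
  have hzm : Measurable (0 : E d → ℝ) := measurable_zero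
  set Y : ℕ → Fin n → E d := fun k i => y i + ((k : ℝ) / N) • v i with hYdef
  have hNr : (0 : ℝ) < N := by exact_mod_cast hN
  have hY0 : Y 0 = y := by funext i; simp [hYdef]
  have hYN : Y N = y + v := by
    funext i
    simp [hYdef, div_self hNr.ne']
  have hYs : ∀ k i, Y (k + 1) i - Y k i = (1 / (N : ℝ)) • v i := by
    intro k i
    simp only [hYdef]
    rw [add_sub_add_left_eq_sub, ← sub_smul]
    congr 1
    push_cast
    ring
  have hfi : IntegrableOn f K := by
    have := (integrableOn_one_add_path hK hf hf1).sub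
      (integrableOn_const (C := (1 : ℝ)) hK.measure_lt_top.ne)
    refine this.congr_fun_ae (Filter.Eventually.of_forall fun x => ?_)
    simp
  have hs0 : ∑ i, m i = ∫ x in K, (1 + (0 : E d → ℝ) x) := by
    rw [hsum]; simp
  have hsf : ∑ i, m i = ∫ x in K, (1 + f x) := by
    rw [hsum, integral_add (integrableOn_const (C := (1 : ℝ)) hK.measure_lt_top.ne) hfi, hf0]
    simp
  have hW : ∀ k, ∃ w : Fin n → ℝ, k ≤ N → Fits K 0 m (Y k) w := fun k => by
    by_cases hk : k ≤ N
    · obtain ⟨w, hw⟩ := exists_weights hn hK hzm hz (hinj k hk) hm hs0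
      exact ⟨w, fun _ => hw⟩
    · exact ⟨0, fun h => absurd h hk⟩
  have hU : ∀ k, ∃ u : Fin n → ℝ, k ≤ N → Fits K f m (Y k) u := fun k => by
    by_cases hk : k ≤ N
    · obtain ⟨w, hw⟩ := exists_weights hn hK hf hf1 (hinj k hk) hm hsf
      exact ⟨w, fun _ => hw⟩
    · exact ⟨0, fun h => absurd h hk⟩
  choose W hW using hW
  choose U hU using hU
  -- values
  have e1 : val K f (y + v) u1 = val K f (Y N) (U N) := by
    rw [← hYN] at hu1 ⊢
    exact val_unique hn hK hKR hf hf1 hm0 (hinj N le_rfl) hu1 (hU N le_rfl)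
  have e2 : val K 0 (y + v) w1 = val K 0 (Y N) (W N) := by
    rw [← hYN] at hw1 ⊢
    exact val_unique hn hK hKR hzm hz hm0 (hinj N le_rfl) hw1 (hW N le_rfl)
  have e3 : val K f y u0 = val K f (Y 0) (U 0) := by
    have hu0' : Fits K f m (Y 0) u0 := by rw [hY0]; exact hu0
    have := val_unique hn hK hKR hf hf1 hm0 (hinj 0 (Nat.zero_le _)) hu0' (hU 0 (Nat.zero_le _))
    change val K f (Y 0) u0 = _ at this
    rw [← this, hY0]
  have e4 : val K 0 y w0 = val K 0 (Y 0) (W 0) := by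
    have hw0' : Fits K 0 m (Y 0) w0 := by rw [hY0]; exact hw0
    have := val_unique hn hK hKR hzm hz hm0 (hinj 0 (Nat.zero_le _)) hw0' (hW 0 (Nat.zero_le _))
    change val K 0 (Y 0) w0 = _ at this
    rw [← this, hY0]
  rw [e1, e2, e3, e4]
  -- one step
  set A : ℕ → ℝ := fun k => ∑ i, ⟪mom K f (Y k) (U k) i, v i⟫_ℝ with hA
  set B : ℕ → ℝ := fun k => ∑ i, ⟪mom K 0 (Y k) (W k) i, v i⟫_ℝ with hB
  have hstepF : ∀ k, k + 1 ≤ N → val K f (Y (k + 1)) (U (k + 1)) - val K f (Y k) (U k)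
      ≤ A (k + 1) / N := by
    intro k hk
    have h := sum_inner_le_val hn hK hKR hf hf1 hm0 (hinj (k + 1) hk) (hinj k (by omega))
      (hU (k + 1) hk) (hU k (by omega))
    have h2 : val K f (Y (k + 1)) (U (k + 1))
        - ∑ i, ⟪mom K f (Y (k + 1)) (U (k + 1)) i, Y k i⟫_ℝ = A (k + 1) / N := by
      simp only [hA]
      rw [val, ← Finset.sum_sub_distrib, Finset.sum_div]
      refine Finset.sum_congr rfl fun i _ => ?_
      rw [← inner_sub_right, hYs, real_inner_smul_right]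
      ring
    have h' : ∑ i, ⟪mom K f (Y (k + 1)) (U (k + 1)) i, Y k i⟫_ℝ ≤ val K f (Y k) (U k) := h
    linarith
  have hstepG : ∀ k, k + 1 ≤ N → B k / N ≤
      val K 0 (Y (k + 1)) (W (k + 1)) - val K 0 (Y k) (W k) := by
    intro k hk
    have h := sum_inner_le_val hn hK hKR hzm hz hm0 (hinj k (by omega)) (hinj (k + 1) hk)
      (hW k (by omega)) (hW (k + 1) hk)
    have h2 : ∑ i, ⟪mom K 0 (Y k) (W k) i, Y (k + 1) i⟫_ℝ - val K 0 (Y k) (W k) = B k / N := by
      simp only [hB]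
      rw [val, ← Finset.sum_sub_distrib, Finset.sum_div]
      refine Finset.sum_congr rfl fun i _ => ?_
      rw [← inner_sub_right, hYs, real_inner_smul_right]
      ring
    have h' : ∑ i, ⟪mom K 0 (Y k) (W k) i, Y (k + 1) i⟫_ℝ
        ≤ val K 0 (Y (k + 1)) (W (k + 1)) := h
    linarith
  -- cells inequality at each grid point
  set S : ℝ := √(30 * (R : ℝ) ^ 2 * (∫ x in K, f x ^ 2)) * √(∑ i, m i * ‖v i‖ ^ 2) with hS
  have hAB : ∀ k, k ≤ N → A k - B k ≤ S := by
    intro k hk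
    have hc := cells_ineq hn hK hKc hKR hf hf1 (hinj k hk) (hW k hk) (hU k hk)
    have hc' : ∑ i, ‖mom K f (Y k) (U k) i - mom K 0 (Y k) (W k) i‖ ^ 2 / m i ≤
        30 * (R : ℝ) ^ 2 * (∫ x in K, f x ^ 2) := hc
    simp only [hA, hB]
    rw [← Finset.sum_sub_distrib]
    have t1 : ∀ i, ⟪mom K f (Y k) (U k) i, v i⟫_ℝ - ⟪mom K 0 (Y k) (W k) i, v i⟫_ℝ ≤
        (‖mom K f (Y k) (U k) i - mom K 0 (Y k) (W k) i‖ / √(m i)) * (√(m i) * ‖v i‖) := by
      intro i
      rw [← inner_sub_left]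
      refine (real_inner_le_norm _ _).trans (le_of_eq ?_)
      have : √(m i) ≠ 0 := (Real.sqrt_pos.2 (hm i)).ne'
      field_simp
    refine (Finset.sum_le_sum fun i _ => t1 i).trans ?_
    refine (Real.sum_mul_le_sqrt_mul_sqrt _ _ _).trans ?_
    rw [hS]
    refine mul_le_mul (Real.sqrt_le_sqrt ?_) (le_of_eq ?_) (Real.sqrt_nonneg _)
      (Real.sqrt_nonneg _)
    · refine le_trans (le_of_eq ?_) hc'
      refine Finset.sum_congr rfl fun i _ => ?_
      rw [div_pow, Real.sq_sqrt (hm0 i)]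
    · congr 1
      refine Finset.sum_congr rfl fun i _ => ?_
      rw [mul_pow, Real.sq_sqrt (hm0 i)]
  have hrem : B N - B 0 ≤ 2 * R * ∑ i, m i * ‖v i‖ := by
    have hb : ∀ k, k ≤ N → |B k| ≤ R * ∑ i, m i * ‖v i‖ := by
      intro k hk
      simp only [hB]
      refine (Finset.abs_sum_le_sum_abs _ _).trans ?_
      rw [Finset.mul_sum]
      refine Finset.sum_le_sum fun i _ => ?_
      refine (abs_real_inner_le_norm _ _).trans ?_
      have := mul_le_mul_of_nonneg_right (norm_mom_zero_le hK hKR (hW k hk) i)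
        (norm_nonneg (v i))
      linarith
    have b1 := (abs_le.1 (hb N le_rfl)).2
    have b2 := (abs_le.1 (hb 0 (Nat.zero_le _))).1
    linarith
  -- induction along the path
  have key : ∀ k, k ≤ N →
      (val K f (Y k) (U k) - val K 0 (Y k) (W k)) - (val K f (Y 0) (U 0) - val K 0 (Y 0) (W 0))
        ≤ k * S / N + (B k - B 0) / N := by
    intro k
    induction k with
    | zero => intro _; simp
    | succ k ih =>
      intro hk
      have i1 := ih (by omega)
      have i2 := hstepF k hk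
      have i3 := hstepG k hk
      have i4 := hAB (k + 1) hk
      have i5 : A (k + 1) / N ≤ (B (k + 1) + S) / N := by
        gcongr
        linarith
      have i6 : (B (k + 1) + S) / N - B k / N + (k * S / N + (B k - B 0) / N)
          = ((k + 1 : ℕ) : ℝ) * S / N + (B (k + 1) - B 0) / N := by
        push_cast
        ring
      linarith
  have hfin := key N le_rfl
  have hNN : (N : ℝ) * S / N = S := by field_simp
  rw [hNN] at hfin
  have hr2 : (B N - B 0) / N ≤ 2 * R * (∑ i, m i * ‖v i‖) / N := by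
    gcongr
  linarith

end Vale.Agent.P074
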