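import Vale.Agent.P074.Weights
import Vale.Agent.P074.Path
import Vale.Agent.P074.Atomize

open MeasureTheory Set Metric
open scoped ENNReal NNReal InnerProductSpace

namespace Vale.Agent.P074

variable {d n : ℕ}

theorem master_step (hd : 0 < d) {R : ℝ≥0} {K : Set (E d)} (hK : IsCompact K) (hKc : Convex ℝ K)
    (hKi : (interior K).Nonempty) (hKR : K ⊆ closedBall 0 R)
    {f : E d → ℝ} (hf : Measurable f) (hf1 : ∀ x, |f x| ≤ 1 / 2) (hf0 : ∫ x in K, f x = 0)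
    {π : Measure (E d × E d)} [IsProbabilityMeasure π] {M : ℝ}
    (hM : ∀ᵐ p ∂π, ‖p.1‖ ≤ M ∧ ‖p.2‖ ≤ M)
    {φ0 ψ0 φ1 ψ1 : E d → ℝ} (hφ0 : Continuous φ0) (hφ1 : Continuous φ1)
    (hψ0 : LipschitzWith R ψ0) (hψ1 : LipschitzWith R ψ1)
    (h0 : ∀ x ∈ K, ∀ z, ⟪x, z⟫_ℝ ≤ φ0 x + ψ0 z) (h1 : ∀ x ∈ K, ∀ z, ⟪x, z⟫_ℝ ≤ φ1 x + ψ1 z)
    {A D : ℝ}
    (hA : ∀ φ ψ : E d → ℝ, Continuous φ → LipschitzWith R ψ →
      (∀ x ∈ K, ∀ z, ⟪x, z⟫_ℝ ≤ φ x + ψ z) →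
      A ≤ (∫ x in K, φ x * (1 + f x)) + volume.real K * (∫ p, ψ p.2 ∂π))
    (hD : ∀ φ ψ : E d → ℝ, Continuous φ → LipschitzWith R ψ →
      (∀ x ∈ K, ∀ z, ⟪x, z⟫_ℝ ≤ φ x + ψ z) →
      D ≤ (∫ x in K, φ x) + volume.real K * (∫ p, ψ p.1 ∂π))
    {δ : ℝ} (hδ : 0 < δ) {N : ℕ} (hN : 0 < N) :
    (A - ((∫ x in K, φ1 x) + volume.real K * (∫ p, ψ1 p.2 ∂π)))
      - (((∫ x in K, φ0 x * (1 + f x)) + volume.real K * (∫ p, ψ0 p.1 ∂π)) - D) ≤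
      √(30 * (R : ℝ) ^ 2 * (∫ x in K, f x ^ 2)) *
        √(volume.real K * ((∫ p, ‖p.1 - p.2‖ ^ 2 ∂π) + δ))
        + 2 * R * (volume.real K * (2 * M + δ)) / N + 4 * (volume.real K * (R * δ)) := by
  have hvK : 0 < volume.real K := by
    rw [measureReal_def, ENNReal.toReal_pos_iff]
    exact ⟨(isOpen_interior.measure_pos volume hKi).trans_le (measure_mono interior_subset),
      hK.measure_lt_top⟩
  set V := volume.real K with hV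
  obtain ⟨n, m, y, v, hm, hm1, hv, hinj, hl1, hl2, hc⟩ := atomize hd hM hδ N
  have hn : 0 < n := by
    rcases Nat.eq_zero_or_pos n with h | h
    · subst h; simp at hm1
    · exact h
  have hN' : (N : ℝ) ≠ 0 := by positivity
  have hy0 : Function.Injective y := by
    have := hinj 0 (Nat.zero_le _)
    simpa using this
  have hy1 : Function.Injective (y + v) := by
    have := hinj N le_rfl
    rw [div_self hN'] at this
    simpa [Pi.add_def] using this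
  have hmm : ∀ i, 0 < V * m i := fun i => mul_pos hvK (hm i)
  have hsumV : ∑ i, V * m i = V := by rw [← Finset.mul_sum, hm1, mul_one]
  have hfi : IntegrableOn f K := by
    refine Measure.integrableOn_of_bounded (M := 1 / 2) hK.measure_lt_top.ne
      hf.aestronglyMeasurable ?_
    exact Filter.Eventually.of_forall fun x => by simpa using hf1 x
  have hone : IntegrableOn (fun _ : E d => (1 : ℝ)) K :=
    integrableOn_const hK.measure_lt_top.ne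
  have hs0 : ∑ i, V * m i = ∫ x in K, (1 + (0 : E d → ℝ) x) := by
    rw [hsumV]; simp [hV]
  have hsf : ∑ i, V * m i = ∫ x in K, (1 + f x) := by
    rw [hsumV, integral_add hone hfi, hf0]; simp [hV]
  have hz1 : ∀ x : E d, |(0 : E d → ℝ) x| ≤ 1 / 2 := fun x => by simp
  obtain ⟨w0, hw0⟩ := exists_weights hn hK (f := 0) measurable_zero hz1 hy0 hmm hs0
  obtain ⟨w1, hw1⟩ := exists_weights hn hK (f := 0) measurable_zero hz1 hy1 hmm hs0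
  obtain ⟨u0, hu0⟩ := exists_weights hn hK hf hf1 hy0 hmm hsf
  obtain ⟨u1, hu1⟩ := exists_weights hn hK hf hf1 hy1 hmm hsf
  have e1 : ∀ {ψ : E d → ℝ}, LipschitzWith R ψ →
      |V * (∫ p, ψ p.1 ∂π) - ∑ i, V * m i * ψ (y i)| ≤ V * (R * δ) := by
    intro ψ hψ
    have h := hl1 R ψ hψ
    have : V * (∫ p, ψ p.1 ∂π) - ∑ i, V * m i * ψ (y i)
        = V * ((∫ p, ψ p.1 ∂π) - ∑ i, m i * ψ (y i)) := by
      rw [mul_sub, Finset.mul_sum]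
      simp only [mul_assoc]
    rw [this, abs_mul, abs_of_pos hvK]
    exact mul_le_mul_of_nonneg_left h hvK.le
  have e2 : ∀ {ψ : E d → ℝ}, LipschitzWith R ψ →
      |V * (∫ p, ψ p.2 ∂π) - ∑ i, V * m i * ψ ((y + v) i)| ≤ V * (R * δ) := by
    intro ψ hψ
    have h := hl2 R ψ hψ
    have : V * (∫ p, ψ p.2 ∂π) - ∑ i, V * m i * ψ ((y + v) i)
        = V * ((∫ p, ψ p.2 ∂π) - ∑ i, m i * ψ (y i + v i)) := by
      rw [mul_sub, Finset.mul_sum]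
      simp only [mul_assoc, Pi.add_apply]
    rw [this, abs_mul, abs_of_pos hvK]
    exact mul_le_mul_of_nonneg_left h hvK.le
  -- bound 1
  have b1 : A ≤ val K f (y + v) u1 + V * (R * δ) := by
    obtain ⟨φ, ψ, hφ, hψ, hdu, hle⟩ := exists_dual hn hK hKR hf hf1 (fun i => (hmm i).le) hy1 hu1
    have h1 := hA φ ψ hφ hψ hdu
    have h2 := (abs_le.1 (e2 hψ)).2
    linarith
  have b3 : D ≤ val K 0 y w0 + V * (R * δ) := by
    obtain ⟨φ, ψ, hφ, hψ, hdu, hle⟩ := exists_dual hn hK hKR (f := 0) measurable_zero hz1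
      (fun i => (hmm i).le) hy0 hw0
    have h1 := hD φ ψ hφ hψ hdu
    have h2 := (abs_le.1 (e1 hψ)).2
    simp only [Pi.zero_apply, add_zero, mul_one] at hle
    linarith
  have b2 : val K 0 (y + v) w1 - V * (R * δ) ≤ (∫ x in K, φ1 x) + V * (∫ p, ψ1 p.2 ∂π) := by
    have h2 := (abs_le.1 (e2 hψ1)).1
    have h3 := val_le_of_potentials hn hK (f := 0) measurable_zero hz1 hy1 hw1 (φ := φ1) (ψ := ψ1)
      hφ1 (fun x hx i => h1 x hx _)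
    simp only [Pi.zero_apply, add_zero, mul_one] at h3
    linarith
  have b4 : val K f y u0 - V * (R * δ) ≤
      (∫ x in K, φ0 x * (1 + f x)) + V * (∫ p, ψ0 p.1 ∂π) := by
    have h2 := (abs_le.1 (e1 hψ0)).1
    have h3 := val_le_of_potentials hn hK hf hf1 hy0 hu0 (φ := φ0) (ψ := ψ0)
      hφ0 (fun x hx i => h0 x hx _)
    linarith
  have hp := path_ineq hn hK hKc hKR hf hf1 hf0 hmm hsumV hN hinj hw0 hw1 hu0 hu1
  have hs2 : ∑ i, V * m i * ‖v i‖ ^ 2 ≤ V * ((∫ p, ‖p.1 - p.2‖ ^ 2 ∂π) + δ) := by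
    have : ∑ i, V * m i * ‖v i‖ ^ 2 = V * ∑ i, m i * ‖v i‖ ^ 2 := by
      rw [Finset.mul_sum]; simp only [mul_assoc]
    rw [this]
    exact mul_le_mul_of_nonneg_left hc hvK.le
  have hs3 : ∑ i, V * m i * ‖v i‖ ≤ V * (2 * M + δ) := by
    calc ∑ i, V * m i * ‖v i‖ ≤ ∑ i, V * m i * (2 * M + δ) :=
          Finset.sum_le_sum fun i _ => mul_le_mul_of_nonneg_left (hv i) (hmm i).le
      _ = V * (2 * M + δ) := by rw [← Finset.sum_mul, hsumV]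
  have hs4 : √(30 * (R : ℝ) ^ 2 * (∫ x in K, f x ^ 2)) * √(∑ i, V * m i * ‖v i‖ ^ 2) ≤
      √(30 * (R : ℝ) ^ 2 * (∫ x in K, f x ^ 2)) *
        √(V * ((∫ p, ‖p.1 - p.2‖ ^ 2 ∂π) + δ)) :=
    mul_le_mul_of_nonneg_left (Real.sqrt_le_sqrt hs2) (Real.sqrt_nonneg _)
  have hs5 : 2 * (R : ℝ) * (∑ i, V * m i * ‖v i‖) / N ≤ 2 * R * (V * (2 * M + δ)) / N := by
    gcongr
  linarith

theorem master (hd : 0 < d) {R : ℝ≥0} {K : Set (E d)} (hK : IsCompact K) (hKc : Convex ℝ K)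
    (hKi : (interior K).Nonempty) (hKR : K ⊆ closedBall 0 R)
    {f : E d → ℝ} (hf : Measurable f) (hf1 : ∀ x, |f x| ≤ 1 / 2) (hf0 : ∫ x in K, f x = 0)
    {π : Measure (E d × E d)} [IsProbabilityMeasure π] {M : ℝ}
    (hM : ∀ᵐ p ∂π, ‖p.1‖ ≤ M ∧ ‖p.2‖ ≤ M)
    {φ0 ψ0 φ1 ψ1 : E d → ℝ} (hφ0 : Continuous φ0) (hφ1 : Continuous φ1)
    (hψ0 : LipschitzWith R ψ0) (hψ1 : LipschitzWith R ψ1)
    (h0 : ∀ x ∈ K, ∀ z, ⟪x, z⟫_ℝ ≤ φ0 x + ψ0 z) (h1 : ∀ x ∈ K, ∀ z, ⟪x, z⟫_ℝ ≤ φ1 x + ψ1 z)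
    {A D : ℝ}
    (hA : ∀ φ ψ : E d → ℝ, Continuous φ → LipschitzWith R ψ →
      (∀ x ∈ K, ∀ z, ⟪x, z⟫_ℝ ≤ φ x + ψ z) →
      A ≤ (∫ x in K, φ x * (1 + f x)) + volume.real K * (∫ p, ψ p.2 ∂π))
    (hD : ∀ φ ψ : E d → ℝ, Continuous φ → LipschitzWith R ψ →
      (∀ x ∈ K, ∀ z, ⟪x, z⟫_ℝ ≤ φ x + ψ z) →
      D ≤ (∫ x in K, φ x) + volume.real K * (∫ p, ψ p.1 ∂π)) :
    (A - ((∫ x in K, φ1 x) + volume.real K * (∫ p, ψ1 p.2 ∂π)))
      - (((∫ x in K, φ0 x * (1 + f x)) + volume.real K * (∫ p, ψ0 p.1 ∂π)) - D) ≤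
      √(30 * (R : ℝ) ^ 2 * (∫ x in K, f x ^ 2)) *
        √(volume.real K * (∫ p, ‖p.1 - p.2‖ ^ 2 ∂π)) := by
  have hδ0 : Filter.Tendsto (fun k : ℕ => 1 / ((k : ℝ) + 1)) Filter.atTop (nhds 0) :=
    tendsto_one_div_add_atTop_nhds_zero_nat
  have hlim : Filter.Tendsto (fun k : ℕ =>
      √(30 * (R : ℝ) ^ 2 * (∫ x in K, f x ^ 2)) *
        √(volume.real K * ((∫ p, ‖p.1 - p.2‖ ^ 2 ∂π) + 1 / ((k : ℝ) + 1)))
        + 2 * R * (volume.real K * (2 * M + 1 / ((k : ℝ) + 1))) * (1 / ((k : ℝ) + 1))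
        + 4 * (volume.real K * (R * (1 / ((k : ℝ) + 1))))) Filter.atTop
      (nhds (√(30 * (R : ℝ) ^ 2 * (∫ x in K, f x ^ 2)) *
        √(volume.real K * ((∫ p, ‖p.1 - p.2‖ ^ 2 ∂π) + 0))
        + 2 * R * (volume.real K * (2 * M + 0)) * 0 + 4 * (volume.real K * (R * 0)))) := by
    have hc : Continuous fun t : ℝ => √(30 * (R : ℝ) ^ 2 * (∫ x in K, f x ^ 2)) *
        √(volume.real K * ((∫ p, ‖p.1 - p.2‖ ^ 2 ∂π) + t))
        + 2 * R * (volume.real K * (2 * M + t)) * t + 4 * (volume.real K * (R * t)) := by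
      fun_prop
    exact (hc.tendsto 0).comp hδ0
  have hlim' := hlim
  simp only [add_zero, mul_zero] at hlim'
  refine ge_of_tendsto' hlim' fun k => ?_
  have := master_step hd hK hKc hKi hKR hf hf1 hf0 hM hφ0 hφ1 hψ0 hψ1 h0 h1 hA hD
    (δ := 1 / ((k : ℝ) + 1)) (by positivity) (N := k + 1) (Nat.succ_pos k)
  refine this.trans (le_of_eq ?_)
  push_cast
  ring

end Vale.Agent.P074
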