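import Vale.Agent.P074.TestFun
import Vale.Agent.P074.Master

/-!
# The energy bound for one shift
-/

open MeasureTheory Set Metric
open scoped ENNReal NNReal InnerProductSpace

namespace Vale.Agent.P074

variable {d : ℕ}

theorem prob_of_map {K : Set (E d)} (hK : IsCompact K) (hKi : (interior K).Nonempty)
    {T0 : E d → E d} (h0 : Measurable T0) {π : Measure (E d × E d)}
    (hπ0 : π.map Prod.fst = (uniform K).map T0) : IsProbabilityMeasure π := by
  have hprob := isProbabilityMeasure_uniform hK hKi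
  constructor
  have : (π.map Prod.fst) Set.univ = 1 := by
    rw [hπ0, Measure.map_apply h0 MeasurableSet.univ]
    simp
  rwa [Measure.map_apply measurable_fst MeasurableSet.univ] at this

theorem ae_norm_le {K : Set (E d)} {M : ℝ} {T0 T1 : E d → E d}
    (h0 : Measurable T0) (h1 : Measurable T1) (b0 : ∀ x, ‖T0 x‖ ≤ M) (b1 : ∀ x, ‖T1 x‖ ≤ M)
    {π : Measure (E d × E d)}
    (hπ0 : π.map Prod.fst = (uniform K).map T0) (hπ1 : π.map Prod.snd = (uniform K).map T1) :
    ∀ᵐ p ∂π, ‖p.1‖ ≤ M ∧ ‖p.2‖ ≤ M := by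
  have hb1 : ∀ᵐ p ∂π, ‖p.1‖ ≤ M := by
    have : ∀ᵐ y ∂(π.map Prod.fst), ‖y‖ ≤ M := by
      rw [hπ0, ae_map_iff h0.aemeasurable (measurableSet_le measurable_norm measurable_const)]
      exact Filter.Eventually.of_forall b0
    exact ae_of_ae_map measurable_fst.aemeasurable this
  have hb2 : ∀ᵐ p ∂π, ‖p.2‖ ≤ M := by
    have : ∀ᵐ y ∂(π.map Prod.snd), ‖y‖ ≤ M := by
      rw [hπ1, ae_map_iff h1.aemeasurable (measurableSet_le measurable_norm measurable_const)]
      exact Filter.Eventually.of_forall b1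
    exact ae_of_ae_map measurable_snd.aemeasurable this
  filter_upwards [hb1, hb2] with p hp1 hp2 using ⟨hp1, hp2⟩

theorem volume_real_pos {K : Set (E d)} (hK : IsCompact K) (hKi : (interior K).Nonempty) :
    0 < volume.real K := by
  rw [measureReal_def, ENNReal.toReal_pos_iff]
  exact ⟨(isOpen_interior.measure_pos volume hKi).trans_le (measure_mono interior_subset),
    hK.measure_lt_top⟩

theorem integral_uniform {K : Set (E d)} (hK : IsCompact K) (hKi : (interior K).Nonempty)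
    (F : E d → ℝ) : volume.real K * ∫ x, F x ∂(uniform K) = ∫ x in K, F x := by
  have hv := volume_real_pos hK hKi
  rw [uniform, integral_smul_measure, smul_eq_mul, ENNReal.toReal_inv, ← mul_assoc,
    ← measureReal_def, mul_inv_cancel₀ hv.ne', one_mul]

theorem int_snd {K : Set (E d)} (hK : IsCompact K) (hKi : (interior K).Nonempty)
    {T : E d → E d} (hT : Measurable T) {π : Measure (E d × E d)}
    (hπ : π.map Prod.snd = (uniform K).map T) {ψ : E d → ℝ} (hψ : Continuous ψ) :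
    volume.real K * (∫ p, ψ p.2 ∂π) = ∫ x in K, ψ (T x) := by
  rw [← integral_uniform hK hKi]
  congr 1
  rw [← integral_map (μ := π) measurable_snd.aemeasurable hψ.measurable.aestronglyMeasurable, hπ,
    integral_map hT.aemeasurable hψ.measurable.aestronglyMeasurable]

theorem int_fst {K : Set (E d)} (hK : IsCompact K) (hKi : (interior K).Nonempty)
    {T : E d → E d} (hT : Measurable T) {π : Measure (E d × E d)}
    (hπ : π.map Prod.fst = (uniform K).map T) {ψ : E d → ℝ} (hψ : Continuous ψ) :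
    volume.real K * (∫ p, ψ p.1 ∂π) = ∫ x in K, ψ (T x) := by
  rw [← integral_uniform hK hKi]
  congr 1
  rw [← integral_map (μ := π) measurable_fst.aemeasurable hψ.measurable.aestronglyMeasurable, hπ,
    integral_map hT.aemeasurable hψ.measurable.aestronglyMeasurable]

theorem conj_lipschitz {R : ℝ≥0} {φ : E d → ℝ} (hφ : Continuous φ) :
    LipschitzWith R (conj R φ) := by
  apply LipschitzWith.of_dist_le_mul
  intro x y
  rw [Real.dist_eq, dist_eq_norm]
  exact conj_abs_sub R.2 hφ x y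

/-- duality is attained by the potential -/
theorem dual_attained {K : Set (E d)} (hK : IsCompact K) {M R : ℝ≥0}
    {T : E d → E d} {φ : E d → ℝ} (hT : HasPotential K M T φ) :
    (∫ x in K, φ x) + (∫ x in K, conj R φ (T x)) ≤ ∫ x in K, ⟪x, T x⟫_ℝ := by
  have hφ : Continuous φ := hT.lip.continuous
  have b1 : BM K φ := BM.of_continuous hK hφ
  have b2 : BM K (fun x => conj R φ (T x)) :=
    BM.comp_T hT.meas hT.bdd (conj_lipschitz (R := R) hφ).continuous
  have b3 : BM K (fun x => ⟪x, T x⟫_ℝ) := BM.inner_id hK hT.meas hT.bdd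
  rw [← integral_add (b1.integrableOn hK) (b2.integrableOn hK)]
  refine setIntegral_mono_on_ae ((b1.add b2).integrableOn hK) (b3.integrableOn hK)
    hK.measurableSet ?_
  filter_upwards [ae_sub hK hT] with x hx hxK
  have := conj_le (R := R) R.2 (hx hxK)
  linarith

theorem integral_sq_le {K : Set (E d)} (hK : IsCompact K) {C : ℝ} (hC0 : 0 ≤ C)
    (hC : ∀ h : E d, ‖h‖ ≤ 1 → volume (((fun x => x + h) '' K) \ K) ≤ ENNReal.ofReal (C * ‖h‖))
    {M : ℝ≥0} {T0 T1 : E d → E d} {φ0 φ1 : E d → ℝ} (h0 : HasPotential K M T0 φ0)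
    (h1 : HasPotential K M T1 φ1) {h : E d} (hh : ‖h‖ ≤ 1) {κ : ℝ} (hκ : 0 ≤ κ)
    (hκ1 : κ * (2 * M * ‖h‖) ≤ 1 / 8) :
    ∫ x in K, (tst K κ φ0 φ1 h (x - h) - tst K κ φ0 φ1 h x) ^ 2 ≤ C * ‖h‖ := by
  have c0 : Continuous φ0 := h0.lip.continuous
  have c1 : Continuous φ1 := h1.lip.continuous
  have hKm := hK.measurableSet
  have mg : Measurable (tst K κ φ0 φ1 h) := measurable_tst hKm c0 c1
  have bg : BM K (tst K κ φ0 φ1 h) :=
    BM.of_le mg fun x => abs_tst_le h0.lip h1.lip hκ hκ1 x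
  have bgh : BM K (fun x => tst K κ φ0 φ1 h (x - h)) :=
    BM.of_le (mg.comp (measurable_id.sub_const h)) fun x => abs_tst_le h0.lip h1.lip hκ hκ1 _
  have s0 : BM K (sdiff2 φ0 h) := BM.of_continuous hK (by unfold sdiff2; fun_prop)
  have s1 : BM K (sdiff2 φ1 h) := BM.of_continuous hK (by unfold sdiff2; fun_prop)
  have bl : BM K (lay K h) := bm_lay hKm h
  have hsd : ∀ {T : E d → E d} {φ : E d → ℝ}, HasPotential K M T φ →
      ∀ᵐ x, x ∈ K → 0 ≤ sdiff2 φ h x := by
    intro T φ hT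
    filter_upwards [ae_sub hK hT] with x hx hxK
    have a1 := hx hxK (x + h)
    have a2 := hx hxK (x - h)
    have e1 : x + h - x = h := by abel
    have e2 : x - h - x = -h := by abel
    rw [e1] at a1
    rw [e2, inner_neg_left] at a2
    unfold sdiff2
    linarith
  calc ∫ x in K, (tst K κ φ0 φ1 h (x - h) - tst K κ φ0 φ1 h x) ^ 2
      ≤ ∫ x in K, 1 / 4 * (κ * (sdiff2 φ1 h x + sdiff2 φ0 h x) + 1 / 4 * lay K h x) := by
        refine setIntegral_mono_on_ae ((bgh.sub bg).sq.integrableOn hK)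
          ((BM.const_mul (1 / 4) ((BM.const_mul κ (s1.add s0)).add
            (BM.const_mul (1 / 4) bl))).integrableOn hK) hKm ?_
        filter_upwards [hsd h0, hsd h1] with x hx0 hx1 hxK
        have a1 := abs_f_le h0.lip h1.lip hκ hκ1 hxK (hx0 hxK) (hx1 hxK)
        have a2 := abs_tst_le (K := K) h0.lip h1.lip hκ hκ1 x
        have a3 := abs_tst_le (K := K) h0.lip h1.lip hκ hκ1 (x - h)
        have a4 : |tst K κ φ0 φ1 h (x - h) - tst K κ φ0 φ1 h x| ≤ 1 / 4 :=
          (abs_sub _ _).trans (by linarith)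
        rw [← sq_abs, sq]
        exact mul_le_mul a4 a1 (abs_nonneg _) (by norm_num)
    _ = 1 / 4 * (κ * ((∫ x in K, sdiff2 φ1 h x) + ∫ x in K, sdiff2 φ0 h x)
          + 1 / 4 * ∫ x in K, lay K h x) := by
        rw [integral_const_mul, integral_add ((BM.const_mul κ (s1.add s0)).integrableOn hK)
          ((BM.const_mul (1 / 4) bl).integrableOn hK), integral_const_mul, integral_const_mul,
          integral_add (s1.integrableOn hK) (s0.integrableOn hK)]
    _ ≤ 1 / 4 * (κ * ((2 * M * C * ‖h‖ ^ 2) + (2 * M * C * ‖h‖ ^ 2))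
          + 1 / 4 * (2 * C * ‖h‖)) := by
        have i1 := integral_second_diff hK hC0 hC h1.lip hh
        have i0 := integral_second_diff hK hC0 hC h0.lip hh
        have il := integral_lay hK hC0 hC hh
        unfold sdiff2
        gcongr
    _ ≤ C * ‖h‖ := by
        have : κ * (2 * M * ‖h‖) * (C * ‖h‖) ≤ 1 / 8 * (C * ‖h‖) := by gcongr
        nlinarith [norm_nonneg h, mul_nonneg hC0 (norm_nonneg h)]

theorem energy_bound (hd : 0 < d) {K : Set (E d)} (hK : IsCompact K) (hKc : Convex ℝ K)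
    (hKi : (interior K).Nonempty) {R : ℝ≥0} (hKR : K ⊆ closedBall 0 R) {C : ℝ} (hC0 : 0 ≤ C)
    (hC : ∀ h : E d, ‖h‖ ≤ 1 → volume (((fun x => x + h) '' K) \ K) ≤ ENNReal.ofReal (C * ‖h‖))
    {M : ℝ≥0} {T0 T1 : E d → E d} {φ0 φ1 : E d → ℝ} (h0 : HasPotential K M T0 φ0)
    (h1 : HasPotential K M T1 φ1) {π : Measure (E d × E d)}
    (hπ0 : π.map Prod.fst = (uniform K).map T0) (hπ1 : π.map Prod.snd = (uniform K).map T1)
    {h : E d} (hh : ‖h‖ ≤ 1) {κ : ℝ} (hκ : 0 ≤ κ) (hκ1 : κ * (2 * M * ‖h‖) ≤ 1 / 8) :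
    κ * (∫ x in K, ind K h x * ((φ1 (x + h) - φ1 x) - (φ0 (x + h) - φ0 x)) ^ 2) ≤
      √(30 * (R : ℝ) ^ 2 * (C * ‖h‖)) * √(volume.real K * (∫ p, ‖p.1 - p.2‖ ^ 2 ∂π))
      + 1 / 8 * (‖h‖ * M * (2 * C * ‖h‖)) := by
  have hprob : IsProbabilityMeasure π := prob_of_map hK hKi h0.meas hπ0
  have c0 : Continuous φ0 := h0.lip.continuous
  have c1 : Continuous φ1 := h1.lip.continuous
  have hKm := hK.measurableSet
  set g : E d → ℝ := tst K κ φ0 φ1 h with hg
  have mg : Measurable g := measurable_tst hKm c0 c1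
  have ag : ∀ x, |g x| ≤ 1 / 8 := fun x => abs_tst_le h0.lip h1.lip hκ hκ1 x
  set gp : E d → ℝ := fun x => max (g x) 0 with hgp
  set gm : E d → ℝ := fun x => max (-g x) 0 with hgm
  have hpm : ∀ x, gp x - gm x = g x := fun x => by
    simp only [hgp, hgm]
    rcases le_total 0 (g x) with hx | hx
    · rw [max_eq_left hx, max_eq_right (by linarith)]; ring
    · rw [max_eq_right hx, max_eq_left (by linarith)]; ring
  have p0 : ∀ x, 0 ≤ gp x := fun x => le_max_right _ _
  have m0 : ∀ x, 0 ≤ gm x := fun x => le_max_right _ _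
  have p1 : ∀ x, gp x ≤ 1 / 8 := fun x =>
    max_le ((le_abs_self _).trans (ag x)) (by norm_num)
  have m1 : ∀ x, gm x ≤ 1 / 8 := fun x =>
    max_le ((neg_le_abs _).trans (ag x)) (by norm_num)
  have mp : Measurable gp := mg.max measurable_const
  have mm : Measurable gm := mg.neg.max measurable_const
  have sg : ∀ x, ¬ (x ∈ K ∧ x + h ∈ K) → g x = 0 := fun x hx => tst_of_not hx
  have sp : ∀ x, ¬ (x ∈ K ∧ x + h ∈ K) → gp x = 0 := fun x hx => by
    simp only [hgp, sg x hx, max_self]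
  have sm : ∀ x, ¬ (x ∈ K ∧ x + h ∈ K) → gm x = 0 := fun x hx => by
    simp only [hgm, sg x hx, neg_zero, max_self]
  have bg : BM K g := BM.of_le mg ag
  have bgh : BM K (fun x => g (x - h)) :=
    BM.of_le (mg.comp (measurable_id.sub_const h)) fun x => ag _
  set f : E d → ℝ := fun x => g (x - h) - g x with hf
  have mf : Measurable f := (mg.comp (measurable_id.sub_const h)).sub mg
  have f1 : ∀ x, |f x| ≤ 1 / 2 := fun x => by
    have a1 := ag (x - h)
    have a2 := ag x
    exact (abs_sub _ _).trans (by linarith)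
  have f0 : ∫ x in K, f x = 0 := by
    have e := shift_integral (h := h) sg (fun _ => (1 : ℝ))
    simp only [one_mul] at e
    simp only [hf]
    rw [integral_sub (bgh.integrableOn hK) (bg.integrableOn hK), e, sub_self]
  have hM := ae_norm_le h0.meas h1.meas h0.bdd h1.bdd hπ0 hπ1
  have L0 := conj_lipschitz (R := R) c0
  have L1 := conj_lipschitz (R := R) c1
  have hKR' : ∀ x ∈ K, ‖x‖ ≤ R := fun x hx => by simpa using hKR hx
  have F0 : ∀ x ∈ K, ∀ z, ⟪x, z⟫_ℝ ≤ φ0 x + conj R φ0 z := fun x hx z => by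
    have := le_conj (R := R) c0 z x (hKR' x hx); linarith
  have F1 : ∀ x ∈ K, ∀ z, ⟪x, z⟫_ℝ ≤ φ1 x + conj R φ1 z := fun x hx z => by
    have := le_conj (R := R) c1 z x (hKR' x hx); linarith
  have key := master hd hK hKc hKi hKR mf f1 f0 hM c0 c1 L0 L1 F0 F1
    (A := (∫ x in K, ⟪x, T1 x⟫_ℝ) + (∫ x in K, gp x * ⟪h, T1 x⟫_ℝ)
        - (∫ x in K, gm x * ⟪h, T1 (x + h)⟫_ℝ)) (D := ∫ x in K, ⟪x, T0 x⟫_ℝ)
    (by
      intro φ ψ hφ hψ feas
      rw [int_snd hK hKi h1.meas hπ1 hψ.continuous]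
      have := test_plan hK h1.meas h1.bdd hφ hψ.continuous feas mp mm p0
        (fun x => (p1 x).trans (by norm_num)) m0 (fun x => (m1 x).trans (by norm_num)) sp sm
      simpa only [hpm] using this)
    (by
      intro φ ψ hφ hψ feas
      rw [int_fst hK hKi h0.meas hπ0 hψ.continuous]
      have b1 : BM K φ := BM.of_continuous hK hφ
      have b2 : BM K (fun x => ψ (T0 x)) := BM.comp_T h0.meas h0.bdd hψ.continuous
      have b3 : BM K (fun x => ⟪x, T0 x⟫_ℝ) := BM.inner_id hK h0.meas h0.bdd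
      rw [← integral_add (b1.integrableOn hK) (b2.integrableOn hK)]
      exact setIntegral_mono_on (b3.integrableOn hK) ((b1.add b2).integrableOn hK) hKm
        fun x hx => feas x hx _)
  rw [int_snd hK hKi h1.meas hπ1 L1.continuous, int_fst hK hKi h0.meas hπ0 L0.continuous] at key
  have d1 := dual_attained (R := R) hK h1
  have d0 := dual_attained (R := R) hK h0
  have hsq : ∫ x in K, f x ^ 2 ≤ C * ‖h‖ := integral_sq_le hK hC0 hC h0 h1 hh hκ hκ1
  have key2 : √(30 * (R : ℝ) ^ 2 * (∫ x in K, f x ^ 2)) *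
      √(volume.real K * (∫ p, ‖p.1 - p.2‖ ^ 2 ∂π)) ≤
      √(30 * (R : ℝ) ^ 2 * (C * ‖h‖)) * √(volume.real K * (∫ p, ‖p.1 - p.2‖ ^ 2 ∂π)) := by
    gcongr
  -- expand `∫ φ0 (1 + f)`
  have bφ0 : BM K φ0 := BM.of_continuous hK c0
  have bφ0h : BM K (fun x => φ0 (x + h)) := BM.of_continuous hK (by fun_prop)
  have e1 : ∫ x in K, φ0 x * (1 + f x) =
      (∫ x in K, φ0 x) + ((∫ x in K, φ0 (x + h) * g x) - (∫ x in K, φ0 x * g x)) := by
    rw [← shift_integral sg φ0, ← integral_sub ((bφ0.mul bgh).integrableOn hK)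
      ((bφ0.mul bg).integrableOn hK), ← integral_add (bφ0.integrableOn hK)
      (((bφ0.mul bgh).sub (bφ0.mul bg)).integrableOn hK)]
    congr 1; ext x; simp only [hf]; ring
  rw [e1] at key
  -- the pointwise inequality
  set F : E d → ℝ := fun x => ⟪h, T1 x⟫_ℝ with hF
  have mF : Measurable F := measurable_const.inner h1.meas
  have bdF : ∀ x, |F x| ≤ ‖h‖ * M := fun x =>
    (abs_real_inner_le_norm _ _).trans (mul_le_mul_of_nonneg_left (h1.bdd x) (norm_nonneg _))
  have bF : BM K F := BM.of_le mF bdF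
  have bFh : BM K (fun x => F (x + h)) :=
    BM.of_le (mF.comp (measurable_id.add_const h)) (fun x => bdF _)
  have bp : BM K gp := BM.of_le mp (B := 1 / 8) fun x => by rw [abs_of_nonneg (p0 x)]; exact p1 x
  have bm : BM K gm := BM.of_le mm (B := 1 / 8) fun x => by rw [abs_of_nonneg (m0 x)]; exact m1 x
  have bD : BM K (fun x => (φ1 (x + h) - φ1 x) - (φ0 (x + h) - φ0 x)) :=
    BM.of_continuous hK (by fun_prop)
  have bi := bm_ind hKm h
  have key3 : ∫ x in K, (κ * (ind K h x * ((φ1 (x + h) - φ1 x) - (φ0 (x + h) - φ0 x)) ^ 2)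
      - 1 / 8 * (ind K h x * (F (x + h) - F x))) ≤
      ∫ x in K, (gp x * F x - gm x * F (x + h) - (φ0 (x + h) * g x - φ0 x * g x)) := by
    refine setIntegral_mono_on_ae
      (((BM.const_mul κ (bi.mul bD.sq)).sub (BM.const_mul (1 / 8)
        (bi.mul (bFh.sub bF)))).integrableOn hK)
      ((((bp.mul bF).sub (bm.mul bFh)).sub ((bφ0h.mul bg).sub (bφ0.mul bg))).integrableOn hK)
      hKm ?_
    filter_upwards [ae_sub hK h1, ae_sub_shift hK h1 h] with x hx hxh hxK
    by_cases hx' : x + h ∈ K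
    · have i1 := ind_of hxK hx'
      have eg : g x = κ * ((φ1 (x + h) - φ1 x) - (φ0 (x + h) - φ0 x)) := by
        rw [hg, tst, i1, one_mul]
      have a1 := hx hxK (x + h)
      have a2 := hxh hx' x
      have e1 : x + h - x = h := by abel
      have e2 : x - (x + h) = -h := by abel
      rw [e1] at a1
      rw [e2, inner_neg_left] at a2
      have b1 : 0 ≤ (1 / 8 - gp x) * ((φ1 (x + h) - φ1 x) - F x) :=
        mul_nonneg (by linarith [p1 x]) (by simp only [hF]; linarith)
      have b2 : 0 ≤ (1 / 8 - gm x) * (F (x + h) - (φ1 (x + h) - φ1 x)) :=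
        mul_nonneg (by linarith [m1 x]) (by simp only [hF]; linarith)
      have b3 := hpm x
      rw [i1]
      have b4 : κ * (1 * ((φ1 (x + h) - φ1 x) - (φ0 (x + h) - φ0 x)) ^ 2) =
          (gp x - gm x) * ((φ1 (x + h) - φ1 x) - (φ0 (x + h) - φ0 x)) := by
        rw [b3, eg]; ring
      rw [b4, ← b3]
      nlinarith [b1, b2]
    · have hn : ¬ (x ∈ K ∧ x + h ∈ K) := fun h' => hx' h'.2
      rw [ind_of_not hn, sg x hn, sp x hn, sm x hn]
      simp
  have e3 : ∫ x in K, (κ * (ind K h x * ((φ1 (x + h) - φ1 x) - (φ0 (x + h) - φ0 x)) ^ 2)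
      - 1 / 8 * (ind K h x * (F (x + h) - F x))) =
      κ * (∫ x in K, ind K h x * ((φ1 (x + h) - φ1 x) - (φ0 (x + h) - φ0 x)) ^ 2)
      - 1 / 8 * (∫ x in K, ind K h x * (F (x + h) - F x)) := by
    rw [integral_sub ((BM.const_mul κ (bi.mul bD.sq)).integrableOn hK)
      ((BM.const_mul (1 / 8) (bi.mul (bFh.sub bF))).integrableOn hK), integral_const_mul,
      integral_const_mul]
  have e4 : ∫ x in K, (gp x * F x - gm x * F (x + h) - (φ0 (x + h) * g x - φ0 x * g x)) =
      (∫ x in K, gp x * F x) - (∫ x in K, gm x * F (x + h))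
      - ((∫ x in K, φ0 (x + h) * g x) - (∫ x in K, φ0 x * g x)) := by
    rw [integral_sub (((bp.mul bF).sub (bm.mul bFh)).integrableOn hK)
      (((bφ0h.mul bg).sub (bφ0.mul bg)).integrableOn hK),
      integral_sub ((bp.mul bF).integrableOn hK) ((bm.mul bFh).integrableOn hK),
      integral_sub ((bφ0h.mul bg).integrableOn hK) ((bφ0.mul bg).integrableOn hK)]
  rw [e3, e4] at key3
  have e5 := integral_ind_shift hK hC0 hC hh mF bdF
  linarith

end Vale.Agent.P074
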