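import Vale.Agent.P074.CycMono

open MeasureTheory Set Filter Topology
open scoped ENNReal NNReal InnerProductSpace

namespace Vale.Agent.P074

variable {d : ℕ}

/-- Interior points of approximate continuity of `T`. -/
def Good (K : Set (E d)) (T : E d → E d) : Set (E d) :=
  {x | x ∈ interior K ∧ ∀ U ∈ TopologicalSpace.countableBasis (E d), T x ∈ U →
    Tendsto (fun r => volume ((T ⁻¹' U)ᶜ ∩ Metric.closedBall x r) /
      volume (Metric.closedBall x r)) (𝓝[>] 0) (𝓝 0)}

theorem ae_good {K : Set (E d)} (hK : IsCompact K) (hKc : Convex ℝ K) {T : E d → E d}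
    (hT : Measurable T) : ∀ᵐ x ∂(uniform K), x ∈ Good K T := by
  unfold uniform
  refine Measure.ae_smul_measure ?_ _
  rw [ae_restrict_iff' hK.measurableSet]
  have h1 : ∀ᵐ x ∂(volume : Measure (E d)), x ∉ frontier K := by
    rw [ae_iff]
    simpa using hKc.addHaar_frontier (volume : Measure (E d))
  have h2 : ∀ᵐ x ∂(volume : Measure (E d)), ∀ U ∈ TopologicalSpace.countableBasis (E d),
      Tendsto (fun r => volume ((T ⁻¹' U)ᶜ ∩ Metric.closedBall x r) /
      volume (Metric.closedBall x r)) (𝓝[>] 0) (𝓝 (((T ⁻¹' U)ᶜ).indicator 1 x)) := by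
    rw [ae_ball_iff (TopologicalSpace.countable_countableBasis _)]
    intro U hU
    exact Besicovitch.ae_tendsto_measure_inter_div_of_measurableSet _
      (hT (TopologicalSpace.isOpen_of_mem_countableBasis hU).measurableSet).compl
  filter_upwards [h1, h2] with x hx1 hx2 hxK
  refine ⟨?_, fun U hU hxU => ?_⟩
  · have : x ∈ closure K := subset_closure hxK
    by_contra hxi
    exact hx1 ⟨this, hxi⟩
  · have := hx2 U hU
    rwa [indicator_of_notMem] at this
    simpa using hxU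

/-- The bad part of a small ball near a good point has small volume. -/
theorem bad_small {K : Set (E d)} {T : E d → E d} {x : E d} (hx : x ∈ Good K T)
    {U : Set (E d)} (hU : U ∈ TopologicalSpace.countableBasis (E d)) (hxU : T x ∈ U)
    {e : E d} (he : ‖e‖ = 1) {k n : ℕ} (hk : k < n) {η : ℝ≥0∞} (hη : η ≠ 0) :
    ∀ᶠ t : ℝ in 𝓝[>] 0,
      volume {z | z ∈ Metric.ball (0 : E d) (t / 4) ∧ T (z + (x + (t * k) • e)) ∉ U} ≤
        η * volume (Metric.ball (0 : E d) (t / 4)) := by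
  have hnt : Nontrivial (E d) := ⟨⟨e, 0, by rintro rfl; simp at he⟩⟩
  set c : ℝ := 4 * (n + 1) with hc
  have hcpos : 0 < c := by positivity
  set η' : ℝ≥0∞ := η / ENNReal.ofReal (c ^ d) with hη'
  have hcd : ENNReal.ofReal (c ^ d) ≠ 0 := by
    rw [Ne, ENNReal.ofReal_eq_zero, not_le]; positivity
  have hη'0 : η' ≠ 0 := ENNReal.div_ne_zero.2 ⟨hη, ENNReal.ofReal_ne_top⟩
  have h1 := (hx.2 U hU hxU)
  have h2 : Tendsto (fun t : ℝ => c * (t / 4)) (𝓝[>] 0) (𝓝[>] 0) := by
    refine tendsto_nhdsWithin_iff.2 ⟨?_, ?_⟩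
    · have : Continuous fun t : ℝ => c * (t / 4) := by fun_prop
      have h := this.tendsto 0
      simp only [zero_div, mul_zero] at h
      exact h.mono_left nhdsWithin_le_nhds
    · filter_upwards [self_mem_nhdsWithin] with t ht
      have : (0 : ℝ) < t := ht
      exact mem_Ioi.2 (by positivity)
  have h3 := (h1.comp h2).eventually (Iio_mem_nhds (pos_iff_ne_zero.2 hη'0))
  filter_upwards [h3, self_mem_nhdsWithin] with t ht ht0
  have ht0' : (0 : ℝ) < t := ht0
  simp only [Function.comp] at ht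
  have hsub : {z | z ∈ Metric.ball (0 : E d) (t / 4) ∧ T (z + (x + (t * k) • e)) ∉ U} ⊆
      (fun z => z + (x + (t * k) • e)) ⁻¹' ((T ⁻¹' U)ᶜ ∩ Metric.closedBall x (c * (t / 4))) := by
    rintro z ⟨hz, hzU⟩
    refine ⟨hzU, ?_⟩
    rw [Metric.mem_closedBall, dist_eq_norm]
    have e1 : z + (x + (t * k) • e) - x = z + (t * k) • e := by abel
    rw [e1]
    rw [Metric.mem_ball, dist_zero_right] at hz
    have e2 : ‖(t * k) • e‖ = t * k := by
      rw [norm_smul, he, mul_one, Real.norm_eq_abs, abs_of_nonneg (by positivity)]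
    have e3 : (k : ℝ) ≤ n := by exact_mod_cast hk.le
    calc ‖z + (t * k) • e‖ ≤ ‖z‖ + ‖(t * k) • e‖ := norm_add_le _ _
      _ ≤ t / 4 + t * n := by
          rw [e2]; exact add_le_add hz.le (mul_le_mul_of_nonneg_left e3 ht0'.le)
      _ ≤ c * (t / 4) := by rw [hc]; nlinarith
  refine (measure_mono hsub).trans ?_
  rw [measure_preimage_add_right]
  have hball : volume (Metric.closedBall x (c * (t / 4))) =
      ENNReal.ofReal (c ^ d) * volume (Metric.ball (0 : E d) (t / 4)) := by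
    rw [Measure.addHaar_closedBall_mul _ _ hcpos.le (by positivity), finrank_euclideanSpace,
      Fintype.card_fin, Measure.addHaar_closedBall_eq_addHaar_ball]
  rw [hball] at ht
  have hV0 : volume (Metric.ball (0 : E d) (t / 4)) ≠ 0 :=
    (Metric.measure_ball_pos _ _ (by positivity)).ne'
  have hVtop : volume (Metric.ball (0 : E d) (t / 4)) ≠ ∞ := measure_ball_lt_top.ne
  have h4 : volume ((T ⁻¹' U)ᶜ ∩ Metric.closedBall x (c * (t / 4))) ≤
      η' * (ENNReal.ofReal (c ^ d) * volume (Metric.ball (0 : E d) (t / 4))) := by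
    rw [← ENNReal.div_le_iff (mul_ne_zero hcd hV0) (ENNReal.mul_ne_top ENNReal.ofReal_ne_top hVtop)]
    exact (mem_Iio.1 ht).le
  refine h4.trans (le_of_eq ?_)
  rw [hη', ← mul_assoc, ENNReal.div_mul_cancel hcd ENNReal.ofReal_ne_top]

theorem sep_eventually {n : ℕ} {x : Fin n → E d} {e : E d} (he : ‖e‖ = 1) (i j : Fin n)
    (hij : i ≠ j) : ∀ᶠ t : ℝ in 𝓝[>] 0,
      t / 2 ≤ dist (x i + (t * (i : ℕ)) • e) (x j + (t * (j : ℕ)) • e) := by
  by_cases hxij : x i = x j
  · filter_upwards [self_mem_nhdsWithin] with t ht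
    have ht0 : (0 : ℝ) < t := ht
    rw [hxij, dist_eq_norm]
    have e1 : x j + (t * ((i : ℕ) : ℝ)) • e - (x j + (t * ((j : ℕ) : ℝ)) • e)
        = (t * (((i : ℕ) : ℝ) - ((j : ℕ) : ℝ))) • e := by module
    rw [e1, norm_smul, he, mul_one, Real.norm_eq_abs, abs_mul, abs_of_pos ht0]
    have e2 : (1 : ℝ) ≤ |((i : ℕ) : ℝ) - ((j : ℕ) : ℝ)| := by
      have h1 : ((i : ℕ) : ℤ) - ((j : ℕ) : ℤ) ≠ 0 := by
        intro h
        apply hij
        ext
        omega
      have h2 := Int.one_le_abs h1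
      have h3 : ((1 : ℤ) : ℝ) ≤ ((|((i : ℕ) : ℤ) - ((j : ℕ) : ℤ)| : ℤ) : ℝ) := by
        exact_mod_cast h2
      simpa using h3
    nlinarith
  · have hc : Continuous fun t : ℝ =>
        dist (x i + (t * (i : ℕ)) • e) (x j + (t * (j : ℕ)) • e) - t / 2 := by fun_prop
    have h0 : (0 : ℝ) < dist (x i + ((0 : ℝ) * (i : ℕ)) • e) (x j + ((0 : ℝ) * (j : ℕ)) • e)
        - 0 / 2 := by
      simpa using hxij
    have := (hc.tendsto 0).eventually (Ioi_mem_nhds h0)
    filter_upwards [this.filter_mono nhdsWithin_le_nhds] with t ht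
    have ht' : 0 < dist (x i + (t * (i : ℕ)) • e) (x j + (t * (j : ℕ)) • e) - t / 2 := ht
    linarith

theorem ball_eventually {K : Set (E d)} {x e : E d} (k : ℕ) (hx : x ∈ interior K) :
    ∀ᶠ t : ℝ in 𝓝[>] 0, Metric.ball (x + (t * (k : ℕ)) • e) (t / 4) ⊆ K := by
  obtain ⟨r, hr, hrK⟩ := Metric.isOpen_iff.1 isOpen_interior x hx
  have hc : Continuous fun t : ℝ => dist (x + (t * (k : ℕ)) • e) x + t / 4 := by fun_prop
  have h0 : dist (x + ((0 : ℝ) * (k : ℕ)) • e) x + 0 / 4 < r := by simpa using hr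
  have := (hc.tendsto 0).eventually (Iio_mem_nhds h0)
  filter_upwards [this.filter_mono nhdsWithin_le_nhds] with t ht
  have ht' : dist (x + (t * (k : ℕ)) • e) x + t / 4 < r := ht
  refine (Metric.ball_subset_ball' ?_).trans (hrK.trans interior_subset)
  linarith

/-- The set of good translations. -/
def goodA {n : ℕ} (T : E d → E d) (U : Fin n → Set (E d)) (y : Fin n → E d) (t : ℝ) : Set (E d) :=
  {z | z ∈ Metric.ball (0 : E d) (t / 4) ∧ ∀ i, T (z + y i) ∈ U i}

theorem measurableSet_goodA {n : ℕ} {T : E d → E d} (hT : Measurable T) {U : Fin n → Set (E d)}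
    (hU : ∀ i, MeasurableSet (U i)) (y : Fin n → E d) (t : ℝ) :
    MeasurableSet (goodA T U y t) := by
  have : goodA T U y t = Metric.ball (0 : E d) (t / 4) ∩ ⋂ i, (fun z => T (z + y i)) ⁻¹' U i := by
    ext z; simp [goodA]
  rw [this]
  exact Metric.isOpen_ball.measurableSet.inter (MeasurableSet.iInter fun i =>
    (hT.comp (measurable_id.add_const _)) (hU i))

theorem goodA_ne_zero {n : ℕ} (hn : 0 < n) {T : E d → E d} {U : Fin n → Set (E d)}
    {y : Fin n → E d} {t : ℝ} (ht : 0 < t)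
    (h1 : ∀ i, volume {z | z ∈ Metric.ball (0 : E d) (t / 4) ∧
      T (z + y i) ∉ U i} ≤ (2 * (n : ℝ≥0∞))⁻¹ * volume (Metric.ball (0 : E d) (t / 4))) :
    volume (goodA T U y t) ≠ 0 := by
  have hV0 : volume (Metric.ball (0 : E d) (t / 4)) ≠ 0 :=
    (Metric.measure_ball_pos _ _ (by positivity)).ne'
  have hVtop : volume (Metric.ball (0 : E d) (t / 4)) ≠ ∞ := measure_ball_lt_top.ne
  intro hA0
  have hcover : Metric.ball (0 : E d) (t / 4) ⊆ goodA T U y t ∪ ⋃ i,
      {z | z ∈ Metric.ball (0 : E d) (t / 4) ∧ T (z + y i) ∉ U i} := by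
    intro z hz
    by_cases hzA : z ∈ goodA T U y t
    · exact Or.inl hzA
    · right
      simp only [goodA, mem_ofPred_eq, hz, true_and, not_forall] at hzA
      obtain ⟨i, hi⟩ := hzA
      exact mem_iUnion.2 ⟨i, hz, hi⟩
  have hle : volume (Metric.ball (0 : E d) (t / 4)) ≤
      2⁻¹ * volume (Metric.ball (0 : E d) (t / 4)) := by
    calc volume (Metric.ball (0 : E d) (t / 4))
        ≤ volume (goodA T U y t) + ∑ i, volume
          {z | z ∈ Metric.ball (0 : E d) (t / 4) ∧ T (z + y i) ∉ U i} :=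
          (measure_mono hcover).trans ((measure_union_le _ _).trans
            (add_le_add le_rfl (measure_iUnion_fintype_le _ _)))
      _ ≤ 0 + ∑ _i : Fin n, (2 * (n : ℝ≥0∞))⁻¹ * volume (Metric.ball (0 : E d) (t / 4)) :=
          add_le_add hA0.le (Finset.sum_le_sum fun i _ => h1 i)
      _ = 2⁻¹ * volume (Metric.ball (0 : E d) (t / 4)) := by
          rw [zero_add, Finset.sum_const, Finset.card_univ, Fintype.card_fin, nsmul_eq_mul,
            ← mul_assoc, ENNReal.mul_inv (by simp) (by simp)]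
          congr 1
          have hn0 : (n : ℝ≥0∞) ≠ 0 := by exact_mod_cast hn.ne'
          rw [mul_comm, mul_assoc, ENNReal.inv_mul_cancel hn0 (by simp), mul_one]
  have hlt : 2⁻¹ * volume (Metric.ball (0 : E d) (t / 4)) <
      volume (Metric.ball (0 : E d) (t / 4)) := by
    rw [mul_comm, ← div_eq_mul_inv]
    exact ENNReal.half_lt_self hV0 hVtop
  exact absurd hle (not_le.2 hlt)

theorem exists_eps {n : ℕ} {T : E d → E d} (x : Fin n → E d) (τ : Equiv.Perm (Fin n))
    (hneg : 0 < ∑ i, ⟪x (τ i) - x i, T (x i)⟫_ℝ) :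
    ∃ ε > 0, ∀ y v : Fin n → E d, dist y x < ε → (∀ i, dist (v i) (T (x i)) < ε) →
      0 < ∑ i, ⟪y (τ i) - y i, v i⟫_ℝ := by
  obtain ⟨F, hF⟩ : ∃ F : (Fin n → E d) × (Fin n → E d) → ℝ, ∀ p, F p =
      ∑ i, ⟪p.1 (τ i) - p.1 i, p.2 i⟫_ℝ := ⟨_, fun _ => rfl⟩
  have hcont : Continuous F := by
    rw [show F = fun p => ∑ i, ⟪p.1 (τ i) - p.1 i, p.2 i⟫_ℝ from funext hF]
    fun_prop
  have h0 : 0 < F (x, fun i => T (x i)) := by rw [hF]; exact hneg
  have hev : ∀ᶠ p in 𝓝 (x, fun i => T (x i)), 0 < F p :=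
    (hcont.tendsto _).eventually_const_lt h0
  obtain ⟨ε, hε, hεF⟩ := Metric.eventually_nhds_iff.1 hev
  refine ⟨ε, hε, fun y v hy hv => ?_⟩
  have := hεF (y := (y, v)) (by
    rw [Prod.dist_eq, max_lt_iff]
    exact ⟨hy, (dist_pi_lt_iff hε).2 hv⟩)
  rwa [hF] at this

theorem dist_eventually {n : ℕ} (x : Fin n → E d) (e : E d) {ε : ℝ} (hε : 0 < ε) :
    ∀ᶠ t : ℝ in 𝓝[>] 0, dist (fun i : Fin n => x i + (t * (i : ℕ)) • e) x < ε := by
  have h1 : Continuous fun t : ℝ => dist (fun i : Fin n => x i + (t * (i : ℕ)) • e) x := by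
    fun_prop
  have h0 : dist (fun i : Fin n => x i + ((0 : ℝ) * (i : ℕ)) • e) x < ε := by simpa using hε
  exact ((h1.tendsto 0).eventually (Iio_mem_nhds h0)).filter_mono nhdsWithin_le_nhds

/-- Cyclical monotonicity at good points. -/
theorem cyc_good {K : Set (E d)} (hK : IsCompact K) (hKi : (interior K).Nonempty)
    {μ : Measure (E d)} {T : E d → E d} (hT : IsOptimalMap (uniform K) μ T) {M : ℝ≥0}
    (hTM : ∀ x, ‖T x‖ ≤ M) (n : ℕ) (x : Fin n → E d) (hx : ∀ i, x i ∈ Good K T)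
    (τ : Equiv.Perm (Fin n)) : ∑ i, ⟪x (τ i) - x i, T (x i)⟫_ℝ ≤ 0 := by
  rcases Nat.eq_zero_or_pos d with hd | hd
  · subst hd
    refine le_of_eq (Finset.sum_eq_zero fun i _ => ?_)
    rw [Subsingleton.elim (x (τ i) - x i) 0, inner_zero_left]
  by_contra hneg
  rw [not_le] at hneg
  obtain ⟨e, he⟩ : ∃ e : E d, ‖e‖ = 1 := ⟨EuclideanSpace.single (⟨0, hd⟩ : Fin d) 1, by simp⟩
  obtain ⟨ε, hε, hεF⟩ := exists_eps x τ hneg
  have hbasis : ∀ i, ∃ U ∈ TopologicalSpace.countableBasis (E d), T (x i) ∈ U ∧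
      U ⊆ Metric.ball (T (x i)) ε := fun i =>
    (TopologicalSpace.isBasis_countableBasis (E d)).mem_nhds_iff.1 (Metric.ball_mem_nhds _ hε)
  choose U hU hxU hUε using hbasis
  have hnpos : 0 < n := by
    rcases Nat.eq_zero_or_pos n with h | h
    · subst h; simp at hneg
    · exact h
  have hη : (2 * (n : ℝ≥0∞))⁻¹ ≠ 0 :=
    ENNReal.inv_ne_zero.2 (ENNReal.mul_ne_top (by simp) (by simp))
  have P1 : ∀ᶠ t : ℝ in 𝓝[>] 0, ∀ i : Fin n, volume {z | z ∈ Metric.ball (0 : E d) (t / 4) ∧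
      T (z + (x i + (t * (i : ℕ)) • e)) ∉ U i} ≤
        (2 * (n : ℝ≥0∞))⁻¹ * volume (Metric.ball (0 : E d) (t / 4)) :=
    eventually_all.2 fun i => bad_small (hx i) (hU i) (hxU i) he i.2 hη
  have P2 : ∀ᶠ t : ℝ in 𝓝[>] 0, ∀ i j : Fin n, i ≠ j →
      t / 2 ≤ dist (x i + (t * (i : ℕ)) • e) (x j + (t * (j : ℕ)) • e) := by
    refine eventually_all.2 fun i => eventually_all.2 fun j => ?_
    by_cases hij : i = j
    · exact Eventually.of_forall fun t h => absurd hij h
    · filter_upwards [sep_eventually he i j hij] with t ht _ using ht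
  have P3 : ∀ᶠ t : ℝ in 𝓝[>] 0, ∀ i : Fin n,
      Metric.ball (x i + (t * (i : ℕ)) • e) (t / 4) ⊆ K :=
    eventually_all.2 fun i => ball_eventually _ (hx i).1
  obtain ⟨t, ⟨⟨⟨⟨h1, h2⟩, h3⟩, h4⟩, ht⟩⟩ :=
    ((((P1.and P2).and P3).and (dist_eventually x e hε)).and self_mem_nhdsWithin).exists
  have ht0 : (0 : ℝ) < t := ht
  have hK0 : volume K ≠ 0 :=
    ((isOpen_interior.measure_pos (volume : Measure (E d)) hKi).trans_le
      (measure_mono interior_subset)).ne'
  generalize hy : (fun i : Fin n => x i + (t * (i : ℕ)) • e) = y at h4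
  have hy' : ∀ i : Fin n, x i + (t * (i : ℕ)) • e = y i := fun i => congrFun hy i
  simp only [hy'] at h1 h2 h3
  have htr : ∀ i, tr y (goodA T U y t) i ⊆ Metric.ball (y i) (t / 4) := by
    intro i z hz
    have h5 : z - y i ∈ goodA T U y t := hz
    have h6 := h5.1
    rw [Metric.mem_ball, dist_zero_right] at h6
    rwa [Metric.mem_ball, dist_eq_norm]
  refine core_swap hK hK0 hT hTM (measurableSet_goodA hT.measurable (fun i =>
    (TopologicalSpace.isOpen_of_mem_countableBasis (hU i)).measurableSet) y t)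
    (goodA_ne_zero hnpos ht0 h1) ?_ (fun i => (htr i).trans (h3 i)) τ ?_
  · intro i j hij
    refine Set.disjoint_of_subset (htr i) (htr j) (Metric.ball_disjoint_ball ?_)
    have := h2 i j hij
    linarith
  · intro z hz
    exact hεF y _ h4 fun i => hUε i (hz.2 i)

end Vale.Agent.P074
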