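import Vale.Agent.P074.Stability

open MeasureTheory
open scoped ENNReal NNReal InnerProductSpace

namespace Vale.Agent.P074

variable {d : ℕ}

structure HasPotential (K : Set (E d)) (M : ℝ≥0) (T : E d → E d) (φ : E d → ℝ) : Prop where
  meas : Measurable T
  bdd : ∀ x, ‖T x‖ ≤ M
  lip : LipschitzWith M φ
  sub : ∀ᵐ x ∂(uniform K), ∀ z, φ x + ⟪z - x, T x⟫_ℝ ≤ φ z

theorem isProbabilityMeasure_uniform {K : Set (E d)} (hK : IsCompact K)
    (hKi : (interior K).Nonempty) : IsProbabilityMeasure (uniform K) := by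
  constructor
  have h0 : volume K ≠ 0 := by
    intro h
    have h1 : volume (interior K) = 0 := measure_mono_null interior_subset h
    exact (isOpen_interior.measure_pos volume hKi).ne' h1
  rw [uniform, Measure.smul_apply, Measure.restrict_apply MeasurableSet.univ, Set.univ_inter,
    smul_eq_mul]
  exact ENNReal.inv_mul_cancel h0 hK.measure_lt_top.ne

theorem ae_uniform_mem {K : Set (E d)} (hK : IsCompact K) : ∀ᵐ x ∂(uniform K), x ∈ K := by
  rw [uniform]
  apply Measure.ae_smul_measure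
  exact ae_restrict_mem hK.measurableSet

theorem integrable_comp_of_continuous {ρ : Measure (E d)} [IsFiniteMeasure ρ] {T : E d → E d}
    (hT : Measurable T) {M : ℝ} (hb : ∀ x, ‖T x‖ ≤ M) {g : E d → ℝ} (hg : Continuous g) :
    Integrable (fun x => g (T x)) ρ := by
  obtain ⟨B, hB⟩ := (isCompact_closedBall (0 : E d) M).exists_bound_of_continuousOn hg.continuousOn
  exact Integrable.of_bound (hg.measurable.comp hT).aestronglyMeasurable B
    (Filter.Eventually.of_forall fun x => hB _ (by simpa using hb x))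

theorem integrable_of_continuous_on_K {K : Set (E d)} (hK : IsCompact K)
    [IsFiniteMeasure (uniform K)] {g : E d → ℝ} (hg : Continuous g) :
    Integrable g (uniform K) := by
  obtain ⟨B, hB⟩ := hK.exists_bound_of_continuousOn hg.continuousOn
  refine Integrable.of_bound hg.measurable.aestronglyMeasurable B ?_
  filter_upwards [ae_uniform_mem hK] with x hx
  exact hB x hx

theorem gap_sum_le {K : Set (E d)} (hK : IsCompact K) (hKi : (interior K).Nonempty)
    {M : ℝ≥0} {R : ℝ} (hR : 0 ≤ R) (hKR : ∀ x ∈ K, ‖x‖ ≤ R) {T0 T1 : E d → E d}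
    {φ0 φ1 : E d → ℝ} (h0 : HasPotential K M T0 φ0) (h1 : HasPotential K M T1 φ1)
    {π : Measure (E d × E d)} (hπ0 : π.map Prod.fst = (uniform K).map T0)
    (hπ1 : π.map Prod.snd = (uniform K).map T1) :
    Integrable (fun p : E d × E d => ‖p.1 - p.2‖) π ∧
    Integrable (fun p : E d × E d => ‖p.1 - p.2‖ ^ 2) π ∧
    ∫ x, (φ1 x + conj R φ1 (T0 x) - ⟪x, T0 x⟫_ℝ) ∂(uniform K)
      ≤ 2 * R * ∫ p, ‖p.1 - p.2‖ ∂π := by
  have hprob := isProbabilityMeasure_uniform hK hKi
  set ρ := uniform K with hρ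
  have hπfin : IsProbabilityMeasure π := by
    constructor
    have : (π.map Prod.fst) Set.univ = 1 := by
      rw [hπ0, Measure.map_apply h0.meas MeasurableSet.univ]
      simp
    rwa [Measure.map_apply measurable_fst MeasurableSet.univ] at this
  have hb1 : ∀ᵐ p ∂π, ‖p.1‖ ≤ M := by
    have : ∀ᵐ y ∂(π.map Prod.fst), ‖y‖ ≤ M := by
      rw [hπ0, ae_map_iff h0.meas.aemeasurable (measurableSet_le measurable_norm measurable_const)]
      exact Filter.Eventually.of_forall h0.bdd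
    exact ae_of_ae_map measurable_fst.aemeasurable this
  have hb2 : ∀ᵐ p ∂π, ‖p.2‖ ≤ M := by
    have : ∀ᵐ y ∂(π.map Prod.snd), ‖y‖ ≤ M := by
      rw [hπ1, ae_map_iff h1.meas.aemeasurable (measurableSet_le measurable_norm measurable_const)]
      exact Filter.Eventually.of_forall h1.bdd
    exact ae_of_ae_map measurable_snd.aemeasurable this
  have hbd : ∀ᵐ p ∂π, ‖p.1 - p.2‖ ≤ 2 * M := by
    filter_upwards [hb1, hb2] with p hp1 hp2
    calc ‖p.1 - p.2‖ ≤ ‖p.1‖ + ‖p.2‖ := norm_sub_le _ _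
      _ ≤ 2 * M := by linarith
  have hi1 : Integrable (fun p : E d × E d => ‖p.1 - p.2‖) π := by
    refine Integrable.of_bound (by fun_prop) (2 * M) ?_
    filter_upwards [hbd] with p hp
    rwa [norm_norm]
  have hi2 : Integrable (fun p : E d × E d => ‖p.1 - p.2‖ ^ 2) π := by
    refine Integrable.of_bound (by fun_prop) ((2 * M) ^ 2) ?_
    filter_upwards [hbd] with p hp
    rw [norm_pow, norm_norm]
    gcongr
  refine ⟨hi1, hi2, ?_⟩
  have hc0 : Continuous φ0 := h0.lip.continuous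
  have hc1 : Continuous φ1 := h1.lip.continuous
  have hψ0 : Continuous (conj R φ0) := conj_continuous hR hc0
  have hψ1 : Continuous (conj R φ1) := conj_continuous hR hc1
  have hxT : ∀ {T : E d → E d}, Measurable T → (∀ x, ‖T x‖ ≤ M) →
      Integrable (fun x => ⟪x, T x⟫_ℝ) ρ := by
    intro T hT hb
    refine Integrable.of_bound (measurable_id.inner hT).aestronglyMeasurable (R * M) ?_
    filter_upwards [ae_uniform_mem hK] with x hx
    calc ‖⟪x, T x⟫_ℝ‖ ≤ ‖x‖ * ‖T x‖ := norm_inner_le_norm _ _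
      _ ≤ R * M := by gcongr; exacts [hKR x hx, hb x]
  have iφ0 := integrable_of_continuous_on_K hK hc0
  have iφ1 := integrable_of_continuous_on_K hK hc1
  have i10 : Integrable (fun x => conj R φ1 (T0 x)) ρ :=
    integrable_comp_of_continuous h0.meas h0.bdd hψ1
  have i11 : Integrable (fun x => conj R φ1 (T1 x)) ρ :=
    integrable_comp_of_continuous h1.meas h1.bdd hψ1
  have i00 : Integrable (fun x => conj R φ0 (T0 x)) ρ :=
    integrable_comp_of_continuous h0.meas h0.bdd hψ0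
  have i01 : Integrable (fun x => conj R φ0 (T1 x)) ρ :=
    integrable_comp_of_continuous h1.meas h1.bdd hψ0
  have iG1 : Integrable (fun x => φ1 x + conj R φ1 (T0 x) - ⟪x, T0 x⟫_ℝ) ρ :=
    (iφ1.add i10).sub (hxT h0.meas h0.bdd)
  have iG0 : Integrable (fun x => φ0 x + conj R φ0 (T1 x) - ⟪x, T1 x⟫_ℝ) ρ :=
    (iφ0.add i01).sub (hxT h1.meas h1.bdd)
  have hG0 : 0 ≤ ∫ x, (φ0 x + conj R φ0 (T1 x) - ⟪x, T1 x⟫_ℝ) ∂ρ := by
    apply integral_nonneg_of_ae
    filter_upwards [ae_uniform_mem hK] with x hx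
    have := le_conj (R := R) hc0 (T1 x) x (hKR x hx)
    simp only [Pi.zero_apply]
    linarith
  have heq1 : ∀ᵐ x ∂ρ, ⟪x, T1 x⟫_ℝ = φ1 x + conj R φ1 (T1 x) := by
    filter_upwards [ae_uniform_mem hK, h1.sub] with x hx hs
    have a1 := le_conj (R := R) hc1 (T1 x) x (hKR x hx)
    have a2 := conj_le hR hs
    linarith
  have heq0 : ∀ᵐ x ∂ρ, ⟪x, T0 x⟫_ℝ = φ0 x + conj R φ0 (T0 x) := by
    filter_upwards [ae_uniform_mem hK, h0.sub] with x hx hs
    have a1 := le_conj (R := R) hc0 (T0 x) x (hKR x hx)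
    have a2 := conj_le hR hs
    linarith
  set g : E d → ℝ := fun y => conj R φ1 y - conj R φ0 y with hg
  have hgc : Continuous g := hψ1.sub hψ0
  have hsum : ∫ x, (φ1 x + conj R φ1 (T0 x) - ⟪x, T0 x⟫_ℝ) ∂ρ +
      ∫ x, (φ0 x + conj R φ0 (T1 x) - ⟪x, T1 x⟫_ℝ) ∂ρ =
      ∫ x, g (T0 x) ∂ρ - ∫ x, g (T1 x) ∂ρ := by
    have igT0 : Integrable (fun x => g (T0 x)) ρ := i10.sub i00
    have igT1 : Integrable (fun x => g (T1 x)) ρ := i11.sub i01
    rw [← integral_add iG1 iG0, ← integral_sub igT0 igT1]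
    apply integral_congr_ae
    filter_upwards [heq0, heq1] with x hx0 hx1
    simp only [hg]
    rw [hx0, hx1]
    ring
  have hgπ0 : Integrable (fun p : E d × E d => g p.1) π := by
    have : Integrable g (π.map Prod.fst) := by
      rw [hπ0, integrable_map_measure hgc.measurable.aestronglyMeasurable h0.meas.aemeasurable]
      exact integrable_comp_of_continuous h0.meas h0.bdd hgc
    exact (integrable_map_measure hgc.measurable.aestronglyMeasurable
      measurable_fst.aemeasurable).1 this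
  have hgπ1 : Integrable (fun p : E d × E d => g p.2) π := by
    have : Integrable g (π.map Prod.snd) := by
      rw [hπ1, integrable_map_measure hgc.measurable.aestronglyMeasurable h1.meas.aemeasurable]
      exact integrable_comp_of_continuous h1.meas h1.bdd hgc
    exact (integrable_map_measure hgc.measurable.aestronglyMeasurable
      measurable_snd.aemeasurable).1 this
  have e0 : ∫ x, g (T0 x) ∂ρ = ∫ p, g p.1 ∂π := by
    rw [← integral_map h0.meas.aemeasurable hgc.measurable.aestronglyMeasurable, ← hπ0,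
      integral_map measurable_fst.aemeasurable hgc.measurable.aestronglyMeasurable]
  have e1 : ∫ x, g (T1 x) ∂ρ = ∫ p, g p.2 ∂π := by
    rw [← integral_map h1.meas.aemeasurable hgc.measurable.aestronglyMeasurable, ← hπ1,
      integral_map measurable_snd.aemeasurable hgc.measurable.aestronglyMeasurable]
  have hle : ∫ p, g p.1 ∂π - ∫ p, g p.2 ∂π ≤ 2 * R * ∫ p, ‖p.1 - p.2‖ ∂π := by
    rw [← integral_sub hgπ0 hgπ1, ← integral_const_mul]
    apply integral_mono (hgπ0.sub hgπ1) (hi1.const_mul _)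
    intro p
    have b1 := (abs_le.1 (conj_abs_sub hR hc1 p.1 p.2)).2
    have b0 := (abs_le.1 (conj_abs_sub hR hc0 p.1 p.2)).1
    simp only [hg, Pi.sub_apply]
    linarith
  linarith

theorem integral_second_diff_uniform {K : Set (E d)} (hK : IsCompact K)
    {C : ℝ} (hC0 : 0 ≤ C)
    (hC : ∀ h : E d, ‖h‖ ≤ 1 →
      volume (((fun x => x + h) '' K) \ K) ≤ ENNReal.ofReal (C * ‖h‖))
    {M : ℝ≥0} {φ : E d → ℝ} (hφ : LipschitzWith M φ) {h : E d} (hh : ‖h‖ ≤ 1) :
    ∫ x, (φ (x + h) - 2 * φ x + φ (x - h)) ∂(uniform K) ≤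
      (volume K)⁻¹.toReal * (2 * M * C * ‖h‖ ^ 2) := by
  rw [uniform, integral_smul_measure, smul_eq_mul]
  apply mul_le_mul_of_nonneg_left _ ENNReal.toReal_nonneg
  exact integral_second_diff hK hC0 hC hφ hh

theorem L1_bound {K : Set (E d)} (hK : IsCompact K) (hKc : Convex ℝ K)
    (hKi : (interior K).Nonempty) (M : ℝ≥0) :
    ∃ A : ℝ, 0 ≤ A ∧ ∀ (T0 T1 : E d → E d) (φ0 φ1 : E d → ℝ), HasPotential K M T0 φ0 →
      HasPotential K M T1 φ1 → ∀ π : Measure (E d × E d), π.map Prod.fst = (uniform K).map T0 →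
      π.map Prod.snd = (uniform K).map T1 → ∀ δ : ℝ, 0 < δ → δ ≤ 1 →
      ∫ x, ‖T0 x - T1 x‖ ∂(uniform K) ≤ A * (∫ p, ‖p.1 - p.2‖ ∂π) / δ + A * δ := by
  obtain ⟨C, hC0, hC⟩ := volume_translate_diff hK hKc hKi
  obtain ⟨R0, hR0⟩ := hK.isBounded.subset_closedBall 0
  set R : ℝ := max R0 0 + 1 with hR
  have hRpos : 0 ≤ R := by positivity
  have hKR1 : ∀ x ∈ K, ‖x‖ + 1 ≤ R := by
    intro x hx
    have : ‖x‖ ≤ R0 := by simpa using hR0 hx
    have := le_max_left R0 0
    linarith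
  have hKR : ∀ x ∈ K, ‖x‖ ≤ R := fun x hx => by linarith [hKR1 x hx]
  set A1 : ℝ := d * (2 * R) with hA1
  set A2 : ℝ := d * ((volume K)⁻¹.toReal * (2 * M * C)) with hA2
  have hA1n : 0 ≤ A1 := by positivity
  have hA2n : 0 ≤ A2 := by positivity
  refine ⟨A1 + A2, by positivity, fun T0 T1 φ0 φ1 h0 h1 π hπ0 hπ1 δ hδ0 hδ1 => ?_⟩
  have hprob := isProbabilityMeasure_uniform hK hKi
  obtain ⟨hi1, -, hgap⟩ := gap_sum_le hK hKi hRpos hKR h0 h1 hπ0 hπ1
  set W : ℝ := ∫ p, ‖p.1 - p.2‖ ∂π with hW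
  have hWn : 0 ≤ W := integral_nonneg fun _ => norm_nonneg _
  set ρ := uniform K with hρ
  have hc1 : Continuous φ1 := h1.lip.continuous
  have hψ1 : Continuous (conj R φ1) := conj_continuous hRpos hc1
  have ixT : Integrable (fun x => ⟪x, T0 x⟫_ℝ) ρ := by
    refine Integrable.of_bound (measurable_id.inner h0.meas).aestronglyMeasurable (R * M) ?_
    filter_upwards [ae_uniform_mem hK] with x hx
    calc ‖⟪x, T0 x⟫_ℝ‖ ≤ ‖x‖ * ‖T0 x‖ := norm_inner_le_norm _ _
      _ ≤ R * M := by gcongr; exacts [hKR x hx, h0.bdd x]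
  have iG : Integrable (fun x => φ1 x + conj R φ1 (T0 x) - ⟪x, T0 x⟫_ℝ) ρ :=
    ((integrable_of_continuous_on_K hK hc1).add
      (integrable_comp_of_continuous h0.meas h0.bdd hψ1)).sub ixT
  have is : ∀ i : Fin d, Integrable (fun x => φ1 (x + EuclideanSpace.single i δ) - 2 * φ1 x
      + φ1 (x - EuclideanSpace.single i δ)) ρ := by
    intro i
    apply integrable_of_continuous_on_K hK
    fun_prop
  have iT : Integrable (fun x => ‖T0 x - T1 x‖) ρ := by
    refine Integrable.of_bound ((h0.meas.sub h1.meas).norm).aestronglyMeasurable (2 * M) ?_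
    refine Filter.Eventually.of_forall fun x => ?_
    rw [norm_norm]
    calc ‖T0 x - T1 x‖ ≤ ‖T0 x‖ + ‖T1 x‖ := norm_sub_le _ _
      _ ≤ 2 * M := by linarith [h0.bdd x, h1.bdd x]
  have key : ∫ x, δ * ‖T0 x - T1 x‖ ∂ρ ≤
      ∫ x, (d * (φ1 x + conj R φ1 (T0 x) - ⟪x, T0 x⟫_ℝ) +
        ∑ i : Fin d, (φ1 (x + EuclideanSpace.single i δ) - 2 * φ1 x
          + φ1 (x - EuclideanSpace.single i δ))) ∂ρ := by
    apply integral_mono_ae (iT.const_mul _)
      ((iG.const_mul _).add (integrable_finsetSum _ fun i _ => is i))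
    filter_upwards [ae_uniform_mem hK, h1.sub] with x hx hs
    calc δ * ‖T0 x - T1 x‖ ≤ δ * ∑ i, |(T0 x - T1 x) i| := by
          gcongr
          exact norm_le_sum_abs _
      _ = ∑ i, δ * |(T0 x - T1 x) i| := by rw [Finset.mul_sum]
      _ ≤ ∑ i : Fin d, ((φ1 x + conj R φ1 (T0 x) - ⟪x, T0 x⟫_ℝ) +
          (φ1 (x + EuclideanSpace.single i δ) - 2 * φ1 x
          + φ1 (x - EuclideanSpace.single i δ))) := by
          apply Finset.sum_le_sum
          intro i _
          exact gap_bound hc1 (hKR1 x hx) hs i hδ0.le hδ1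
      _ = _ := by
          rw [Finset.sum_add_distrib]
          simp
          ring
  have e1 : ∫ x, δ * ‖T0 x - T1 x‖ ∂ρ = δ * ∫ x, ‖T0 x - T1 x‖ ∂ρ := integral_const_mul _ _
  have e2 : ∫ x, (d * (φ1 x + conj R φ1 (T0 x) - ⟪x, T0 x⟫_ℝ) +
        ∑ i : Fin d, (φ1 (x + EuclideanSpace.single i δ) - 2 * φ1 x
          + φ1 (x - EuclideanSpace.single i δ))) ∂ρ =
      d * ∫ x, (φ1 x + conj R φ1 (T0 x) - ⟪x, T0 x⟫_ℝ) ∂ρ +
        ∑ i : Fin d, ∫ x, (φ1 (x + EuclideanSpace.single i δ) - 2 * φ1 x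
          + φ1 (x - EuclideanSpace.single i δ)) ∂ρ := by
    rw [integral_add (iG.const_mul _) (integrable_finsetSum _ fun i _ => is i),
      integral_const_mul, integral_finsetSum _ fun i _ => is i]
  have e3 : ∀ i : Fin d, ∫ x, (φ1 (x + EuclideanSpace.single i δ) - 2 * φ1 x
          + φ1 (x - EuclideanSpace.single i δ)) ∂ρ ≤
          (volume K)⁻¹.toReal * (2 * M * C * δ ^ 2) := by
    intro i
    have hn : ‖(EuclideanSpace.single i δ : E d)‖ = δ := by simp [abs_of_pos hδ0]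
    have := integral_second_diff_uniform hK hC0 hC h1.lip (h := EuclideanSpace.single i δ)
      (by rw [hn]; exact hδ1)
    rwa [hn] at this
  have e4 : ∑ i : Fin d, ∫ x, (φ1 (x + EuclideanSpace.single i δ) - 2 * φ1 x
          + φ1 (x - EuclideanSpace.single i δ)) ∂ρ ≤ A2 * δ ^ 2 := by
    calc _ ≤ ∑ _i : Fin d, (volume K)⁻¹.toReal * (2 * M * C * δ ^ 2) :=
          Finset.sum_le_sum fun i _ => e3 i
      _ = A2 * δ ^ 2 := by simp [hA2]; ring
  have e5 : δ * ∫ x, ‖T0 x - T1 x‖ ∂ρ ≤ A1 * W + A2 * δ ^ 2 := by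
    rw [← e1]
    refine key.trans ?_
    rw [e2]
    have : (d : ℝ) * ∫ x, (φ1 x + conj R φ1 (T0 x) - ⟪x, T0 x⟫_ℝ) ∂ρ ≤ A1 * W := by
      calc _ ≤ (d : ℝ) * (2 * R * W) := by gcongr
        _ = _ := by rw [hA1]; ring
    linarith
  have e6 : ∫ x, ‖T0 x - T1 x‖ ∂ρ ≤ (A1 * W + A2 * δ ^ 2) / δ := by
    rw [le_div_iff₀ hδ0]; linarith
  calc ∫ x, ‖T0 x - T1 x‖ ∂ρ ≤ (A1 * W + A2 * δ ^ 2) / δ := e6
    _ = A1 * W / δ + A2 * δ := by field_simp
    _ ≤ (A1 + A2) * W / δ + (A1 + A2) * δ := by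
      gcongr <;> linarith

theorem L1_stability {K : Set (E d)} (hK : IsCompact K) (hKc : Convex ℝ K)
    (hKi : (interior K).Nonempty) (M : ℝ≥0) :
    ∃ A : ℝ, 0 ≤ A ∧ ∀ (T0 T1 : E d → E d) (φ0 φ1 : E d → ℝ), HasPotential K M T0 φ0 →
      HasPotential K M T1 φ1 → ∀ π : Measure (E d × E d), π.map Prod.fst = (uniform K).map T0 →
      π.map Prod.snd = (uniform K).map T1 →
      ∫ x, ‖T0 x - T1 x‖ ∂(uniform K) ≤ A * Real.sqrt (∫ p, ‖p.1 - p.2‖ ∂π) := by
  obtain ⟨A, hA, H⟩ := L1_bound hK hKc hKi M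
  refine ⟨2 * A + 2 * M, by positivity, fun T0 T1 φ0 φ1 h0 h1 π hπ0 hπ1 => ?_⟩
  have hprob := isProbabilityMeasure_uniform hK hKi
  have H' := H T0 T1 φ0 φ1 h0 h1 π hπ0 hπ1
  set W : ℝ := ∫ p, ‖p.1 - p.2‖ ∂π with hW
  have hWn : 0 ≤ W := integral_nonneg fun _ => norm_nonneg _
  set I : ℝ := ∫ x, ‖T0 x - T1 x‖ ∂(uniform K) with hI
  have hsn := Real.sqrt_nonneg W
  rcases hWn.eq_or_lt with hW0 | hW0
  · rw [← hW0] at H' ⊢
    simp only [Real.sqrt_zero, mul_zero, zero_div, zero_add] at H' ⊢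
    by_contra hcon
    push Not at hcon
    have h2 := H' (min 1 (I / (2 * (A + 1)))) (by positivity) (min_le_left _ _)
    have h3 : A * min 1 (I / (2 * (A + 1))) ≤ A * (I / (2 * (A + 1))) := by
      gcongr; exact min_le_right _ _
    have h4 : A * (I / (2 * (A + 1))) < I := by
      rw [← mul_div_assoc, div_lt_iff₀ (by positivity)]
      nlinarith
    linarith
  · by_cases hW1 : W ≤ 1
    · have hs0 : 0 < Real.sqrt W := Real.sqrt_pos.2 hW0
      have hs1 : Real.sqrt W ≤ 1 := Real.sqrt_le_one.2 hW1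
      have h2 := H' (Real.sqrt W) hs0 hs1
      have h3 : A * W / Real.sqrt W = A * Real.sqrt W := by
        rw [mul_div_assoc, Real.div_sqrt]
      rw [h3] at h2
      have : 0 ≤ 2 * (M : ℝ) * Real.sqrt W := by positivity
      linarith
    · push Not at hW1
      have hs1 : 1 ≤ Real.sqrt W := Real.one_le_sqrt.2 hW1.le
      have hI2 : I ≤ 2 * M := by
        calc I ≤ ∫ _x, (2 * M : ℝ) ∂(uniform K) := by
              apply integral_mono_of_nonneg (Filter.Eventually.of_forall fun _ => norm_nonneg _)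
                (integrable_const _)
              refine Filter.Eventually.of_forall fun x => ?_
              calc ‖T0 x - T1 x‖ ≤ ‖T0 x‖ + ‖T1 x‖ := norm_sub_le _ _
                _ ≤ 2 * M := by linarith [h0.bdd x, h1.bdd x]
          _ = 2 * M := by simp
      have : 2 * (M : ℝ) * 1 ≤ 2 * M * Real.sqrt W := by gcongr
      have : 0 ≤ 2 * A * Real.sqrt W := by positivity
      linarith

theorem L2_stability {K : Set (E d)} (hK : IsCompact K) (hKc : Convex ℝ K)
    (hKi : (interior K).Nonempty) (M : ℝ≥0) :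
    ∃ C : ℝ≥0, ∀ (T0 T1 : E d → E d) (φ0 φ1 : E d → ℝ), HasPotential K M T0 φ0 →
      HasPotential K M T1 φ1 →
      eLpNorm (fun x => T0 x - T1 x) 2 (uniform K) ≤
        C * W2 ((uniform K).map T0) ((uniform K).map T1) ^ (1 / 4 : ℝ) := by
  obtain ⟨A, hA, H⟩ := L1_stability hK hKc hKi M
  have hprob := isProbabilityMeasure_uniform hK hKi
  set C : ℝ := (2 * M * A + 1) ^ (1 / 2 : ℝ) with hC
  have hCpos : 0 < C := by positivity
  refine ⟨Real.toNNReal C, fun T0 T1 φ0 φ1 h0 h1 => ?_⟩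
  change _ ≤ ENNReal.ofReal C * _
  have hC0 : ENNReal.ofReal C ≠ 0 := by simpa using hCpos
  have hCt : ENNReal.ofReal C ≠ ∞ := ENNReal.ofReal_ne_top
  have key : ∀ π : Measure (E d × E d), π.map Prod.fst = (uniform K).map T0 →
      π.map Prod.snd = (uniform K).map T1 →
      eLpNorm (fun x => T0 x - T1 x) 2 (uniform K) ≤
        ENNReal.ofReal C * (∫⁻ p, ‖p.1 - p.2‖ₑ ^ 2 ∂π) ^ (1 / 8 : ℝ) := by
    intro π hπ0 hπ1
    have hL := H T0 T1 φ0 φ1 h0 h1 π hπ0 hπ1
    obtain ⟨hi1, hi2, -⟩ := gap_sum_le hK hKi (R := (hK.isBounded.subset_closedBall 0).choose ⊔ 0)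
      (le_max_right _ _) (fun x hx => le_trans (by
        simpa using (hK.isBounded.subset_closedBall 0).choose_spec hx) (le_max_left _ _))
      h0 h1 hπ0 hπ1
    have hπfin : IsProbabilityMeasure π := by
      constructor
      have : (π.map Prod.fst) Set.univ = 1 := by
        rw [hπ0, Measure.map_apply h0.meas MeasurableSet.univ]
        simp
      rwa [Measure.map_apply measurable_fst MeasurableSet.univ] at this
    set W : ℝ := ∫ p, ‖p.1 - p.2‖ ∂π with hW
    set V : ℝ := ∫ p, ‖p.1 - p.2‖ ^ 2 ∂π with hV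
    have hWn : 0 ≤ W := integral_nonneg fun _ => norm_nonneg _
    have hVn : 0 ≤ V := integral_nonneg fun _ => by positivity
    have hWV : W ^ 2 ≤ V := by
      have h1 : 0 ≤ ∫ p, (‖p.1 - p.2‖ - W) ^ 2 ∂π := integral_nonneg fun _ => by positivity
      have h2 : ∫ p, (‖p.1 - p.2‖ - W) ^ 2 ∂π = V - W ^ 2 := by
        have e : ∀ p : E d × E d, (‖p.1 - p.2‖ - W) ^ 2 =
            ‖p.1 - p.2‖ ^ 2 - (2 * W) * ‖p.1 - p.2‖ + W ^ 2 := fun p => by ring
        simp_rw [e]
        have hs1 : Integrable (fun p : E d × E d => 2 * W * ‖p.1 - p.2‖) π := hi1.const_mul _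
        have hs2 : Integrable (fun p : E d × E d => ‖p.1 - p.2‖ ^ 2 - 2 * W * ‖p.1 - p.2‖) π :=
          hi2.sub hs1
        rw [integral_add hs2 (integrable_const _), integral_sub hi2 hs1, integral_const_mul]
        simp only [integral_const, probReal_univ, smul_eq_mul, one_mul]
        rw [← hW, ← hV]
        ring
      linarith
    have hVl : ∫⁻ p, ‖p.1 - p.2‖ₑ ^ 2 ∂π = ENNReal.ofReal V := by
      rw [hV, ofReal_integral_eq_lintegral_ofReal hi2
        (Filter.Eventually.of_forall fun _ => by positivity)]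
      apply lintegral_congr
      intro p
      rw [← ofReal_norm, ENNReal.ofReal_pow (norm_nonneg _)]
    have iT : Integrable (fun x => ‖T0 x - T1 x‖) (uniform K) := by
      refine Integrable.of_bound ((h0.meas.sub h1.meas).norm).aestronglyMeasurable (2 * M) ?_
      refine Filter.Eventually.of_forall fun x => ?_
      rw [norm_norm]
      calc ‖T0 x - T1 x‖ ≤ ‖T0 x‖ + ‖T1 x‖ := norm_sub_le _ _
        _ ≤ 2 * M := by linarith [h0.bdd x, h1.bdd x]
    have hbound : ∫⁻ x, ‖T0 x - T1 x‖ₑ ^ (2 : ℝ) ∂(uniform K) ≤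
        ENNReal.ofReal ((2 * M * A + 1) * V ^ (1 / 4 : ℝ)) := by
      calc ∫⁻ x, ‖T0 x - T1 x‖ₑ ^ (2 : ℝ) ∂(uniform K)
          ≤ ∫⁻ x, ENNReal.ofReal (2 * M * ‖T0 x - T1 x‖) ∂(uniform K) := by
            apply lintegral_mono
            intro x
            have h3 : ‖T0 x - T1 x‖ ≤ 2 * M := by
              calc ‖T0 x - T1 x‖ ≤ ‖T0 x‖ + ‖T1 x‖ := norm_sub_le _ _
                _ ≤ 2 * M := by linarith [h0.bdd x, h1.bdd x]
            simp only
            rw [← ofReal_norm, ENNReal.ofReal_rpow_of_nonneg (norm_nonneg _) (by norm_num)]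
            apply ENNReal.ofReal_le_ofReal
            rw [Real.rpow_two, sq]
            gcongr
        _ = ENNReal.ofReal (2 * M * ∫ x, ‖T0 x - T1 x‖ ∂(uniform K)) := by
            rw [← integral_const_mul, ofReal_integral_eq_lintegral_ofReal (iT.const_mul _)
              (Filter.Eventually.of_forall fun _ => by positivity)]
        _ ≤ ENNReal.ofReal ((2 * M * A + 1) * V ^ (1 / 4 : ℝ)) := by
            apply ENNReal.ofReal_le_ofReal
            have h4 : Real.sqrt W ≤ V ^ (1 / 4 : ℝ) := by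
              have h5 : W ≤ V ^ (1 / 2 : ℝ) := by
                rw [← Real.sqrt_eq_rpow]
                exact Real.le_sqrt_of_sq_le hWV
              calc Real.sqrt W ≤ Real.sqrt (V ^ (1 / 2 : ℝ)) := Real.sqrt_le_sqrt h5
                _ = V ^ (1 / 4 : ℝ) := by
                  rw [Real.sqrt_eq_rpow, ← Real.rpow_mul hVn]
                  norm_num
            have h6 : 0 ≤ V ^ (1 / 4 : ℝ) := by positivity
            calc 2 * M * ∫ x, ‖T0 x - T1 x‖ ∂(uniform K) ≤ 2 * M * (A * Real.sqrt W) := by gcongr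
              _ ≤ 2 * M * (A * V ^ (1 / 4 : ℝ)) := by gcongr
              _ ≤ (2 * M * A + 1) * V ^ (1 / 4 : ℝ) := by linarith
    rw [eLpNorm_eq_lintegral_rpow_enorm_toReal (by norm_num) (by norm_num), hVl]
    simp only [ENNReal.toReal_ofNat]
    calc (∫⁻ x, ‖T0 x - T1 x‖ₑ ^ (2 : ℝ) ∂(uniform K)) ^ (1 / (2 : ℝ))
        ≤ (ENNReal.ofReal ((2 * M * A + 1) * V ^ (1 / 4 : ℝ))) ^ (1 / (2 : ℝ)) := by gcongr
      _ = ENNReal.ofReal C * ENNReal.ofReal V ^ (1 / 8 : ℝ) := by
        rw [ENNReal.ofReal_mul (by positivity), ENNReal.mul_rpow_of_nonneg _ _ (by norm_num),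
          ENNReal.ofReal_rpow_of_nonneg (by positivity) (by norm_num),
          ENNReal.ofReal_rpow_of_nonneg (by positivity) (by norm_num),
          ENNReal.ofReal_rpow_of_nonneg hVn (by norm_num), ← Real.rpow_mul hVn]
        norm_num [hC]
  unfold W2
  rw [← ENNReal.rpow_mul]
  norm_num only
  have hfin : ∀ x y : ℝ≥0∞, x ≤ ENNReal.ofReal C * y ^ (1 / 8 : ℝ) ↔
      (x / ENNReal.ofReal C) ^ (8 : ℝ) ≤ y := by
    intro x y
    rw [mul_comm, ← ENNReal.div_le_iff hC0 hCt]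
    constructor
    · intro h
      calc (x / ENNReal.ofReal C) ^ (8 : ℝ) ≤ (y ^ (1 / 8 : ℝ)) ^ (8 : ℝ) := by gcongr
        _ = y := by rw [← ENNReal.rpow_mul]; norm_num
    · intro h
      calc x / ENNReal.ofReal C = ((x / ENNReal.ofReal C) ^ (8 : ℝ)) ^ (1 / 8 : ℝ) := by
            rw [← ENNReal.rpow_mul]; norm_num
        _ ≤ y ^ (1 / 8 : ℝ) := by gcongr
  rw [hfin]
  refine le_iInf₂ fun π hπ => ?_
  rw [← hfin]
  exact key π hπ.1 hπ.2

end Vale.Agent.P074
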