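import Vale.Agent.P074.TestPlan
import Vale.Agent.P074.Main

/-!
# Boundary layers and the test function
-/

open MeasureTheory Set Metric
open scoped ENNReal NNReal InnerProductSpace

namespace Vale.Agent.P074

variable {d : ℕ}

open Classical in
/-- indicator of `K ∩ (K - h)` -/
noncomputable def ind (K : Set (E d)) (h x : E d) : ℝ := if x ∈ K ∧ x + h ∈ K then 1 else 0

open Classical in
/-- layer function: counts which of `x + h`, `x - h` is outside `K` -/
noncomputable def lay (K : Set (E d)) (h x : E d) : ℝ :=
  (if x + h ∈ K then 0 else 1) + (if x - h ∈ K then 0 else 1)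

theorem measurable_ind {K : Set (E d)} (hK : MeasurableSet K) (h : E d) :
    Measurable (ind K h) := by
  have hs : MeasurableSet {x : E d | x ∈ K ∧ x + h ∈ K} :=
    hK.inter (hK.preimage (measurable_id.add_const h))
  exact Measurable.ite hs measurable_const measurable_const

theorem ind_nonneg (K : Set (E d)) (h x : E d) : 0 ≤ ind K h x := by
  unfold ind; split_ifs <;> norm_num

theorem ind_le_one (K : Set (E d)) (h x : E d) : ind K h x ≤ 1 := by
  unfold ind; split_ifs <;> norm_num

theorem ind_of_not {K : Set (E d)} {h x : E d} (hx : ¬ (x ∈ K ∧ x + h ∈ K)) : ind K h x = 0 := by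
  unfold ind; rw [if_neg hx]

theorem ind_of {K : Set (E d)} {h x : E d} (hx : x ∈ K) (hx' : x + h ∈ K) : ind K h x = 1 := by
  unfold ind; rw [if_pos ⟨hx, hx'⟩]

theorem bm_ind {K : Set (E d)} (hK : MeasurableSet K) (h : E d) : BM K (ind K h) :=
  BM.of_le (measurable_ind hK h) (B := 1) fun x => by
    rw [abs_of_nonneg (ind_nonneg K h x)]; exact ind_le_one K h x

theorem measurable_lay {K : Set (E d)} (hK : MeasurableSet K) (h : E d) :
    Measurable (lay K h) := by
  have hs : MeasurableSet {x : E d | x + h ∈ K} := hK.preimage (measurable_id.add_const h)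
  have hs' : MeasurableSet {x : E d | x - h ∈ K} := hK.preimage (measurable_id.sub_const h)
  exact (Measurable.ite hs measurable_const measurable_const).add
    (Measurable.ite hs' measurable_const measurable_const)

theorem lay_nonneg (K : Set (E d)) (h x : E d) : 0 ≤ lay K h x := by
  unfold lay; split_ifs <;> norm_num

theorem lay_le_two (K : Set (E d)) (h x : E d) : lay K h x ≤ 2 := by
  unfold lay; split_ifs <;> norm_num

theorem bm_lay {K : Set (E d)} (hK : MeasurableSet K) (h : E d) : BM K (lay K h) :=
  BM.of_le (measurable_lay hK h) (B := 2) fun x => by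
    rw [abs_of_nonneg (lay_nonneg K h x)]; exact lay_le_two K h x

theorem one_le_lay {K : Set (E d)} {h x : E d} (hx : ¬ (x + h ∈ K ∧ x - h ∈ K)) :
    1 ≤ lay K h x := by
  unfold lay
  by_cases h1 : x + h ∈ K
  · have h2 : ¬ (x - h ∈ K) := fun h2 => hx ⟨h1, h2⟩
    rw [if_pos h1, if_neg h2]; norm_num
  · rw [if_neg h1]; split_ifs <;> norm_num

theorem integral_lay {K : Set (E d)} (hK : IsCompact K) {C : ℝ} (hC0 : 0 ≤ C)
    (hC : ∀ h : E d, ‖h‖ ≤ 1 →
      volume (((fun x => x + h) '' K) \ K) ≤ ENNReal.ofReal (C * ‖h‖))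
    {h : E d} (hh : ‖h‖ ≤ 1) : ∫ x in K, lay K h x ≤ 2 * C * ‖h‖ := by
  classical
  have hKm := hK.measurableSet
  have key : ∀ h : E d, ‖h‖ ≤ 1 → ∫ x in K, (if x + h ∈ K then (0 : ℝ) else 1) ≤ C * ‖h‖ := by
    intro h hh
    have hs : MeasurableSet {x : E d | x + h ∈ K}ᶜ :=
      (hKm.preimage (measurable_id.add_const h)).compl
    have e1 : (fun x : E d => if x + h ∈ K then (0 : ℝ) else 1) =
        ({x : E d | x + h ∈ K}ᶜ).indicator (fun _ => (1 : ℝ)) := by
      ext x
      by_cases hx : x + h ∈ K
      · simp [hx]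
      · simp [hx]
    rw [e1, setIntegral_indicator hs, setIntegral_const, smul_eq_mul, mul_one]
    have e2 : K ∩ {x : E d | x + h ∈ K}ᶜ = K \ ((fun x => x + h) ⁻¹' K) := rfl
    rw [e2, Measure.real, volume_shift_diff]
    exact ENNReal.toReal_le_of_le_ofReal (by positivity) (hC h hh)
  have k1 := key h hh
  have k2 := key (-h) (by rwa [norm_neg])
  rw [norm_neg] at k2
  have m1 : BM K (fun x : E d => if x + h ∈ K then (0 : ℝ) else 1) := by
    refine BM.of_le (B := 1) ?_ fun x => ?_
    · exact Measurable.ite (hKm.preimage (measurable_id.add_const h)) measurable_const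
        measurable_const
    · split_ifs <;> norm_num
  have m2 : BM K (fun x : E d => if x - h ∈ K then (0 : ℝ) else 1) := by
    refine BM.of_le (B := 1) ?_ fun x => ?_
    · exact Measurable.ite (hKm.preimage (measurable_id.sub_const h)) measurable_const
        measurable_const
    · split_ifs <;> norm_num
  have e : ∫ x in K, lay K h x = (∫ x in K, (if x + h ∈ K then (0 : ℝ) else 1)) +
      (∫ x in K, (if x - h ∈ K then (0 : ℝ) else 1)) := by
    rw [← integral_add (m1.integrableOn hK) (m2.integrableOn hK)]
    rfl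
  rw [e]
  simp only [← sub_eq_add_neg] at k2
  linarith

/-- integral of `1_{K ∩ (K-h)} (F(x+h) - F(x))` -/
theorem integral_ind_shift {K : Set (E d)} (hK : IsCompact K) {C : ℝ} (hC0 : 0 ≤ C)
    (hC : ∀ h : E d, ‖h‖ ≤ 1 →
      volume (((fun x => x + h) '' K) \ K) ≤ ENNReal.ofReal (C * ‖h‖))
    {h : E d} (hh : ‖h‖ ≤ 1) {F : E d → ℝ} (hF : Measurable F) {B : ℝ}
    (hB : ∀ x, |F x| ≤ B) :
    ∫ x in K, ind K h x * (F (x + h) - F x) ≤ B * (2 * C * ‖h‖) := by
  have hKm := hK.measurableSet
  have hB0 : 0 ≤ B := (abs_nonneg _).trans (hB 0)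
  have bF : BM K F := BM.of_le hF hB
  have bFh : BM K (fun x => F (x + h)) :=
    BM.of_le (hF.comp (measurable_id.add_const h)) (fun x => hB _)
  have bi : BM K (ind K h) := bm_ind hKm h
  have bih : BM K (fun x => ind K h (x - h)) :=
    BM.of_le ((measurable_ind hKm h).comp (measurable_id.sub_const h)) (B := 1) fun x => by
      rw [abs_of_nonneg (ind_nonneg K h _)]; exact ind_le_one K h _
  have e1 : ∫ x in K, F x * ind K h (x - h)
      = ∫ x in K, F (x + h) * ind K h x :=
    shift_integral (fun x hx => ind_of_not hx) F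
  have e2 : ∫ x in K, ind K h x * (F (x + h) - F x) =
      ∫ x in K, F x * (ind K h (x - h) - ind K h x) := by
    have a1 : ∫ x in K, ind K h x * (F (x + h) - F x) =
        (∫ x in K, F (x + h) * ind K h x) -
          (∫ x in K, F x * ind K h x) := by
      rw [← integral_sub ((bFh.mul bi).integrableOn hK) ((bF.mul bi).integrableOn hK)]
      congr 1; ext x; ring
    have a2 : ∫ x in K, F x * (ind K h (x - h) - ind K h x) =
        (∫ x in K, F x * ind K h (x - h)) -
          (∫ x in K, F x * ind K h x) := by
      rw [← integral_sub ((bF.mul bih).integrableOn hK) ((bF.mul bi).integrableOn hK)]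
      congr 1; ext x; ring
    rw [a1, a2, e1]
  rw [e2]
  calc ∫ x in K, F x * (ind K h (x - h) - ind K h x)
      ≤ ∫ x in K, B * lay K h x := by
        refine setIntegral_mono_on ((bF.mul (bih.sub bi)).integrableOn hK)
          ((BM.const_mul B (bm_lay hKm h)).integrableOn hK) hKm fun x hx => ?_
        have h1 : |ind K h (x - h) - ind K h x|
            ≤ lay K h x := by
          by_cases hc : x + h ∈ K ∧ x - h ∈ K
          · rw [ind_of hx hc.1, ind_of hc.2 (by simpa using hx), sub_self, abs_zero]
            exact lay_nonneg K h x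
          · refine le_trans ?_ (one_le_lay hc)
            have a1 := ind_nonneg K h (x - h)
            have a2 := ind_le_one K h (x - h)
            have a3 := ind_nonneg K h x
            have a4 := ind_le_one K h x
            rw [abs_le]
            constructor <;> linarith
        calc F x * (ind K h (x - h) - ind K h x)
            ≤ |F x| * |ind K h (x - h) - ind K h x| := by
              rw [← abs_mul]; exact le_abs_self _
          _ ≤ B * lay K h x :=
              mul_le_mul (hB x) h1 (abs_nonneg _) hB0
    _ = B * ∫ x in K, lay K h x := integral_const_mul _ _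
    _ ≤ B * (2 * C * ‖h‖) := mul_le_mul_of_nonneg_left (integral_lay hK hC0 hC hh) hB0

end Vale.Agent.P074
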