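import Vale.Agent.P074.Defs

/-!
# Exponents below an admissible exponent are admissible
-/

open MeasureTheory
open scoped ENNReal NNReal

namespace Vale.Agent.P074

theorem W2_le_of_support {d : ℕ} {Y : Set (E d)} {M : ℝ≥0}
    (hM : ∀ y ∈ Y, ‖y‖ ≤ M) {μ ν : Measure (E d)} [IsProbabilityMeasure μ]
    [IsProbabilityMeasure ν] (hμ : μ Yᶜ = 0) (hν : ν Yᶜ = 0) : W2 μ ν ≤ 2 * M := by
  have h1 : ∀ᵐ y ∂μ, y ∈ Y := by rw [ae_iff]; exact hμ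
  have h2 : ∀ᵐ y ∂ν, y ∈ Y := by rw [ae_iff]; exact hν
  have hb : ∫⁻ p, ‖p.1 - p.2‖ₑ ^ 2 ∂(μ.prod ν) ≤ (2 * (M : ℝ≥0∞)) ^ 2 := by
    have hae : ∀ᵐ p ∂(μ.prod ν), ‖p.1 - p.2‖ₑ ^ 2 ≤ (2 * (M : ℝ≥0∞)) ^ 2 := by
      have a1 : ∀ᵐ p ∂(μ.prod ν), p.1 ∈ Y := Measure.quasiMeasurePreserving_fst.ae h1
      have a2 : ∀ᵐ p ∂(μ.prod ν), p.2 ∈ Y := Measure.quasiMeasurePreserving_snd.ae h2
      filter_upwards [a1, a2] with p hp1 hp2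
      gcongr
      have b1 : ‖p.1‖ₑ ≤ M := by
        rw [← ofReal_norm, ENNReal.ofReal_le_iff_le_toReal ENNReal.coe_ne_top]
        exact hM _ hp1
      have b2 : ‖p.2‖ₑ ≤ M := by
        rw [← ofReal_norm, ENNReal.ofReal_le_iff_le_toReal ENNReal.coe_ne_top]
        exact hM _ hp2
      calc ‖p.1 - p.2‖ₑ ≤ ‖p.1‖ₑ + ‖p.2‖ₑ := enorm_sub_le
        _ ≤ M + M := by gcongr
        _ = 2 * M := by ring
    calc ∫⁻ p, ‖p.1 - p.2‖ₑ ^ 2 ∂(μ.prod ν) ≤ ∫⁻ _p, (2 * (M : ℝ≥0∞)) ^ 2 ∂(μ.prod ν) :=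
          lintegral_mono_ae hae
      _ = (2 * (M : ℝ≥0∞)) ^ 2 := by simp
  have hc : (μ.prod ν) ∈ {π : Measure (E d × E d) | π.map Prod.fst = μ ∧ π.map Prod.snd = ν} := by
    constructor
    · rw [Measure.map_fst_prod]; simp
    · rw [Measure.map_snd_prod]; simp
  unfold W2
  calc _ ≤ ((2 * (M : ℝ≥0∞)) ^ 2) ^ (1 / 2 : ℝ) := by
        gcongr
        exact (iInf₂_le _ hc).trans hb
    _ = 2 * M := by
        rw [← ENNReal.rpow_natCast, ← ENNReal.rpow_mul]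
        norm_num

theorem Admissible.mono {d : ℕ} {α β : ℝ} (h : Admissible d β) (h0 : 0 < α) (hαβ : α ≤ β) :
    Admissible d α := by
  obtain ⟨hβ0, hβ1, H⟩ := h
  refine ⟨h0, hαβ.trans hβ1, fun K hK hKc hKi Y hY hYn => ?_⟩
  obtain ⟨C, hC⟩ := H K hK hKc hKi Y hY hYn
  obtain ⟨M0, hM0⟩ := hY.isBounded.subset_closedBall 0
  set M : ℝ≥0 := Real.toNNReal M0 with hMdef
  have hM : ∀ y ∈ Y, ‖y‖ ≤ M := by
    intro y hy
    have h1 : ‖y‖ ≤ M0 := by simpa using hM0 hy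
    exact h1.trans (Real.le_coe_toNNReal M0)
  refine ⟨C * (2 * M) ^ (β - α), fun μ ν _ _ hμ hν Tμ Tν hTμ hTν => ?_⟩
  have hW := W2_le_of_support hM hμ hν
  have e : W2 μ ν ^ β = W2 μ ν ^ α * W2 μ ν ^ (β - α) := by
    rw [← ENNReal.rpow_add_of_nonneg _ _ h0.le (by linarith)]
    congr 1; ring
  calc eLpNorm (fun x => Tμ x - Tν x) 2 (uniform K) ≤ C * W2 μ ν ^ β :=
        hC μ ν ‹_› ‹_› hμ hν Tμ Tν hTμ hTν
    _ = C * (W2 μ ν ^ α * W2 μ ν ^ (β - α)) := by rw [e]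
    _ ≤ C * (W2 μ ν ^ α * (2 * M) ^ (β - α)) := by
        gcongr
    _ = ((C * (2 * M) ^ (β - α) : ℝ≥0) : ℝ≥0∞) * W2 μ ν ^ α := by
        rw [ENNReal.coe_mul, ENNReal.coe_rpow_of_nonneg _ (by linarith : 0 ≤ β - α),
          ENNReal.coe_mul, ENNReal.coe_ofNat]
        ring

end Vale.Agent.P074
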