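import Vale.Agent.P074.Cut
import Vale.Agent.P074.BM

/-!
# The midpoint inequality for pairs of compact sets
-/

open MeasureTheory Set Metric Filter Topology
open scoped ENNReal NNReal InnerProductSpace

namespace Vale.Agent.P074

variable {d : ℕ}

/-! ### The weight `eta` -/

theorem continuous_eta (R : ℝ) : Continuous (eta R : E d → ℝ) := by
  unfold eta; fun_prop

theorem eta_nonneg {R : ℝ} {x : E d} (hx : x ∈ closedBall (0 : E d) R) : 0 ≤ eta R x := by
  have h : ‖x‖ ≤ R := by simpa using hx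
  have : ‖x‖ ^ 2 ≤ R ^ 2 := pow_le_pow_left₀ (norm_nonneg _) h 2
  unfold eta; linarith

theorem eta_le (R : ℝ) (x : E d) : eta R x ≤ R ^ 2 / 2 := by
  unfold eta
  have := sq_nonneg ‖x‖
  linarith

theorem abs_eta_sub_le {R : ℝ} {x z : E d} (hx : x ∈ closedBall (0 : E d) R)
    (hz : z ∈ closedBall (0 : E d) R) : |eta R x - eta R z| ≤ R * ‖x - z‖ := by
  have h1 : ‖x‖ ≤ R := by simpa using hx
  have h2 : ‖z‖ ≤ R := by simpa using hz
  have h3 : |‖x‖ - ‖z‖| ≤ ‖x - z‖ := abs_norm_sub_norm_le x z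
  have h4 : eta R x - eta R z = -((‖x‖ + ‖z‖) / 2 * (‖x‖ - ‖z‖)) := by unfold eta; ring
  rw [h4, abs_neg, abs_mul]
  have h5 : |(‖x‖ + ‖z‖) / 2| ≤ R := by
    rw [abs_of_nonneg (by positivity)]; linarith
  exact mul_le_mul h5 h3 (abs_nonneg _) ((abs_nonneg _).trans h5)

theorem eta_mid (R : ℝ) (a b : E d) :
    eta R ((1 / 2 : ℝ) • (a + b)) = (1 / 2) * eta R a + (1 / 2) * eta R b + ‖a - b‖ ^ 2 / 8 := by
  have h1 : ‖a + b‖ ^ 2 + ‖a - b‖ ^ 2 = 2 * (‖a‖ ^ 2 + ‖b‖ ^ 2) := by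
    have := parallelogram_law_with_norm ℝ a b
    nlinarith [this]
  unfold eta
  rw [norm_smul, mul_pow, Real.norm_eq_abs, abs_of_nonneg (by norm_num : (0 : ℝ) ≤ 1 / 2)]
  linarith

/-! ### Integrability -/

theorem integrableOn_of_bdd {P : Set (E d)} (hP : IsCompact P) {V : Type*} [NormedAddCommGroup V]
    {F : E d → V} (hF : AEStronglyMeasurable F volume) {C : ℝ}
    (hC : ∀ x ∈ P, ‖F x‖ ≤ C) : IntegrableOn F P :=
  Measure.integrableOn_of_bounded hP.measure_lt_top.ne hF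
    ((ae_restrict_iff' hP.measurableSet).2 (Eventually.of_forall hC))

section dens

variable {f : E d → ℝ}

theorem integrableOn_f {Q : Set (E d)} (hQ : IsCompact Q) (hf : Measurable f)
    (hf1 : ∀ x, |f x| ≤ 1 / 2) : IntegrableOn f Q :=
  integrableOn_of_bdd hQ hf.aestronglyMeasurable (C := 1 / 2) fun x _ => hf1 x

theorem integrableOn_one_add {Q : Set (E d)} (hQ : IsCompact Q) (hf : Measurable f)
    (hf1 : ∀ x, |f x| ≤ 1 / 2) : IntegrableOn (fun x => 1 + f x) Q :=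
  (integrableOn_const hQ.measure_lt_top.ne).add (integrableOn_f hQ hf hf1)

theorem integrableOn_f_sq {Q : Set (E d)} (hQ : IsCompact Q) (hf : Measurable f)
    (hf1 : ∀ x, |f x| ≤ 1 / 2) : IntegrableOn (fun x => f x ^ 2) Q := by
  refine integrableOn_of_bdd hQ (hf.pow_const 2).aestronglyMeasurable (C := (1 / 2) ^ 2)
    fun x _ => ?_
  rw [norm_pow]
  exact pow_le_pow_left₀ (norm_nonneg _) (hf1 x) 2

theorem integrableOn_mom {Q : Set (E d)} (hQ : IsCompact Q) (hf : Measurable f)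
    (hf1 : ∀ x, |f x| ≤ 1 / 2) : IntegrableOn (fun x => (1 + f x) • x) Q := by
  obtain ⟨R, hR⟩ := hQ.isBounded.exists_norm_le
  refine integrableOn_of_bdd hQ
    (((measurable_const.add hf).smul measurable_id).aestronglyMeasurable) (C := 2 * |R|)
    fun x hx => ?_
  rw [norm_smul]
  have h1 : ‖1 + f x‖ ≤ 2 := by
    rw [Real.norm_eq_abs]
    have := abs_le.1 (hf1 x)
    rw [abs_le]; constructor <;> linarith
  exact mul_le_mul h1 ((hR x hx).trans (le_abs_self R)) (norm_nonneg _) (by norm_num)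

theorem integrableOn_id {Q : Set (E d)} (hQ : IsCompact Q) : IntegrableOn (fun x : E d => x) Q :=
  continuous_id.continuousOn.integrableOn_compact hQ

theorem integrableOn_eta {Q : Set (E d)} (R : ℝ) (hQ : IsCompact Q) : IntegrableOn (eta R) Q :=
  (continuous_eta R).continuousOn.integrableOn_compact hQ

theorem integral_one_add {Q : Set (E d)} (hQ : IsCompact Q) (hf : Measurable f)
    (hf1 : ∀ x, |f x| ≤ 1 / 2) : ∫ x in Q, (1 + f x) = volume.real Q + ∫ x in Q, f x := by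
  have i0 : IntegrableOn (fun _ : E d => (1 : ℝ)) Q := integrableOn_const hQ.measure_lt_top.ne
  have h : ∫ x in Q, (1 + f x) = (∫ _x in Q, (1 : ℝ)) + ∫ x in Q, f x :=
    integral_add i0 (integrableOn_f hQ hf hf1)
  rw [h, setIntegral_const, smul_eq_mul, mul_one]

/-- A set of zero mass is null. -/
theorem volume_eq_zero_of_mass {Q : Set (E d)} (hQ : IsCompact Q) (hf : Measurable f)
    (hf1 : ∀ x, |f x| ≤ 1 / 2) (h : ∫ x in Q, (1 + f x) ≤ 0) : volume Q = 0 := by
  have h1 : (1 / 2) * volume.real Q ≤ ∫ x in Q, (1 + f x) := by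
    have h2 : ∫ _x in Q, (1 / 2 : ℝ) ≤ ∫ x in Q, (1 + f x) := by
      refine setIntegral_mono (integrableOn_const hQ.measure_lt_top.ne)
        (integrableOn_one_add hQ hf hf1) fun x => ?_
      have := (abs_le.1 (hf1 x)).1
      show (1 / 2 : ℝ) ≤ 1 + f x
      linarith
    rw [setIntegral_const, smul_eq_mul] at h2
    linarith
  have h3 : volume.real Q = 0 := le_antisymm (by linarith) measureReal_nonneg
  exact (measureReal_eq_zero_iff hQ.measure_lt_top.ne).1 h3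

end dens

/-! ### Superadditivity under cuts -/

theorem sq_div_add_le {u1 u2 : E d} {m1 m2 : ℝ} (h1 : 0 ≤ m1) (h2 : 0 ≤ m2)
    (z1 : m1 = 0 → u1 = 0) (z2 : m2 = 0 → u2 = 0) :
    ‖u1 + u2‖ ^ 2 / (m1 + m2) ≤ ‖u1‖ ^ 2 / m1 + ‖u2‖ ^ 2 / m2 := by
  rcases h1.eq_or_lt with h1' | h1'
  · rw [z1 h1'.symm, ← h1']; simp
  rcases h2.eq_or_lt with h2' | h2'
  · rw [z2 h2'.symm, ← h2']; simp
  have h3 : ‖u1 + u2‖ ^ 2 ≤ (‖u1‖ + ‖u2‖) ^ 2 := pow_le_pow_left₀ (norm_nonneg _) (norm_add_le _ _) 2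
  rw [div_add_div _ _ h1'.ne' h2'.ne', div_le_div_iff₀ (by positivity) (by positivity)]
  have h4 : (‖u1‖ + ‖u2‖) ^ 2 * (m1 * m2) ≤
      (‖u1‖ ^ 2 * m2 + m1 * ‖u2‖ ^ 2) * (m1 + m2) := by
    nlinarith [sq_nonneg (m2 * ‖u1‖ - m1 * ‖u2‖)]
  exact (mul_le_mul_of_nonneg_right h3 (by positivity)).trans h4

/-- The lower bound in the midpoint inequality. -/
noncomputable def rhs (R : ℝ) (f : E d → ℝ) (P Q : Set (E d)) : ℝ :=
  (1 / 2) * (∫ x in P, eta R x) + (1 / 2) * (∫ x in Q, eta R x)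
    + (1 / 24) * (‖(∫ x in P, x) - (∫ x in Q, (1 + f x) • x)‖ ^ 2 / volume.real P)
    - (5 / 4) * R ^ 2 * (∫ x in Q, f x ^ 2)

theorem rhs_eq_zero {R : ℝ} {f : E d → ℝ} {P Q : Set (E d)} (hP : volume P = 0)
    (hQ : volume Q = 0) : rhs R f P Q = 0 := by
  have h1 : volume.restrict P = 0 := Measure.restrict_eq_zero.2 hP
  have h2 : volume.restrict Q = 0 := Measure.restrict_eq_zero.2 hQ
  unfold rhs
  rw [h1, h2]
  simp

theorem rhs_le_of_cut {R : ℝ} {f : E d → ℝ} (hf : Measurable f) (hf1 : ∀ x, |f x| ≤ 1 / 2)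
    {P Q : Set (E d)} (hP : IsCompact P) (hQ : IsCompact Q) (k : Fin d) {c c' : ℝ}
    (hlo : volume.real (lo P k c) = ∫ x in lo Q k c', (1 + f x))
    (hhi : volume.real (hi P k c) = ∫ x in hi Q k c', (1 + f x)) :
    rhs R f P Q ≤ rhs R f (lo P k c) (lo Q k c') + rhs R f (hi P k c) (hi Q k c') := by
  have e1 := integral_lo_add_hi hP k c (integrableOn_eta R hP)
  have e2 := integral_lo_add_hi hQ k c' (integrableOn_eta R hQ)
  have e3 := integral_lo_add_hi hP k c (integrableOn_id hP)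
  have e4 := integral_lo_add_hi hQ k c' (integrableOn_mom hQ hf hf1)
  have e5 := integral_lo_add_hi hQ k c' (integrableOn_f_sq hQ hf hf1)
  have e6 := volume_real_lo_add_hi hP k c
  have hzero : ∀ {A B : Set (E d)}, IsCompact A → IsCompact B →
      volume.real A = ∫ x in B, (1 + f x) → volume.real A = 0 →
      (∫ x in A, x) - (∫ x in B, (1 + f x) • x) = 0 := by
    intro A B hA hB hAB hA0
    have h1 : volume A = 0 := (measureReal_eq_zero_iff hA.measure_lt_top.ne).1 hA0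
    have h2 : volume B = 0 := volume_eq_zero_of_mass hB hf hf1 (by rw [← hAB, hA0])
    rw [Measure.restrict_eq_zero.2 h1, Measure.restrict_eq_zero.2 h2]
    simp
  have e7 := sq_div_add_le
    (u1 := (∫ x in lo P k c, x) - (∫ x in lo Q k c', (1 + f x) • x))
    (u2 := (∫ x in hi P k c, x) - (∫ x in hi Q k c', (1 + f x) • x))
    (m1 := volume.real (lo P k c)) (m2 := volume.real (hi P k c)) measureReal_nonneg
    measureReal_nonneg
    (hzero (isCompact_lo hP k c) (isCompact_lo hQ k c') hlo)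
    (hzero (isCompact_hi hP k c) (isCompact_hi hQ k c') hhi)
  have e8 : (∫ x in P, x) - (∫ x in Q, (1 + f x) • x) =
      ((∫ x in lo P k c, x) - (∫ x in lo Q k c', (1 + f x) • x)) +
      ((∫ x in hi P k c, x) - (∫ x in hi Q k c', (1 + f x) • x)) := by
    rw [e3, e4]; abel
  rw [← e8, ← e6] at e7
  unfold rhs
  rw [e1, e2, e5]
  linarith

theorem mid_integral_ge_of_cut {R : ℝ} {P Q : Set (E d)} (hP : IsCompact P) (hQ : IsCompact Q)
    (hPR : P ⊆ closedBall 0 R) (hQR : Q ⊆ closedBall 0 R) (k : Fin d) (c c' : ℝ) :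
    (∫ x in mid (lo P k c) (lo Q k c'), eta R x) + (∫ x in mid (hi P k c) (hi Q k c'), eta R x)
      ≤ ∫ x in mid P Q, eta R x := by
  have hc1 := isCompact_mid (isCompact_lo hP k c) (isCompact_lo hQ k c')
  have hc2 := isCompact_mid (isCompact_hi hP k c) (isCompact_hi hQ k c')
  have hc := isCompact_mid hP hQ
  have hin : ∀ x : E d, ⟪x, EuclideanSpace.single k (1 : ℝ)⟫_ℝ = x k := fun x => by
    simp [EuclideanSpace.inner_single_right]
  have hdisj : AEDisjoint volume (mid (lo P k c) (lo Q k c')) (mid (hi P k c) (hi Q k c')) := by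
    refine aedisjoint_mid_of_sep (v := EuclideanSpace.single k (1 : ℝ)) (by simp) (c := c)
      (c' := c') ?_ ?_ ?_ ?_ <;> intro x hx <;> rw [hin]
    · exact hx.2
    · exact hx.2
    · exact hx.2
    · exact hx.2
  rw [← setIntegral_union₀ hdisj hc2.measurableSet.nullMeasurableSet (integrableOn_eta R hc1)
    (integrableOn_eta R hc2)]
  refine setIntegral_mono_set (integrableOn_eta R hc) ?_ ?_
  · refine (ae_restrict_iff' hc.measurableSet).2 (Eventually.of_forall fun x hx => ?_)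
    exact eta_nonneg (mid_subset_of_convex hPR hQR (convex_closedBall _ _) hx)
  · refine LE.le.eventuallyLE (union_subset ?_ ?_)
    · exact mid_mono (lo_subset _ _ _) (lo_subset _ _ _)
    · exact mid_mono (hi_subset _ _ _) (hi_subset _ _ _)

/-! ### The base case -/

/-- The real-number inequality behind the base case. -/
theorem base_real {R L φ a b q κ : ℝ} (hφ : |φ| ≤ 1 / 2)
    (ha' : a ≤ R ^ 2 / 2) (hb' : b ≤ R ^ 2 / 2) (hab : |b - a| ≤ R * L)
    (hq : 0 ≤ q) (hκ : κ = 1 + φ / 2 - φ ^ 2 / 2) :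
    (1 / 2) * (a * ((1 + φ) * q)) + (1 / 2) * (b * q) + (1 / 24) * ((1 + φ) * q * L ^ 2)
      - (5 / 4) * R ^ 2 * (φ ^ 2 * q) ≤ ((1 / 2) * a + (1 / 2) * b + L ^ 2 / 8) * (q * κ) := by
  have h1 := abs_le.1 hφ
  have hφ2 : φ ^ 2 ≤ 1 / 4 := by
    have := sq_abs φ
    have h3 : |φ| ^ 2 ≤ (1 / 2) ^ 2 := pow_le_pow_left₀ (abs_nonneg _) hφ 2
    linarith
  have h2 : |φ * (b - a)| ≤ |φ| * (R * L) := by
    rw [abs_mul]; exact mul_le_mul_of_nonneg_left hab (abs_nonneg _)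
  have h3 : -(|φ| * (R * L)) ≤ φ * (b - a) := (abs_le.1 h2).1
  have h4 : 0 ≤ (L / 8 - R * |φ|) ^ 2 := sq_nonneg _
  have h5 : (L / 8 - R * |φ|) ^ 2 = L ^ 2 / 64 - |φ| * (R * L) / 4 + R ^ 2 * φ ^ 2 := by
    have := sq_abs φ
    ring_nf
    rw [this]
  have h6 : φ ^ 2 * (a + b) ≤ φ ^ 2 * R ^ 2 :=
    mul_le_mul_of_nonneg_left (by linarith) (sq_nonneg φ)
  have hL2 : 0 ≤ L ^ 2 := sq_nonneg L
  have h7 : (5 / 8) * L ^ 2 ≤ κ * L ^ 2 := mul_le_mul_of_nonneg_right (by rw [hκ]; linarith) hL2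
  have h8 : (1 + φ) * L ^ 2 ≤ (3 / 2) * L ^ 2 := mul_le_mul_of_nonneg_right (by linarith) hL2
  have key : 0 ≤ ((1 / 2) * a + (1 / 2) * b + L ^ 2 / 8) * κ - ((1 / 2) * (a * (1 + φ))
      + (1 / 2) * b + (1 / 24) * ((1 + φ) * L ^ 2) - (5 / 4) * R ^ 2 * φ ^ 2) := by
    have e : ((1 / 2) * a + (1 / 2) * b + L ^ 2 / 8) * κ - ((1 / 2) * (a * (1 + φ))
      + (1 / 2) * b + (1 / 24) * ((1 + φ) * L ^ 2) - (5 / 4) * R ^ 2 * φ ^ 2) =
      φ * (b - a) / 4 - φ ^ 2 * (a + b) / 4 + κ * L ^ 2 / 8 - (1 + φ) * L ^ 2 / 24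
        + (5 / 4) * R ^ 2 * φ ^ 2 := by
      have : κ * a = (1 + φ / 2 - φ ^ 2 / 2) * a := by rw [hκ]
      have h' : κ * b = (1 + φ / 2 - φ ^ 2 / 2) * b := by rw [hκ]
      linear_combination (1 / 2) * this + (1 / 2) * h'
    rw [e]
    nlinarith [h3, h4, h5, h6, h7, h8]
  have := mul_nonneg hq key
  nlinarith [this]

/-- The relation between the volumes in the base case. -/
theorem base_vol {p q V φ : ℝ} (hV : 0 ≤ V) (hφ : |φ| ≤ 1 / 2)
    (hp : p = (1 + φ) * q) (h : p * q ≤ V ^ 2) : q * (1 + φ / 2 - φ ^ 2 / 2) ≤ V := by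
  have h1 := abs_le.1 hφ
  refine le_of_pow_le_pow_left₀ two_ne_zero hV ?_
  refine le_trans ?_ h
  rw [hp, mul_pow, mul_assoc, ← sq, mul_comm ((1 + φ)) _]
  refine mul_le_mul_of_nonneg_left ?_ (sq_nonneg q)
  have e : (1 + φ / 2 - φ ^ 2 / 2) = (1 + φ) * (1 - φ / 2) := by ring
  rw [e, mul_pow]
  have h2 : (1 + φ) * (1 - φ / 2) ^ 2 ≤ 1 := by nlinarith [sq_nonneg φ, sq_nonneg (φ - 3)]
  have h3 : 0 ≤ 1 + φ := by linarith
  calc (1 + φ) ^ 2 * (1 - φ / 2) ^ 2 = (1 + φ) * ((1 + φ) * (1 - φ / 2) ^ 2) := by ring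
    _ ≤ (1 + φ) * 1 := mul_le_mul_of_nonneg_left h2 h3
    _ = 1 + φ := mul_one _

theorem base_arith {R s p q κ e a b L φ I J1 J2 J3 J5 : ℝ} (hR : 0 ≤ R) (hs : 0 ≤ s)
    (hp0 : 0 < p) (hq0 : 0 < q) (hκ1 : κ ≤ 5 / 4) (hqp : q ≤ 2 * p) (hLR : L ≤ 2 * R)
    (hI2 : (e - R * s) * (q * κ) ≤ I) (hJ1 : J1 ≤ (a + R * s) * p) (hJ2 : J2 ≤ (b + R * s) * q)
    (hJ3 : φ ^ 2 * q ≤ J3) (hJ5 : J5 ≤ p * (L + 2 * s) ^ 2)
    (hbase : (1 / 2) * (a * p) + (1 / 2) * (b * q) + (1 / 24) * (p * L ^ 2)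
      - (5 / 4) * R ^ 2 * (φ ^ 2 * q) ≤ e * (q * κ)) :
    (1 / 2) * J1 + (1 / 2) * J2 + (1 / 24) * J5 - (5 / 4) * R ^ 2 * J3 ≤
      I + s * (5 * R + s) * p := by
  have hR2 : 0 ≤ (5 / 4) * R ^ 2 := by positivity
  have hJ3' := mul_le_mul_of_nonneg_left hJ3 hR2
  have hLs : p * (L + 2 * s) ^ 2 ≤ p * L ^ 2 + p * (8 * R * s + 4 * s ^ 2) := by
    have h0 : L * s ≤ 2 * R * s := mul_le_mul_of_nonneg_right hLR hs
    have h1 : (L + 2 * s) ^ 2 ≤ L ^ 2 + (8 * R * s + 4 * s ^ 2) := by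
      have : (L + 2 * s) ^ 2 = L ^ 2 + 4 * (L * s) + 4 * s ^ 2 := by ring
      rw [this]; linarith
    calc p * (L + 2 * s) ^ 2 ≤ p * (L ^ 2 + (8 * R * s + 4 * s ^ 2)) :=
          mul_le_mul_of_nonneg_left h1 hp0.le
      _ = _ := by ring
  have hRs : 0 ≤ R * s := mul_nonneg hR hs
  have hqκ : R * s * (q * κ) ≤ R * s * ((5 / 2) * p) := by
    refine mul_le_mul_of_nonneg_left ?_ hRs
    calc q * κ ≤ q * (5 / 4) := mul_le_mul_of_nonneg_left hκ1 hq0.le
      _ ≤ (5 / 2) * p := by linarith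
  have hRsq : R * s * q ≤ R * s * (2 * p) := mul_le_mul_of_nonneg_left hqp hRs
  have hs2 : 0 ≤ s ^ 2 * p := by positivity
  have hRsp : 0 ≤ R * s * p := by positivity
  have e1 : (e - R * s) * (q * κ) = e * (q * κ) - R * s * (q * κ) := by ring
  have e2 : (a + R * s) * p = a * p + R * s * p := by ring
  have e3 : (b + R * s) * q = b * q + R * s * q := by ring
  have e4 : s * (5 * R + s) * p = 5 * (R * s * p) + s ^ 2 * p := by ring
  have e5 : p * (8 * R * s + 4 * s ^ 2) = 8 * (R * s * p) + 4 * (s ^ 2 * p) := by ring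
  have e6 : R * s * ((5 / 2) * p) = (5 / 2) * (R * s * p) := by ring
  have e7 : R * s * (2 * p) = 2 * (R * s * p) := by ring
  rw [e1] at hI2
  rw [e2] at hJ1
  rw [e3] at hJ2
  rw [e5] at hLs
  rw [e6] at hqκ
  rw [e7] at hRsq
  rw [e4]
  linarith

/-- Cauchy-Schwarz. -/
theorem sq_mean_le {f : E d → ℝ} (hf : Measurable f) (hf1 : ∀ x, |f x| ≤ 1 / 2)
    {Q : Set (E d)} (hQ : IsCompact Q) {φ : ℝ} (hφ : ∫ x in Q, f x = φ * volume.real Q) :
    φ ^ 2 * volume.real Q ≤ ∫ x in Q, f x ^ 2 := by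
  have h1 : 0 ≤ ∫ x in Q, (f x - φ) ^ 2 := setIntegral_nonneg hQ.measurableSet fun x _ => sq_nonneg _
  have h2 : ∫ x in Q, (f x - φ) ^ 2 = (∫ x in Q, f x ^ 2) - φ ^ 2 * volume.real Q := by
    have e1 : ∀ x, (f x - φ) ^ 2 = f x ^ 2 - ((2 * φ) * f x - φ ^ 2) := fun x => by ring
    simp only [e1]
    have i1 := integrableOn_f_sq hQ hf hf1
    have i2 := (integrableOn_f hQ hf hf1).const_mul (2 * φ)
    have i3 : IntegrableOn (fun _ : E d => φ ^ 2) Q := integrableOn_const hQ.measure_lt_top.ne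
    have i4 : ∫ x in Q, (f x ^ 2 - ((2 * φ) * f x - φ ^ 2)) =
        (∫ x in Q, f x ^ 2) - ∫ x in Q, ((2 * φ) * f x - φ ^ 2) := integral_sub i1 (i2.sub i3)
    have i5 : ∫ x in Q, ((2 * φ) * f x - φ ^ 2) =
        (∫ x in Q, (2 * φ) * f x) - ∫ _x in Q, φ ^ 2 := integral_sub i2 i3
    rw [i4, i5, integral_const_mul, hφ, setIntegral_const, smul_eq_mul]
    ring
  linarith

/-- Moments of small sets. -/
theorem mom_sub_le {s : ℝ} {f : E d → ℝ} (hf : Measurable f)
    (hf1 : ∀ x, |f x| ≤ 1 / 2) {P Q : Set (E d)} (hP : IsCompact P) (hQ : IsCompact Q)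
    (hmass : volume.real P = ∫ x in Q, (1 + f x)) {x0 x1 : E d} (hPs : ∀ x ∈ P, ‖x - x0‖ ≤ s)
    (hQs : ∀ x ∈ Q, ‖x - x1‖ ≤ s) :
    ‖(∫ x in P, x) - (∫ x in Q, (1 + f x) • x)‖ ≤ volume.real P * (‖x0 - x1‖ + 2 * s) := by
  have k1 : ‖∫ x in P, (x - x0)‖ ≤ s * volume.real P :=
    norm_setIntegral_le_of_norm_le_const hP.measure_lt_top fun x hx => hPs _ hx
  have k1' : ∫ x in P, (x - x0) = (∫ x in P, x) - volume.real P • x0 := by
    rw [integral_sub (integrableOn_id hP) (integrableOn_const hP.measure_lt_top.ne),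
      setIntegral_const]
  have k2' : ∫ x in Q, (1 + f x) • (x - x1) =
      (∫ x in Q, (1 + f x) • x) - volume.real P • x1 := by
    simp only [smul_sub]
    rw [integral_sub (integrableOn_mom hQ hf hf1)
      ((integrableOn_one_add hQ hf hf1).smul_const x1), integral_smul_const, hmass]
  have k2 : ‖∫ x in Q, (1 + f x) • (x - x1)‖ ≤ s * volume.real P := by
    have h1 : ‖∫ x in Q, (1 + f x) • (x - x1)‖ ≤ ∫ x in Q, (1 + f x) * s := by
      refine norm_integral_le_of_norm_le ((integrableOn_one_add hQ hf hf1).mul_const s) ?_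
      refine (ae_restrict_iff' hQ.measurableSet).2 (Eventually.of_forall fun x hx => ?_)
      have h2 : 0 ≤ 1 + f x := by
        have := (abs_le.1 (hf1 x)).1
        linarith
      rw [norm_smul, Real.norm_eq_abs, abs_of_nonneg h2]
      exact mul_le_mul_of_nonneg_left (hQs _ hx) h2
    rw [integral_mul_const, ← hmass] at h1
    linarith
  have e1 : (∫ x in P, x) - (∫ x in Q, (1 + f x) • x) =
      (∫ x in P, (x - x0)) + volume.real P • (x0 - x1) - (∫ x in Q, (1 + f x) • (x - x1)) := by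
    rw [k1', k2', smul_sub]; abel
  rw [e1]
  have h3 : ‖volume.real P • (x0 - x1)‖ = volume.real P * ‖x0 - x1‖ := by
    rw [norm_smul, Real.norm_eq_abs, abs_of_nonneg measureReal_nonneg]
  have h4 := norm_sub_le ((∫ x in P, (x - x0)) + volume.real P • (x0 - x1))
    (∫ x in Q, (1 + f x) • (x - x1))
  have h5 := norm_add_le (∫ x in P, (x - x0)) (volume.real P • (x0 - x1))
  rw [h3] at h5
  linarith

theorem integral_eta_le {R s : ℝ} (hR : 0 ≤ R) {P : Set (E d)} (hP : IsCompact P)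
    (hPR : P ⊆ closedBall 0 R) {x0 : E d} (hx0 : x0 ∈ P) (hPs : ∀ x ∈ P, ‖x - x0‖ ≤ s) :
    ∫ x in P, eta R x ≤ (eta R x0 + R * s) * volume.real P := by
  have h1 : ∫ x in P, eta R x ≤ ∫ _x in P, (eta R x0 + R * s) := by
    refine setIntegral_mono_on (integrableOn_eta R hP) (integrableOn_const hP.measure_lt_top.ne)
      hP.measurableSet fun x hx => ?_
    have h2 := (abs_le.1 (abs_eta_sub_le (hPR hx) (hPR hx0))).2
    have h3 : R * ‖x - x0‖ ≤ R * s := mul_le_mul_of_nonneg_left (hPs _ hx) hR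
    linarith
  rwa [setIntegral_const, smul_eq_mul, mul_comm] at h1

theorem integral_eta_mid_ge {R s : ℝ} (hR : 0 ≤ R) {P Q : Set (E d)} (hP : IsCompact P)
    (hQ : IsCompact Q) (hPR : P ⊆ closedBall 0 R) (hQR : Q ⊆ closedBall 0 R) {x0 x1 : E d}
    (hx0 : x0 ∈ P) (hx1 : x1 ∈ Q) (hPs : ∀ x ∈ P, ‖x - x0‖ ≤ s) (hQs : ∀ x ∈ Q, ‖x - x1‖ ≤ s) :
    max (eta R ((1 / 2 : ℝ) • (x0 + x1)) - R * s) 0 * volume.real (mid P Q) ≤
      ∫ x in mid P Q, eta R x := by
  have hmidc := isCompact_mid hP hQ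
  have hmidR : mid P Q ⊆ closedBall 0 R := mid_subset_of_convex hPR hQR (convex_closedBall _ _)
  have hz0m : (1 / 2 : ℝ) • (x0 + x1) ∈ mid P Q := ⟨(x0, x1), ⟨hx0, hx1⟩, rfl⟩
  have hmidlow : ∀ z ∈ mid P Q, max (eta R ((1 / 2 : ℝ) • (x0 + x1)) - R * s) 0 ≤ eta R z := by
    intro z hz
    refine max_le ?_ (eta_nonneg (hmidR hz))
    obtain ⟨⟨x, x'⟩, ⟨hx, hx'⟩, rfl⟩ := hz
    have hz : (1 / 2 : ℝ) • (x + x') ∈ mid P Q := ⟨(x, x'), ⟨hx, hx'⟩, rfl⟩
    have h1 := abs_eta_sub_le (hmidR hz) (hmidR hz0m)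
    have h2 : ‖(1 / 2 : ℝ) • (x + x') - (1 / 2 : ℝ) • (x0 + x1)‖ ≤ s := by
      have e1 : (1 / 2 : ℝ) • (x + x') - (1 / 2 : ℝ) • (x0 + x1) =
          (1 / 2 : ℝ) • ((x - x0) + (x' - x1)) := by module
      rw [e1, norm_smul, Real.norm_eq_abs, abs_of_nonneg (by norm_num : (0 : ℝ) ≤ 1 / 2)]
      have := (norm_add_le (x - x0) (x' - x1)).trans (add_le_add (hPs _ hx) (hQs _ hx'))
      linarith
    have h3 := mul_le_mul_of_nonneg_left h2 hR
    have h4 := (abs_le.1 (h1.trans h3)).1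
    show eta R ((1 / 2 : ℝ) • (x0 + x1)) - R * s ≤ eta R ((1 / 2 : ℝ) • (x + x'))
    linarith
  have h1 : ∫ _x in mid P Q, max (eta R ((1 / 2 : ℝ) • (x0 + x1)) - R * s) 0 ≤
      ∫ x in mid P Q, eta R x :=
    setIntegral_mono_on (integrableOn_const hmidc.measure_lt_top.ne) (integrableOn_eta R hmidc)
      hmidc.measurableSet hmidlow
  rwa [setIntegral_const, smul_eq_mul, mul_comm] at h1

/-- The base case when the masses do not vanish. -/
theorem base_case_pos {R s : ℝ} (hs : 0 ≤ s) {f : E d → ℝ} (hf : Measurable f)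
    (hf1 : ∀ x, |f x| ≤ 1 / 2) {P Q : Set (E d)} (hP : IsCompact P) (hQ : IsCompact Q)
    (hPR : P ⊆ closedBall 0 R) (hQR : Q ⊆ closedBall 0 R)
    (hmass : volume.real P = ∫ x in Q, (1 + f x)) (hPs : ∀ x ∈ P, ∀ z ∈ P, ‖x - z‖ ≤ s)
    (hQs : ∀ x ∈ Q, ∀ z ∈ Q, ‖x - z‖ ≤ s) (hp0 : 0 < volume.real P) :
    rhs R f P Q ≤ (∫ x in mid P Q, eta R x) + s * (5 * R + s) * volume.real P := by
  have hmidc := isCompact_mid hP hQ
  have hq0 : 0 < volume.real Q := by
    rcases (measureReal_nonneg (μ := volume) (s := Q)).eq_or_lt with h | h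
    · exfalso
      have h2 : volume Q = 0 := (measureReal_eq_zero_iff hQ.measure_lt_top.ne).1 h.symm
      rw [Measure.restrict_eq_zero.2 h2] at hmass
      simp only [integral_zero_measure] at hmass
      linarith
    · exact h
  obtain ⟨x0, hx0⟩ : P.Nonempty := by
    rw [nonempty_iff_ne_empty]; rintro rfl; simp at hp0
  obtain ⟨x1, hx1⟩ : Q.Nonempty := by
    rw [nonempty_iff_ne_empty]; rintro rfl; simp at hq0
  have hx0R : ‖x0‖ ≤ R := by simpa using hPR hx0
  have hx1R : ‖x1‖ ≤ R := by simpa using hQR hx1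
  have hR : 0 ≤ R := (norm_nonneg _).trans hx0R
  -- the mean density
  obtain ⟨φ, hFφ⟩ : ∃ φ, ∫ x in Q, f x = φ * volume.real Q :=
    ⟨(∫ x in Q, f x) / volume.real Q, (div_mul_cancel₀ _ hq0.ne').symm⟩
  have hpφ : volume.real P = (1 + φ) * volume.real Q := by
    rw [hmass, integral_one_add hQ hf hf1, hFφ]; ring
  have hφ1 : |φ| ≤ 1 / 2 := by
    have h1 : ‖∫ x in Q, f x‖ ≤ 1 / 2 * volume.real Q :=
      norm_setIntegral_le_of_norm_le_const (f := f) hQ.measure_lt_top fun x _ => hf1 x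
    rw [hFφ, Real.norm_eq_abs, abs_mul, abs_of_pos hq0] at h1
    exact le_of_mul_le_mul_right h1 hq0
  have hφb := abs_le.1 hφ1
  have hqp : volume.real Q ≤ 2 * volume.real P := by rw [hpφ]; nlinarith
  have hbm : volume.real P * volume.real Q ≤ volume.real (mid P Q) ^ 2 := by
    have h := bm_mid hP hQ
    have h2 := ENNReal.toReal_mono (ENNReal.pow_ne_top hmidc.measure_lt_top.ne) h
    rw [ENNReal.toReal_mul, ENNReal.toReal_pow] at h2
    exact h2
  have hVκ := base_vol measureReal_nonneg hφ1 hpφ hbm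
  have hφ2 : φ ^ 2 ≤ 1 / 4 := by nlinarith
  have hκ0 : 0 ≤ 1 + φ / 2 - φ ^ 2 / 2 := by linarith
  have hκ1 : 1 + φ / 2 - φ ^ 2 / 2 ≤ 5 / 4 := by nlinarith [sq_nonneg φ]
  have hI1 := integral_eta_mid_ge hR hP hQ hPR hQR hx0 hx1 (fun x hx => hPs x hx x0 hx0)
    (fun x hx => hQs x hx x1 hx1)
  have hI2 : (eta R ((1 / 2 : ℝ) • (x0 + x1)) - R * s) *
      (volume.real Q * (1 + φ / 2 - φ ^ 2 / 2)) ≤ ∫ x in mid P Q, eta R x := by
    refine le_trans ?_ hI1
    refine (mul_le_mul_of_nonneg_right (le_max_left _ 0) (mul_nonneg hq0.le hκ0)).trans ?_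
    exact mul_le_mul_of_nonneg_left hVκ (le_max_right _ _)
  have hJ4 := mom_sub_le hf hf1 hP hQ hmass (fun x hx => hPs x hx x0 hx0)
    (fun x hx => hQs x hx x1 hx1)
  have hJ5 : ‖(∫ x in P, x) - (∫ x in Q, (1 + f x) • x)‖ ^ 2 / volume.real P ≤
      volume.real P * (‖x0 - x1‖ + 2 * s) ^ 2 := by
    rw [div_le_iff₀ hp0]
    refine (pow_le_pow_left₀ (norm_nonneg _) hJ4 2).trans (le_of_eq ?_)
    ring
  have hbase := base_real (R := R) (L := ‖x0 - x1‖) (φ := φ) (a := eta R x0) (b := eta R x1)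
    (q := volume.real Q) (κ := 1 + φ / 2 - φ ^ 2 / 2) hφ1
    (eta_le R x0) (eta_le R x1) (by
      rw [← norm_neg (x0 - x1), neg_sub]; exact abs_eta_sub_le (hQR hx1) (hPR hx0)) hq0.le rfl
  rw [← hpφ, ← eta_mid] at hbase
  exact base_arith hR hs hp0 hq0 hκ1 hqp ((norm_sub_le _ _).trans (by linarith)) hI2
    (integral_eta_le hR hP hPR hx0 fun x hx => hPs x hx x0 hx0)
    (integral_eta_le hR hQ hQR hx1 fun x hx => hQs x hx x1 hx1)
    (sq_mean_le hf hf1 hQ hFφ) hJ5 hbase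

theorem base_case {R s : ℝ} (hs : 0 ≤ s) {f : E d → ℝ} (hf : Measurable f)
    (hf1 : ∀ x, |f x| ≤ 1 / 2) {P Q : Set (E d)} (hP : IsCompact P) (hQ : IsCompact Q)
    (hPR : P ⊆ closedBall 0 R) (hQR : Q ⊆ closedBall 0 R)
    (hmass : volume.real P = ∫ x in Q, (1 + f x)) (hPs : ∀ x ∈ P, ∀ z ∈ P, ‖x - z‖ ≤ s)
    (hQs : ∀ x ∈ Q, ∀ z ∈ Q, ‖x - z‖ ≤ s) :
    rhs R f P Q ≤ (∫ x in mid P Q, eta R x) + s * (5 * R + s) * volume.real P := by
  rcases (measureReal_nonneg (μ := volume) (s := P)).eq_or_lt with hp0 | hp0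
  · have hmidc := isCompact_mid hP hQ
    have hmidR : mid P Q ⊆ closedBall 0 R := mid_subset_of_convex hPR hQR (convex_closedBall _ _)
    have h1 : volume P = 0 := (measureReal_eq_zero_iff hP.measure_lt_top.ne).1 hp0.symm
    have h2 : volume Q = 0 := volume_eq_zero_of_mass hQ hf hf1 (by rw [← hmass, ← hp0])
    rw [rhs_eq_zero h1 h2, ← hp0, mul_zero, add_zero]
    exact setIntegral_nonneg hmidc.measurableSet fun x hx => eta_nonneg (hmidR hx)
  · exact base_case_pos hs hf hf1 hP hQ hPR hQR hmass hPs hQs hp0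

/-! ### Induction on the number of cuts -/

/-- The coordinate `k` varies by at most `l` on `P`. -/
def Wid (P : Set (E d)) (k : Fin d) (l : ℝ) : Prop := ∃ c, ∀ x ∈ P, c ≤ x k ∧ x k ≤ c + l

theorem Wid.mono {P P' : Set (E d)} {k : Fin d} {l : ℝ} (h : Wid P k l) (hs : P' ⊆ P) :
    Wid P' k l := by
  obtain ⟨c, hc⟩ := h
  exact ⟨c, fun x hx => hc x (hs hx)⟩

theorem Wid.half {P : Set (E d)} {k : Fin d} {l : ℝ} (h : Wid P k (2 * l)) :
    ∃ c, Wid (lo P k c) k l ∧ Wid (hi P k c) k l := by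
  obtain ⟨c, hc⟩ := h
  refine ⟨c + l, ⟨c, fun x hx => ⟨(hc x hx.1).1, hx.2⟩⟩, ⟨c + l, fun x hx => ⟨hx.2, ?_⟩⟩⟩
  have := (hc x hx.1).2
  linarith

theorem norm_le_of_coord {x : E d} {δ : ℝ} (hδ : 0 ≤ δ) (h : ∀ k, |x k| ≤ δ) :
    ‖x‖ ≤ √d * δ := by
  rw [EuclideanSpace.norm_eq]
  have h1 : ∑ i, ‖x i‖ ^ 2 ≤ d * δ ^ 2 := by
    calc ∑ i, ‖x i‖ ^ 2 ≤ ∑ _i : Fin d, δ ^ 2 :=
          Finset.sum_le_sum fun i _ => pow_le_pow_left₀ (norm_nonneg _) (h i) 2
      _ = d * δ ^ 2 := by simp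
  calc √(∑ i, ‖x i‖ ^ 2) ≤ √(d * δ ^ 2) := Real.sqrt_le_sqrt h1
    _ = √d * δ := by rw [Real.sqrt_mul (by positivity), Real.sqrt_sq hδ]

theorem dist_le_of_wid {P : Set (E d)} {δ : ℝ} (hδ : 0 ≤ δ) (h : ∀ k, Wid P k δ) :
    ∀ x ∈ P, ∀ z ∈ P, ‖x - z‖ ≤ √d * δ := by
  intro x hx z hz
  refine norm_le_of_coord hδ fun k => ?_
  obtain ⟨c, hc⟩ := h k
  have h1 := hc x hx
  have h2 := hc z hz
  rw [PiLp.sub_apply, abs_le]
  constructor <;> linarith

theorem pair_err {R δ : ℝ} (hδ : 0 ≤ δ) {f : E d → ℝ} (hf : Measurable f)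
    (hf1 : ∀ x, |f x| ≤ 1 / 2) : ∀ (N : ℕ) (a b : Fin d → ℕ), ∑ k, (a k + b k) = N →
    ∀ P Q : Set (E d), IsCompact P → IsCompact Q → P ⊆ closedBall 0 R → Q ⊆ closedBall 0 R →
    volume.real P = ∫ x in Q, (1 + f x) → (∀ k, Wid P k (2 ^ a k * δ)) →
    (∀ k, Wid Q k (2 ^ b k * δ)) →
    rhs R f P Q ≤ (∫ x in mid P Q, eta R x) + √d * δ * (5 * R + √d * δ) * volume.real P := by
  intro N
  induction N with
  | zero =>
    intro a b hab P Q hP hQ hPR hQR hmass hPw hQw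
    have h0 : ∀ k, a k = 0 ∧ b k = 0 := fun k => by
      have := (Finset.sum_eq_zero_iff.1 hab) k (Finset.mem_univ k)
      omega
    have hPw' : ∀ k, Wid P k δ := fun k => by simpa [(h0 k).1] using hPw k
    have hQw' : ∀ k, Wid Q k δ := fun k => by simpa [(h0 k).2] using hQw k
    exact base_case (by positivity) hf hf1 hP hQ hPR hQR hmass (dist_le_of_wid hδ hPw')
      (dist_le_of_wid hδ hQw')
  | succ N ih =>
    intro a b hab P Q hP hQ hPR hQR hmass hPw hQw
    have hQi := integrableOn_one_add hQ hf hf1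
    have hPi : IntegrableOn (fun _ : E d => (1 : ℝ)) P := integrableOn_const hP.measure_lt_top.ne
    -- it suffices to find matched cuts
    have key : ∀ (k : Fin d) (c c' : ℝ) (a' b' : Fin d → ℕ), ∑ k, (a' k + b' k) = N →
        volume.real (lo P k c) = ∫ x in lo Q k c', (1 + f x) →
        (∀ j, Wid (lo P k c) j (2 ^ a' j * δ)) → (∀ j, Wid (hi P k c) j (2 ^ a' j * δ)) →
        (∀ j, Wid (lo Q k c') j (2 ^ b' j * δ)) → (∀ j, Wid (hi Q k c') j (2 ^ b' j * δ)) →
        rhs R f P Q ≤ (∫ x in mid P Q, eta R x)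
          + √d * δ * (5 * R + √d * δ) * volume.real P := by
      intro k c c' a' b' hab' hlo w1 w2 w3 w4
      have e1 := volume_real_lo_add_hi hP k c
      have e2 := integral_lo_add_hi hQ k c' hQi
      have hhi : volume.real (hi P k c) = ∫ x in hi Q k c', (1 + f x) := by linarith
      have i1 := ih a' b' hab' _ _ (isCompact_lo hP k c) (isCompact_lo hQ k c')
        ((lo_subset _ _ _).trans hPR) ((lo_subset _ _ _).trans hQR) hlo w1 w3
      have i2 := ih a' b' hab' _ _ (isCompact_hi hP k c) (isCompact_hi hQ k c')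
        ((hi_subset _ _ _).trans hPR) ((hi_subset _ _ _).trans hQR) hhi w2 w4
      have i3 := rhs_le_of_cut (R := R) hf hf1 hP hQ k hlo hhi
      have i4 := mid_integral_ge_of_cut hP hQ hPR hQR k c c'
      rw [e1, mul_add]
      linarith
    obtain ⟨k, -, hk⟩ : ∃ k ∈ Finset.univ, a k + b k ≠ 0 := by
      by_contra h
      push Not at h
      rw [Finset.sum_eq_zero h] at hab
      omega
    rcases Nat.eq_zero_or_pos (a k) with hak | hak
    · -- cut `Q`
      have hbk : 0 < b k := by omega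
      obtain ⟨m, hm⟩ : ∃ m, b k = m + 1 := ⟨b k - 1, by omega⟩
      have hw : Wid Q k (2 * (2 ^ m * δ)) := by
        have := hQw k
        rw [hm, pow_succ] at this
        convert this using 1
        ring
      obtain ⟨c', hc1, hc2⟩ := hw.half
      have e2 := integral_lo_add_hi hQ k c' hQi
      have hnn : ∀ {B : Set (E d)}, IsCompact B → 0 ≤ ∫ x in B, (1 + f x) := fun hB =>
        setIntegral_nonneg hB.measurableSet fun x _ => by
          have := (abs_le.1 (hf1 x)).1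
          linarith
      obtain ⟨c, hc⟩ := exists_cut hP k hPi (a := ∫ x in lo Q k c', (1 + f x))
        (hnn (isCompact_lo hQ k c')) (by
          have := hnn (isCompact_hi hQ k c')
          rw [setIntegral_const, smul_eq_mul, mul_one, hmass]
          linarith)
      rw [setIntegral_const, smul_eq_mul, mul_one] at hc
      refine key k c c' a (Function.update b k m) ?_ hc
        (fun j => (hPw j).mono (lo_subset _ _ _)) (fun j => (hPw j).mono (hi_subset _ _ _)) ?_ ?_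
      · have h1 : ∑ j, (a j + b j) = ∑ j, (a j + Function.update b k m j) + 1 := by
          rw [← Finset.add_sum_erase _ _ (Finset.mem_univ k),
            ← Finset.add_sum_erase _ (fun j => a j + Function.update b k m j) (Finset.mem_univ k)]
          rw [Function.update_self, hm]
          have : ∑ j ∈ Finset.univ.erase k, (a j + Function.update b k m j) =
              ∑ j ∈ Finset.univ.erase k, (a j + b j) := by
            refine Finset.sum_congr rfl fun j hj => ?_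
            rw [Function.update_of_ne (Finset.ne_of_mem_erase hj)]
          rw [this]; ring
        omega
      · intro j
        by_cases hj : j = k
        · subst hj; rw [Function.update_self]; exact hc1
        · rw [Function.update_of_ne hj]; exact (hQw j).mono (lo_subset _ _ _)
      · intro j
        by_cases hj : j = k
        · subst hj; rw [Function.update_self]; exact hc2
        · rw [Function.update_of_ne hj]; exact (hQw j).mono (hi_subset _ _ _)
    · -- cut `P`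
      obtain ⟨m, hm⟩ : ∃ m, a k = m + 1 := ⟨a k - 1, by omega⟩
      have hw : Wid P k (2 * (2 ^ m * δ)) := by
        have := hPw k
        rw [hm, pow_succ] at this
        convert this using 1
        ring
      obtain ⟨c, hc1, hc2⟩ := hw.half
      obtain ⟨c', hc'⟩ := exists_cut hQ k hQi (a := volume.real (lo P k c)) measureReal_nonneg (by
        rw [← hmass, volume_real_lo_add_hi hP k c]
        have := measureReal_nonneg (μ := volume) (s := hi P k c)
        linarith)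
      refine key k c c' (Function.update a k m) b ?_ hc'.symm ?_ ?_
        (fun j => (hQw j).mono (lo_subset _ _ _)) (fun j => (hQw j).mono (hi_subset _ _ _))
      · have h1 : ∑ j, (a j + b j) = ∑ j, (Function.update a k m j + b j) + 1 := by
          rw [← Finset.add_sum_erase _ _ (Finset.mem_univ k),
            ← Finset.add_sum_erase _ (fun j => Function.update a k m j + b j) (Finset.mem_univ k)]
          rw [Function.update_self, hm]
          have : ∑ j ∈ Finset.univ.erase k, (Function.update a k m j + b j) =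
              ∑ j ∈ Finset.univ.erase k, (a j + b j) := by
            refine Finset.sum_congr rfl fun j hj => ?_
            rw [Function.update_of_ne (Finset.ne_of_mem_erase hj)]
          rw [this]; ring
        omega
      · intro j
        by_cases hj : j = k
        · subst hj; rw [Function.update_self]; exact hc1
        · rw [Function.update_of_ne hj]; exact (hPw j).mono (lo_subset _ _ _)
      · intro j
        by_cases hj : j = k
        · subst hj; rw [Function.update_self]; exact hc2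
        · rw [Function.update_of_ne hj]; exact (hPw j).mono (hi_subset _ _ _)

/-- **The midpoint inequality for pairs.** -/
theorem pair_ineq {R : ℝ} {P Q : Set (E d)} (hP : IsCompact P) (hQ : IsCompact Q)
    (hPR : P ⊆ closedBall 0 R) (hQR : Q ⊆ closedBall 0 R) {f : E d → ℝ} (hf : Measurable f)
    (hf1 : ∀ x, |f x| ≤ 1 / 2) (hmass : volume.real P = ∫ x in Q, (1 + f x)) :
    (1 / 2) * (∫ x in P, eta R x) + (1 / 2) * (∫ x in Q, eta R x)
      + (1 / 24) * (‖(∫ x in P, x) - (∫ x in Q, (1 + f x) • x)‖ ^ 2 / volume.real P)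
      - (5 / 4) * R ^ 2 * (∫ x in Q, f x ^ 2) ≤ ∫ x in mid P Q, eta R x := by
  change rhs R f P Q ≤ _
  rcases lt_or_ge R 0 with hR | hR
  · have h1 : P = ∅ := by
      rw [closedBall_eq_empty.2 hR] at hPR
      exact subset_eq_empty hPR rfl
    have h2 : Q = ∅ := by
      rw [closedBall_eq_empty.2 hR] at hQR
      exact subset_eq_empty hQR rfl
    subst h1 h2
    rw [rhs_eq_zero measure_empty measure_empty]
    simp [mid]
  have hwid : ∀ {A : Set (E d)}, A ⊆ closedBall 0 R → ∀ k, Wid A k (2 * R) := by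
    intro A hA k
    refine ⟨-R, fun x hx => ?_⟩
    have h1 : ‖x‖ ≤ R := by simpa using hA hx
    have h2 : |x k| ≤ R := by
      have := (PiLp.norm_apply_le x k).trans h1
      simpa using this
    have := abs_le.1 h2
    constructor <;> linarith
  have hn : ∀ n : ℕ, rhs R f P Q ≤ (∫ x in mid P Q, eta R x)
      + √d * (2 * R / 2 ^ n) * (5 * R + √d * (2 * R / 2 ^ n)) * volume.real P := by
    intro n
    have e : (2 : ℝ) ^ n * (2 * R / 2 ^ n) = 2 * R := by field_simp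
    refine pair_err (by positivity) hf hf1 _ (fun _ => n) (fun _ => n) rfl P Q hP hQ hPR hQR hmass
      (fun k => ?_) (fun k => ?_)
    · rw [e]; exact hwid hPR k
    · rw [e]; exact hwid hQR k
  have ht : Tendsto (fun n : ℕ => 2 * R / (2 : ℝ) ^ n) atTop (𝓝 0) := by
    have h1 : Tendsto (fun n : ℕ => 2 * R * (1 / 2 : ℝ) ^ n) atTop (𝓝 (2 * R * 0)) :=
      (tendsto_pow_atTop_nhds_zero_of_lt_one (by norm_num) (by norm_num)).const_mul _
    rw [mul_zero] at h1
    refine h1.congr fun n => ?_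
    rw [one_div, inv_pow, div_eq_mul_inv]
  have ht2 : Tendsto (fun n : ℕ => (∫ x in mid P Q, eta R x)
      + √d * (2 * R / 2 ^ n) * (5 * R + √d * (2 * R / 2 ^ n)) * volume.real P) atTop
      (𝓝 ((∫ x in mid P Q, eta R x) + √d * 0 * (5 * R + √d * 0) * volume.real P)) :=
    tendsto_const_nhds.add (((ht.const_mul _).mul
      (tendsto_const_nhds.add (ht.const_mul _))).mul_const _)
  have := ge_of_tendsto' ht2 hn
  simpa using this

end Vale.Agent.P074
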