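import Vale.Agent.P074.Defs

/-!
# Semidiscrete optimal transport: power cells and basic facts
-/

open MeasureTheory Set Metric
open scoped ENNReal NNReal InnerProductSpace

namespace Vale.Agent.P074

/-- The concave weight `(R² - ‖x‖²)/2`. -/
noncomputable def eta {d : ℕ} (R : ℝ) (x : E d) : ℝ := (R ^ 2 - ‖x‖ ^ 2) / 2

/-- The set of midpoints `(P + Q)/2`. -/
def mid {d : ℕ} (P Q : Set (E d)) : Set (E d) :=
  (fun p : E d × E d => (1 / 2 : ℝ) • (p.1 + p.2)) '' (P ×ˢ Q)

variable {d n : ℕ}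

/-- The power cell of index `i` inside `K`, for sites `y` and weights `w`. -/
def cell (K : Set (E d)) (y : Fin n → E d) (w : Fin n → ℝ) (i : Fin n) : Set (E d) :=
  {x | x ∈ K ∧ ∀ j, ⟪x, y j⟫_ℝ - w j ≤ ⟪x, y i⟫_ℝ - w i}

/-- The cells with weights `w` have the masses `m` for the density `1 + f`. -/
def Fits (K : Set (E d)) (f : E d → ℝ) (m : Fin n → ℝ) (y : Fin n → E d) (w : Fin n → ℝ) : Prop :=
  ∀ i, ∫ x in cell K y w i, (1 + f x) = m i

/-- First moment of the cell for the density `1 + f`. -/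
noncomputable def mom (K : Set (E d)) (f : E d → ℝ) (y : Fin n → E d) (w : Fin n → ℝ)
    (i : Fin n) : E d := ∫ x in cell K y w i, (1 + f x) • x

/-- Value of the semidiscrete plan. -/
noncomputable def val (K : Set (E d)) (f : E d → ℝ) (y : Fin n → E d) (w : Fin n → ℝ) : ℝ :=
  ∑ i, ⟪mom K f y w i, y i⟫_ℝ

theorem cell_subset (K : Set (E d)) (y : Fin n → E d) (w : Fin n → ℝ) (i : Fin n) :
    cell K y w i ⊆ K := fun _ hx => hx.1

theorem isCompact_cell {K : Set (E d)} (hK : IsCompact K) (y : Fin n → E d) (w : Fin n → ℝ)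
    (i : Fin n) : IsCompact (cell K y w i) := by
  have : cell K y w i = K ∩ ⋂ j, {x | ⟪x, y j⟫_ℝ - w j ≤ ⟪x, y i⟫_ℝ - w i} := by
    ext x; simp [cell]
  rw [this]
  refine hK.inter_right (isClosed_iInter fun j => isClosed_le ?_ ?_) <;> fun_prop

theorem measurableSet_cell {K : Set (E d)} (hK : IsCompact K) (y : Fin n → E d) (w : Fin n → ℝ)
    (i : Fin n) : MeasurableSet (cell K y w i) := (isCompact_cell hK y w i).measurableSet

theorem iUnion_cell (hn : 0 < n) (K : Set (E d)) (y : Fin n → E d) (w : Fin n → ℝ) :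
    ⋃ i, cell K y w i = K := by
  refine Subset.antisymm (iUnion_subset fun i => cell_subset K y w i) fun x hx => ?_
  have : Nonempty (Fin n) := ⟨⟨0, hn⟩⟩
  obtain ⟨i, hi⟩ := Finite.exists_max fun j => ⟪x, y j⟫_ℝ - w j
  exact mem_iUnion.2 ⟨i, hx, hi⟩

/-- A hyperplane is Lebesgue null. -/
theorem volume_hyperplane {v : E d} (hv : v ≠ 0) (c : ℝ) :
    volume {x : E d | ⟪x, v⟫_ℝ = c} = 0 := by
  have hv2 : ⟪v, v⟫_ℝ ≠ 0 := inner_self_ne_zero.2 hv
  set L : Submodule ℝ (E d) := LinearMap.ker (innerₗ (E d) v) with hL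
  have hL' : L ≠ ⊤ := by
    intro h
    have : v ∈ L := by rw [h]; trivial
    rw [hL, LinearMap.mem_ker, innerₗ_apply_apply] at this
    exact hv2 this
  have h1 : {x : E d | ⟪x, v⟫_ℝ = c} = (fun x => x + (-((c / ⟪v, v⟫_ℝ) • v))) ⁻¹' (L : Set (E d)) := by
    ext x
    simp only [mem_ofPred_eq, mem_preimage, SetLike.mem_coe, hL, LinearMap.mem_ker,
      innerₗ_apply_apply, inner_add_right, inner_neg_right, real_inner_smul_right]
    rw [div_mul_cancel₀ _ hv2, real_inner_comm]
    constructor <;> intro h <;> linarith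
  rw [h1, measure_preimage_add_right]
  exact Measure.addHaar_submodule volume L hL'

theorem aedisjoint_cell (K : Set (E d)) {y : Fin n → E d} (hy : Function.Injective y)
    (w : Fin n → ℝ) : Pairwise (Function.onFun (AEDisjoint volume) (cell K y w)) := by
  intro i j hij
  refine measure_mono_null ?_ (volume_hyperplane (v := y i - y j)
    (sub_ne_zero.2 (hy.ne hij)) (w i - w j))
  rintro x ⟨h1, h2⟩
  have e1 := h1.2 j
  have e2 := h2.2 i
  simp only [mem_ofPred_eq, inner_sub_right]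
  linarith

theorem integral_cells (hn : 0 < n) {K : Set (E d)} (hK : IsCompact K) {y : Fin n → E d}
    (hy : Function.Injective y) (w : Fin n → ℝ) {V : Type*} [NormedAddCommGroup V]
    [NormedSpace ℝ V] {F : E d → V} (hF : IntegrableOn F K) :
    ∫ x in K, F x = ∑ i, ∫ x in cell K y w i, F x := by
  conv_lhs => rw [← iUnion_cell hn K y w]
  rw [integral_iUnion_ae]
  · rw [tsum_fintype]
  · exact fun i => (measurableSet_cell hK y w i).nullMeasurableSet
  · exact aedisjoint_cell K hy w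
  · rwa [iUnion_cell hn K y w]

end Vale.Agent.P074
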