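import Vale.Agent.P074.Defs

open MeasureTheory
open scoped ENNReal NNReal InnerProductSpace

namespace Vale.Agent.P074

section general

variable {d : ℕ}

theorem norm_le_sum_abs (v : E d) : ‖v‖ ≤ ∑ i, |v i| := by
  have h : v = ∑ i, EuclideanSpace.single i (v i) := by
    ext j
    simp
  calc ‖v‖ = ‖∑ i, EuclideanSpace.single i (v i)‖ := by rw [← h]
    _ ≤ ∑ i, ‖EuclideanSpace.single i (v i)‖ := norm_sum_le _ _
    _ = ∑ i, |v i| := by simp

theorem inner_single_eq (i : Fin d) (δ : ℝ) (v : E d) :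
    ⟪EuclideanSpace.single i δ, v⟫_ℝ = δ * v i := by
  rw [EuclideanSpace.inner_single_left]; simp

noncomputable def conj (R : ℝ) (φ : E d → ℝ) (y : E d) : ℝ :=
  ⨆ z : Metric.closedBall (0 : E d) R, (⟪(z : E d), y⟫_ℝ - φ z)

theorem conj_bdd {R : ℝ} {φ : E d → ℝ} (hφ : Continuous φ) (y : E d) :
    BddAbove (Set.range fun z : Metric.closedBall (0 : E d) R => (⟪(z : E d), y⟫_ℝ - φ z)) := by
  have hc : ContinuousOn (fun z : E d => ⟪z, y⟫_ℝ - φ z) (Metric.closedBall (0 : E d) R) := by
    fun_prop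
  have := (isCompact_closedBall (0 : E d) R).bddAbove_image hc
  refine this.mono ?_
  rintro _ ⟨z, rfl⟩
  exact ⟨z, z.2, rfl⟩

theorem le_conj {R : ℝ} {φ : E d → ℝ} (hφ : Continuous φ) (y z : E d) (hz : ‖z‖ ≤ R) :
    ⟪z, y⟫_ℝ - φ z ≤ conj R φ y :=
  le_ciSup (conj_bdd hφ y) (⟨z, by simpa using hz⟩ : Metric.closedBall (0 : E d) R)

theorem conj_le {R : ℝ} (hR : 0 ≤ R) {φ : E d → ℝ} {x y : E d}
    (h : ∀ z, φ x + ⟪z - x, y⟫_ℝ ≤ φ z) : conj R φ y ≤ ⟪x, y⟫_ℝ - φ x := by
  have : Nonempty (Metric.closedBall (0 : E d) R) := ⟨⟨0, by simpa using hR⟩⟩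
  apply ciSup_le
  intro z
  have := h z
  rw [inner_sub_left] at this
  linarith

theorem conj_lip {R : ℝ} (hR : 0 ≤ R) {φ : E d → ℝ} (hφ : Continuous φ) (y y' : E d) :
    conj R φ y - conj R φ y' ≤ R * ‖y - y'‖ := by
  have : Nonempty (Metric.closedBall (0 : E d) R) := ⟨⟨0, by simpa using hR⟩⟩
  rw [sub_le_iff_le_add]
  apply ciSup_le
  intro z
  have hz : ‖(z : E d)‖ ≤ R := mem_closedBall_zero_iff.1 z.2
  have h1 := le_conj (R := R) hφ y' z hz
  have h2 : ⟪(z : E d), y - y'⟫_ℝ ≤ R * ‖y - y'‖ :=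
    (real_inner_le_norm _ _).trans (by gcongr)
  rw [inner_sub_right] at h2
  linarith

theorem conj_abs_sub {R : ℝ} (hR : 0 ≤ R) {φ : E d → ℝ} (hφ : Continuous φ) (y y' : E d) :
    |conj R φ y - conj R φ y'| ≤ R * ‖y - y'‖ := by
  rw [abs_le]
  constructor
  · have := conj_lip hR hφ y' y
    rw [norm_sub_rev] at this
    linarith
  · exact conj_lip hR hφ y y'

theorem conj_continuous {R : ℝ} (hR : 0 ≤ R) {φ : E d → ℝ} (hφ : Continuous φ) :
    Continuous (conj R φ) := by
  have : LipschitzWith ⟨R, hR⟩ (conj R φ) := by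
    apply LipschitzWith.of_dist_le_mul
    intro x y
    rw [Real.dist_eq, dist_eq_norm]
    exact conj_abs_sub hR hφ x y
  exact this.continuous

theorem gap_bound {R : ℝ} {φ : E d → ℝ} (hφ : Continuous φ) {x a b : E d}
    (hx : ‖x‖ + 1 ≤ R) (hb : ∀ z, φ x + ⟪z - x, b⟫_ℝ ≤ φ z) (i : Fin d) {δ : ℝ}
    (h0 : 0 ≤ δ) (h1 : δ ≤ 1) :
    δ * |(a - b) i| ≤ (φ x + conj R φ a - ⟪x, a⟫_ℝ) +
      (φ (x + EuclideanSpace.single i δ) - 2 * φ x + φ (x - EuclideanSpace.single i δ)) := by
  set h : E d := EuclideanSpace.single i δ with hh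
  have hn : ‖h‖ ≤ 1 := by rw [hh]; simp [abs_of_nonneg h0, h1]
  have e1 := le_conj (R := R) hφ a (x + h) ((norm_add_le _ _).trans (by linarith))
  have e2 := le_conj (R := R) hφ a (x - h) ((norm_sub_le _ _).trans (by linarith))
  have b1 := hb (x + h)
  have b2 := hb (x - h)
  have s1 : x + h - x = h := by abel
  have s2 : x - h - x = -h := by abel
  rw [s1] at b1
  rw [s2, inner_neg_left] at b2
  rw [inner_add_left] at e1
  rw [inner_sub_left] at e2
  have hab : ⟪h, a - b⟫_ℝ = δ * (a - b) i := by rw [hh, inner_single_eq]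
  rw [inner_sub_right] at hab
  have habs : δ * |(a - b) i| = |δ * (a - b) i| := by rw [abs_mul, abs_of_nonneg h0]
  rw [habs, ← hab, abs_le]
  constructor <;> linarith

theorem translate_subset {K : Set (E d)} (hKc : Convex ℝ K) {c : E d} {r : ℝ} (hr : 0 < r)
    (hball : Metric.closedBall c r ⊆ K) (h : E d) :
    (fun x => x + h) '' K ⊆ AffineMap.homothety c (1 + ‖h‖ / r) '' K := by
  rintro _ ⟨x, hx, rfl⟩
  by_cases h0 : h = 0
  · subst h0
    refine ⟨x, hx, ?_⟩
    simp
  have hn : 0 < ‖h‖ := norm_pos_iff.2 h0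
  set t : ℝ := ‖h‖ / r with ht
  have htpos : 0 < t := div_pos hn hr
  set u : E d := c + (r / ‖h‖) • h with hu
  have huK : u ∈ K := by
    apply hball
    rw [mem_closedBall_iff_norm, hu, add_sub_cancel_left, norm_smul, Real.norm_eq_abs,
      abs_of_pos (div_pos hr hn)]
    field_simp
    exact le_refl _
  refine ⟨(1 / (1 + t)) • x + (t / (1 + t)) • u, ?_, ?_⟩
  · apply hKc hx huK (by positivity) (by positivity)
    field_simp
  · simp only [AffineMap.homothety_apply, vsub_eq_sub, vadd_eq_add]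
    have h1 : (1 + t) ≠ 0 := by positivity
    have e1 : t * (r / ‖h‖) = 1 := by rw [ht]; field_simp
    rw [smul_sub, smul_add, smul_smul, smul_smul, mul_div_cancel₀ _ h1, mul_div_cancel₀ _ h1, hu,
      smul_add, smul_smul, e1, add_smul]
    simp only [one_smul]
    abel

theorem volume_translate_diff {K : Set (E d)} (hK : IsCompact K) (hKc : Convex ℝ K)
    (hKi : (interior K).Nonempty) :
    ∃ C : ℝ, 0 ≤ C ∧ ∀ h : E d, ‖h‖ ≤ 1 →
      volume (((fun x => x + h) '' K) \ K) ≤ ENNReal.ofReal (C * ‖h‖) := by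
  obtain ⟨c, hc⟩ := hKi
  obtain ⟨r, hr, hball⟩ := Metric.isOpen_iff.1 isOpen_interior c hc
  have hball' : Metric.closedBall c (r / 2) ⊆ K :=
    (Metric.closedBall_subset_ball (by linarith)).trans (hball.trans interior_subset)
  have hr2 : 0 < r / 2 := by linarith
  obtain ⟨C, hC0, hC⟩ : ∃ C : ℝ, 0 ≤ C ∧ ∀ t : ℝ, 0 ≤ t → t ≤ 1 / (r / 2) →
      (1 + t) ^ d - 1 ≤ C * t := by
    refine ⟨d * (1 + 1 / (r / 2)) ^ (d - 1), by positivity, fun t h0 h1 => ?_⟩
    have h2 : (1 + t) ^ d - 1 ^ d = t * ∑ i ∈ Finset.range d, (1 + t) ^ i * 1 ^ (d - 1 - i) := by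
      have := (Commute.all (1 + t) 1).mul_geom_sum₂ d
      rw [← this]; ring
    rw [one_pow] at h2
    rw [h2, mul_comm]
    apply mul_le_mul_of_nonneg_right _ h0
    calc ∑ i ∈ Finset.range d, (1 + t) ^ i * 1 ^ (d - 1 - i)
        ≤ ∑ i ∈ Finset.range d, (1 + 1 / (r / 2)) ^ (d - 1) := by
          apply Finset.sum_le_sum
          intro i hi
          rw [one_pow, mul_one]
          calc (1 + t) ^ i ≤ (1 + 1 / (r / 2)) ^ i := by gcongr
            _ ≤ (1 + 1 / (r / 2)) ^ (d - 1) := by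
              apply pow_le_pow_right₀
              · have : 0 < 1 / (r / 2) := by positivity
                linarith
              · have := Finset.mem_range.1 hi
                omega
      _ = d * (1 + 1 / (r / 2)) ^ (d - 1) := by simp
  have hvK : volume K ≠ ∞ := hK.measure_lt_top.ne
  refine ⟨C * (1 / (r / 2)) * (volume K).toReal, by positivity, fun h hh => ?_⟩
  set t : ℝ := ‖h‖ / (r / 2) with ht
  have ht0 : 0 ≤ t := by positivity
  have ht1 : t ≤ 1 / (r / 2) := by rw [ht]; gcongr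
  have hsub := translate_subset hKc hr2 hball' h
  have hKsub : K ⊆ AffineMap.homothety c (1 + t) '' K := by
    intro x hx
    refine ⟨(1 / (1 + t)) • x + (t / (1 + t)) • c, ?_, ?_⟩
    · apply hKc hx (interior_subset hc) (by positivity) (by positivity)
      field_simp
    · simp only [AffineMap.homothety_apply, vsub_eq_sub, vadd_eq_add]
      have h1 : (1 + t) ≠ 0 := by positivity
      rw [smul_sub, smul_add, smul_smul, smul_smul, mul_div_cancel₀ _ h1, mul_div_cancel₀ _ h1,
        add_smul]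
      simp only [one_smul]
      abel
  have hvol : volume (AffineMap.homothety c (1 + t) '' K) =
      ENNReal.ofReal ((1 + t) ^ d) * volume K := by
    rw [Measure.addHaar_image_homothety]
    simp only [finrank_euclideanSpace, Fintype.card_fin]
    rw [abs_of_nonneg (by positivity)]
  calc volume (((fun x => x + h) '' K) \ K)
      ≤ volume ((AffineMap.homothety c (1 + t) '' K) \ K) := by
        apply measure_mono
        exact Set.sdiff_subset_sdiff_left hsub
    _ = volume (AffineMap.homothety c (1 + t) '' K) - volume K :=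
        measure_sdiff hKsub hK.measurableSet.nullMeasurableSet hvK
    _ = ENNReal.ofReal ((1 + t) ^ d - 1) * volume K := by
        rw [hvol, ENNReal.ofReal_sub _ zero_le_one, ENNReal.sub_mul]
        · simp
        · intro _ _; exact hvK
    _ ≤ ENNReal.ofReal (C * t) * volume K := by
        gcongr
        exact hC t ht0 ht1
    _ = ENNReal.ofReal (C * (1 / (r / 2)) * (volume K).toReal * ‖h‖) := by
        rw [← ENNReal.ofReal_toReal hvK, ← ENNReal.ofReal_mul (by positivity),
          ENNReal.toReal_ofReal ENNReal.toReal_nonneg]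
        congr 1
        rw [ht]
        field_simp

theorem volume_shift_diff (K : Set (E d)) (h : E d) :
    volume (K \ ((fun x => x + h) ⁻¹' K)) = volume (((fun x => x + h) '' K) \ K) := by
  have : K \ ((fun x => x + h) ⁻¹' K) = (fun x => x + h) ⁻¹' (((fun x => x + h) '' K) \ K) := by
    ext y
    constructor
    · rintro ⟨hy, hy'⟩
      exact ⟨⟨y, hy, rfl⟩, hy'⟩
    · rintro ⟨⟨x, hx, hxy⟩, hy⟩
      have : x = y := add_right_cancel hxy
      subst this
      exact ⟨hx, hy⟩
  rw [this]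
  exact measure_preimage_add_right volume h _

theorem volume_shift_diff' (K : Set (E d)) (h : E d) :
    volume (((fun x => x + h) ⁻¹' K) \ K) = volume (((fun x => x + -h) '' K) \ K) := by
  congr 2
  ext y
  constructor
  · intro hy
    exact ⟨y + h, hy, by simp⟩
  · rintro ⟨x, hx, rfl⟩
    simpa using hx

theorem integral_second_diff {K : Set (E d)} (hK : IsCompact K) {C : ℝ}
    (hC0 : 0 ≤ C)
    (hC : ∀ h : E d, ‖h‖ ≤ 1 →
      volume (((fun x => x + h) '' K) \ K) ≤ ENNReal.ofReal (C * ‖h‖))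
    {M : ℝ≥0} {φ : E d → ℝ} (hφ : LipschitzWith M φ) {h : E d} (hh : ‖h‖ ≤ 1) :
    ∫ x in K, (φ (x + h) - 2 * φ x + φ (x - h)) ≤ 2 * M * C * ‖h‖ ^ 2 := by
  set Ψ : E d → ℝ := fun x => φ (x + h) - φ x with hΨ
  have hφc : Continuous φ := hφ.continuous
  have hΨc : Continuous Ψ := by rw [hΨ]; fun_prop
  have hΨb : ∀ x, |Ψ x| ≤ M * ‖h‖ := by
    intro x
    have := hφ.dist_le_mul (x + h) x
    rw [Real.dist_eq, dist_eq_norm, add_sub_cancel_left] at this
    exact this
  set K' : Set (E d) := (fun x => x + h) ⁻¹' K with hK'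
  have hKm : MeasurableSet K := hK.measurableSet
  have hK'm : MeasurableSet K' := hKm.preimage (by fun_prop)
  have hK'c : IsCompact K' := by
    rw [hK']
    exact (Homeomorph.addRight h).isCompact_preimage.2 hK
  have i1 : IntegrableOn Ψ K := hΨc.continuousOn.integrableOn_compact hK
  have i2 : IntegrableOn Ψ K' := hΨc.continuousOn.integrableOn_compact hK'c
  have i3 : IntegrableOn (fun x => Ψ (x - h)) K := by
    apply Continuous.continuousOn (by fun_prop) |>.integrableOn_compact hK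
  have e1 : ∫ x in K, (φ (x + h) - 2 * φ x + φ (x - h)) = (∫ x in K, Ψ x) - ∫ x in K, Ψ (x - h) := by
    rw [← integral_sub i1 i3]
    apply integral_congr_ae
    refine Filter.Eventually.of_forall fun x => ?_
    simp only [hΨ, sub_add_cancel]
    ring
  have e2 : ∫ x in K, Ψ (x - h) = ∫ x in K', Ψ x := by
    have := (measurePreserving_add_right volume h).setIntegral_preimage_emb
      (MeasurableEquiv.addRight h).measurableEmbedding (fun y => Ψ (y - h)) K
    simp only [add_sub_cancel_right] at this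
    exact this.symm
  have e3 : (∫ x in K, Ψ x) - ∫ x in K', Ψ x = (∫ x in K \ K', Ψ x) - ∫ x in K' \ K, Ψ x := by
    have a1 := integral_inter_add_sdiff hK'm i1
    have a2 := integral_inter_add_sdiff hKm i2
    rw [Set.inter_comm] at a2
    linarith
  have hd1 : volume (K \ K') ≤ ENNReal.ofReal (C * ‖h‖) := by
    rw [hK', volume_shift_diff]; exact hC h hh
  have hd2 : volume (K' \ K) ≤ ENNReal.ofReal (C * ‖h‖) := by
    rw [hK', volume_shift_diff']
    have := hC (-h) (by rwa [norm_neg])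
    rwa [norm_neg] at this
  have b1 : |∫ x in K \ K', Ψ x| ≤ (M * ‖h‖) * (C * ‖h‖) := by
    have hlt : volume (K \ K') < ∞ := hd1.trans_lt ENNReal.ofReal_lt_top
    have := norm_setIntegral_le_of_norm_le_const (μ := volume) (f := Ψ) (C := M * ‖h‖) hlt
      (fun x _ => hΨb x)
    rw [Real.norm_eq_abs] at this
    refine this.trans ?_
    apply mul_le_mul_of_nonneg_left _ (by positivity)
    exact ENNReal.toReal_le_of_le_ofReal (by positivity) hd1
  have b2 : |∫ x in K' \ K, Ψ x| ≤ (M * ‖h‖) * (C * ‖h‖) := by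
    have hlt : volume (K' \ K) < ∞ := hd2.trans_lt ENNReal.ofReal_lt_top
    have := norm_setIntegral_le_of_norm_le_const (μ := volume) (f := Ψ) (C := M * ‖h‖) hlt
      (fun x _ => hΨb x)
    rw [Real.norm_eq_abs] at this
    refine this.trans ?_
    apply mul_le_mul_of_nonneg_left _ (by positivity)
    exact ENNReal.toReal_le_of_le_ofReal (by positivity) hd2
  rw [e1, e2, e3]
  have c1 := (abs_le.1 b1).2
  have c2 := (abs_le.1 b2).1
  calc _ ≤ (M * ‖h‖) * (C * ‖h‖) + (M * ‖h‖) * (C * ‖h‖) := by linarith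
    _ = _ := by ring

end general

end Vale.Agent.P074
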