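import Vale.Agent.P074.Layer

/-!
# The test function `g = c (w(x+h) - w(x)) / ‖h‖` on `K ∩ (K - h)`
-/

open MeasureTheory Set Metric
open scoped ENNReal NNReal InnerProductSpace

namespace Vale.Agent.P074

variable {d : ℕ}

/-- the test function -/
noncomputable def tst (K : Set (E d)) (κ : ℝ) (φ0 φ1 : E d → ℝ) (h x : E d) : ℝ :=
  ind K h x * (κ * ((φ1 (x + h) - φ1 x) - (φ0 (x + h) - φ0 x)))

section

variable {K : Set (E d)} {κ : ℝ} {φ0 φ1 : E d → ℝ} {h : E d}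

theorem measurable_tst (hK : MeasurableSet K) (h0 : Continuous φ0) (h1 : Continuous φ1) :
    Measurable (tst K κ φ0 φ1 h) := by
  have hc : Continuous fun x => κ * ((φ1 (x + h) - φ1 x) - (φ0 (x + h) - φ0 x)) := by fun_prop
  exact (measurable_ind hK h).mul hc.measurable

theorem tst_of_not {x : E d} (hx : ¬ (x ∈ K ∧ x + h ∈ K)) : tst K κ φ0 φ1 h x = 0 := by
  rw [tst, ind_of_not hx, zero_mul]

theorem abs_diff_le {M : ℝ≥0} {φ : E d → ℝ} (hφ : LipschitzWith M φ) (x h : E d) :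
    |φ (x + h) - φ x| ≤ M * ‖h‖ := by
  have := hφ.dist_le_mul (x + h) x
  rwa [Real.dist_eq, dist_eq_norm, add_sub_cancel_left] at this

theorem abs_tst_le {M : ℝ≥0} (h0 : LipschitzWith M φ0) (h1 : LipschitzWith M φ1) (hκ : 0 ≤ κ)
    (hκ1 : κ * (2 * M * ‖h‖) ≤ 1 / 8) (x : E d) : |tst K κ φ0 φ1 h x| ≤ 1 / 8 := by
  rw [tst, abs_mul, abs_of_nonneg (ind_nonneg K h x), abs_mul, abs_of_nonneg hκ]
  have a1 := abs_diff_le h1 x h
  have a0 := abs_diff_le h0 x h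
  have a2 : |(φ1 (x + h) - φ1 x) - (φ0 (x + h) - φ0 x)| ≤ 2 * M * ‖h‖ :=
    (abs_sub _ _).trans (by linarith)
  calc ind K h x * (κ * |(φ1 (x + h) - φ1 x) - (φ0 (x + h) - φ0 x)|)
      ≤ 1 * (κ * (2 * M * ‖h‖)) := by
        apply mul_le_mul (ind_le_one K h x) (mul_le_mul_of_nonneg_left a2 hκ) (by positivity)
          zero_le_one
    _ ≤ 1 / 8 := by linarith

/-- second difference -/
noncomputable def sdiff2 (φ : E d → ℝ) (h x : E d) : ℝ := φ (x + h) - 2 * φ x + φ (x - h)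

theorem abs_f_le {M : ℝ≥0} (h0 : LipschitzWith M φ0) (h1 : LipschitzWith M φ1) (hκ : 0 ≤ κ)
    (hκ1 : κ * (2 * M * ‖h‖) ≤ 1 / 8) {x : E d} (hx : x ∈ K) (s0 : 0 ≤ sdiff2 φ0 h x)
    (s1 : 0 ≤ sdiff2 φ1 h x) :
    |tst K κ φ0 φ1 h (x - h) - tst K κ φ0 φ1 h x| ≤
      κ * (sdiff2 φ1 h x + sdiff2 φ0 h x) + 1 / 4 * lay K h x := by
  have hl := lay_nonneg K h x
  by_cases hc : x + h ∈ K ∧ x - h ∈ K
  · have e1 : tst K κ φ0 φ1 h (x - h) = κ * ((φ1 x - φ1 (x - h)) - (φ0 x - φ0 (x - h))) := by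
      rw [tst, ind_of hc.2 (by simpa using hx), one_mul, sub_add_cancel]
    have e2 : tst K κ φ0 φ1 h x = κ * ((φ1 (x + h) - φ1 x) - (φ0 (x + h) - φ0 x)) := by
      rw [tst, ind_of hx hc.1, one_mul]
    have e3 : tst K κ φ0 φ1 h (x - h) - tst K κ φ0 φ1 h x =
        κ * (sdiff2 φ0 h x - sdiff2 φ1 h x) := by
      rw [e1, e2]; unfold sdiff2; ring
    rw [e3, abs_mul, abs_of_nonneg hκ]
    have : |sdiff2 φ0 h x - sdiff2 φ1 h x| ≤ sdiff2 φ1 h x + sdiff2 φ0 h x := by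
      rw [abs_le]; constructor <;> linarith
    have := mul_le_mul_of_nonneg_left this hκ
    linarith
  · have h2 := one_le_lay hc
    have a1 := abs_tst_le (K := K) h0 h1 hκ hκ1 x
    have a2 := abs_tst_le (K := K) h0 h1 hκ hκ1 (x - h)
    have a3 : |tst K κ φ0 φ1 h (x - h) - tst K κ φ0 φ1 h x| ≤ 1 / 4 :=
      (abs_sub _ _).trans (by linarith)
    have a4 : 0 ≤ κ * (sdiff2 φ1 h x + sdiff2 φ0 h x) := by positivity
    linarith

end

/-- the subgradient inequality holds at a.e. point of `K` -/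
theorem ae_sub {K : Set (E d)} (hK : IsCompact K) {M : ℝ≥0}
    {T : E d → E d} {φ : E d → ℝ} (hT : HasPotential K M T φ) :
    ∀ᵐ x, x ∈ K → ∀ z, φ x + ⟪z - x, T x⟫_ℝ ≤ φ z := by
  have h1 := hT.sub
  rw [uniform] at h1
  have hv0 : (volume K)⁻¹ ≠ 0 := ENNReal.inv_ne_zero.2 hK.measure_lt_top.ne
  rw [Measure.ae_ennreal_smul_measure_iff hv0] at h1
  rwa [ae_restrict_iff' hK.measurableSet] at h1

theorem ae_sub_shift {K : Set (E d)} (hK : IsCompact K) {M : ℝ≥0}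
    {T : E d → E d} {φ : E d → ℝ} (hT : HasPotential K M T φ) (h : E d) :
    ∀ᵐ x, x + h ∈ K → ∀ z, φ (x + h) + ⟪z - (x + h), T (x + h)⟫_ℝ ≤ φ z :=
  (measurePreserving_add_right volume h).quasiMeasurePreserving.ae (ae_sub hK hT)

end Vale.Agent.P074
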