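import Vale.Agent.P074.BMeas

/-!
# The test plan: moving the mass `gp` by `h` and the mass `gm` by `-h`
-/

open MeasureTheory Set Metric
open scoped ENNReal NNReal InnerProductSpace

namespace Vale.Agent.P074

variable {d : ℕ}

theorem BM.inner_id {K : Set (E d)} (hK : IsCompact K) {M : ℝ} {T : E d → E d}
    (hT : Measurable T) (hTM : ∀ x, ‖T x‖ ≤ M) : BM K (fun x => ⟪x, T x⟫_ℝ) := by
  obtain ⟨B, hB⟩ := hK.exists_bound_of_continuousOn (continuousOn_id (α := E d))
  refine ⟨measurable_id.inner hT, B * M, fun x hx => ?_⟩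
  have h1 : ‖x‖ ≤ B := hB x hx
  calc |⟪x, T x⟫_ℝ| ≤ ‖x‖ * ‖T x‖ := abs_real_inner_le_norm _ _
    _ ≤ B * M := mul_le_mul h1 (hTM x) (norm_nonneg _) ((norm_nonneg _).trans h1)

theorem BM.inner_const {K : Set (E d)} {M : ℝ} {T : E d → E d} (h : E d)
    (hT : Measurable T) (hTM : ∀ x, ‖T x‖ ≤ M) : BM K (fun x => ⟪h, T x⟫_ℝ) := by
  refine ⟨measurable_const.inner hT, ‖h‖ * M, fun x _ => ?_⟩
  calc |⟪h, T x⟫_ℝ| ≤ ‖h‖ * ‖T x‖ := abs_real_inner_le_norm _ _
    _ ≤ ‖h‖ * M := mul_le_mul_of_nonneg_left (hTM x) (norm_nonneg _)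

theorem BM.comp_T {K : Set (E d)} {M : ℝ} {T : E d → E d}
    (hT : Measurable T) (hTM : ∀ x, ‖T x‖ ≤ M) {ψ : E d → ℝ} (hψ : Continuous ψ) :
    BM K (fun x => ψ (T x)) := by
  obtain ⟨B, hB⟩ := (isCompact_closedBall (0 : E d) M).exists_bound_of_continuousOn hψ.continuousOn
  exact ⟨hψ.measurable.comp hT, B, fun x _ => hB _ (by simpa using hTM x)⟩

theorem test_plan {K : Set (E d)} (hK : IsCompact K) {M : ℝ} {T : E d → E d}
    (hT : Measurable T) (hTM : ∀ x, ‖T x‖ ≤ M) {φ ψ : E d → ℝ} (hφ : Continuous φ)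
    (hψ : Continuous ψ) (feas : ∀ x ∈ K, ∀ z, ⟪x, z⟫_ℝ ≤ φ x + ψ z) {h : E d}
    {gp gm : E d → ℝ} (mp : Measurable gp) (mm : Measurable gm)
    (p0 : ∀ x, 0 ≤ gp x) (p1 : ∀ x, gp x ≤ 1 / 2) (m0 : ∀ x, 0 ≤ gm x) (m1 : ∀ x, gm x ≤ 1 / 2)
    (sp : ∀ x, ¬ (x ∈ K ∧ x + h ∈ K) → gp x = 0) (sm : ∀ x, ¬ (x ∈ K ∧ x + h ∈ K) → gm x = 0) :
    (∫ x in K, ⟪x, T x⟫_ℝ) + (∫ x in K, gp x * ⟪h, T x⟫_ℝ)
        - (∫ x in K, gm x * ⟪h, T (x + h)⟫_ℝ) ≤
      (∫ x in K, φ x * (1 + ((gp (x - h) - gm (x - h)) - (gp x - gm x))))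
        + (∫ x in K, ψ (T x)) := by
  have hTh : Measurable (fun x => T (x + h)) := hT.comp (measurable_id.add_const h)
  have hThM : ∀ x, ‖T (x + h)‖ ≤ M := fun x => hTM _
  have hφh : Continuous (fun x => φ (x + h)) := by fun_prop
  have bφ : BM K φ := BM.of_continuous hK hφ
  have bφh : BM K (fun x => φ (x + h)) := BM.of_continuous hK hφh
  have bψ : BM K (fun x => ψ (T x)) := BM.comp_T hT hTM hψ
  have bi : BM K (fun x => ⟪x, T x⟫_ℝ) := BM.inner_id hK hT hTM
  have bh : BM K (fun x => ⟪h, T x⟫_ℝ) := BM.inner_const h hT hTM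
  have bhh : BM K (fun x => ⟪h, T (x + h)⟫_ℝ) := BM.inner_const h hTh hThM
  have bp : BM K gp := BM.of_le mp (B := 1 / 2) fun x => by rw [abs_of_nonneg (p0 x)]; exact p1 x
  have bm : BM K gm := BM.of_le mm (B := 1 / 2) fun x => by rw [abs_of_nonneg (m0 x)]; exact m1 x
  have mph : Measurable (fun x => gp (x - h)) := mp.comp (measurable_id.sub_const h)
  have mmh : Measurable (fun x => gm (x - h)) := mm.comp (measurable_id.sub_const h)
  have bph : BM K (fun x => gp (x - h)) :=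
    BM.of_le mph (B := 1 / 2) fun x => by rw [abs_of_nonneg (p0 _)]; exact p1 _
  have bmh : BM K (fun x => gm (x - h)) :=
    BM.of_le mmh (B := 1 / 2) fun x => by rw [abs_of_nonneg (m0 _)]; exact m1 _
  set u : E d → ℝ := fun x => φ x + ψ (T x) - ⟪x, T x⟫_ℝ with hu
  have bu : BM K u := (bφ.add bψ).sub bi
  have hu0 : ∀ x ∈ K, 0 ≤ u x := fun x hx => by
    have := feas x hx (T x)
    simp only [hu]; linarith
  -- the shifted integral of `u`
  have e1 : ∫ x in K, u x * gm (x - h) = ∫ x in K, u (x + h) * gm x := shift_integral sm u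
  have e2 : ∫ x in K, φ x * gp (x - h) = ∫ x in K, φ (x + h) * gp x := shift_integral sp φ
  have e3 : ∫ x in K, φ x * gm (x - h) = ∫ x in K, φ (x + h) * gm x := shift_integral sm φ
  have e4 : ∫ x in K, φ x * (1 + ((gp (x - h) - gm (x - h)) - (gp x - gm x))) =
      (∫ x in K, φ x) + ((∫ x in K, φ x * gp (x - h)) - (∫ x in K, φ x * gm (x - h)))
        - ((∫ x in K, φ x * gp x) - (∫ x in K, φ x * gm x)) := by
    rw [← integral_sub ((bφ.mul bph).integrableOn hK) ((bφ.mul bmh).integrableOn hK),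
      ← integral_sub ((bφ.mul bp).integrableOn hK) ((bφ.mul bm).integrableOn hK),
      ← integral_add (bφ.integrableOn hK)
        (((bφ.mul bph).sub (bφ.mul bmh)).integrableOn hK),
      ← integral_sub ((bφ.add ((bφ.mul bph).sub (bφ.mul bmh))).integrableOn hK)
        (((bφ.mul bp).sub (bφ.mul bm)).integrableOn hK)]
    congr 1
    ext x
    ring
  have buh : BM K (fun x => u (x + h) * gm x) := by
    obtain ⟨h1, B, hB⟩ := bu
    refine ⟨(h1.comp (measurable_id.add_const h)).mul mm, B * (1 / 2), fun x hx => ?_⟩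
    change |u (x + h) * gm x| ≤ B * (1 / 2)
    by_cases hx' : x + h ∈ K
    · rw [abs_mul, abs_of_nonneg (m0 x)]
      exact mul_le_mul (hB _ hx') (m1 x) (m0 x) ((abs_nonneg _).trans (hB _ hx'))
    · rw [sm x (fun h' => hx' h'.2), mul_zero, abs_zero]
      have := (abs_nonneg _).trans (hB x hx)
      positivity
  -- pointwise inequality
  have key : ∫ x in K, (gp x * ⟪h, T x⟫_ℝ - gm x * ⟪h, T (x + h)⟫_ℝ + ⟪x, T x⟫_ℝ) ≤
      ∫ x in K, (φ x + ψ (T x) + φ (x + h) * gp x - φ (x + h) * gm x - (φ x * gp x - φ x * gm x)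
        - (u x * (1 - gp x) - u (x + h) * gm x)) := by
    refine setIntegral_mono_on ?_ ?_ hK.measurableSet ?_
    · exact (((bp.mul bh).sub (bm.mul bhh)).add bi).integrableOn hK
    · exact (((((bφ.add bψ).add (bφh.mul bp)).sub (bφh.mul bm)).sub
        ((bφ.mul bp).sub (bφ.mul bm))).sub ((bu.mul ((BM.const 1).sub bp)).sub buh)).integrableOn hK
    · intro x hx
      by_cases hx' : x + h ∈ K
      · have f1 := feas (x + h) hx' (T x)
        have f2 := feas x hx (T (x + h))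
        rw [inner_add_left] at f1
        have g1 : 0 ≤ gp x * (φ (x + h) + ψ (T x) - (⟪x, T x⟫_ℝ + ⟪h, T x⟫_ℝ)) :=
          mul_nonneg (p0 x) (by linarith)
        have g2 : 0 ≤ gm x * (φ x + ψ (T (x + h)) - ⟪x, T (x + h)⟫_ℝ) :=
          mul_nonneg (m0 x) (by linarith)
        simp only [hu, inner_add_left]
        nlinarith [g1, g2]
      · have z1 := sp x (fun h' => hx' h'.2)
        have z2 := sm x (fun h' => hx' h'.2)
        rw [z1, z2]
        simp only [hu]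
        linarith
  have k1 : ∫ x in K, (gp x * ⟪h, T x⟫_ℝ - gm x * ⟪h, T (x + h)⟫_ℝ + ⟪x, T x⟫_ℝ) =
      (∫ x in K, gp x * ⟪h, T x⟫_ℝ) - (∫ x in K, gm x * ⟪h, T (x + h)⟫_ℝ)
        + (∫ x in K, ⟪x, T x⟫_ℝ) := by
    rw [integral_add (((bp.mul bh).sub (bm.mul bhh)).integrableOn hK) (bi.integrableOn hK),
      integral_sub ((bp.mul bh).integrableOn hK) ((bm.mul bhh).integrableOn hK)]
  have k2 : ∫ x in K, (φ x + ψ (T x) + φ (x + h) * gp x - φ (x + h) * gm x
        - (φ x * gp x - φ x * gm x) - (u x * (1 - gp x) - u (x + h) * gm x)) =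
      (∫ x in K, φ x) + (∫ x in K, ψ (T x)) + (∫ x in K, φ (x + h) * gp x)
        - (∫ x in K, φ (x + h) * gm x) - ((∫ x in K, φ x * gp x) - (∫ x in K, φ x * gm x))
        - ((∫ x in K, u x * (1 - gp x)) - (∫ x in K, u (x + h) * gm x)) := by
    have c1 := bφ.add bψ
    have c2 := c1.add (bφh.mul bp)
    have c3 := c2.sub (bφh.mul bm)
    have c4 := (bφ.mul bp).sub (bφ.mul bm)
    have c5 := c3.sub c4
    have c6 := (bu.mul ((BM.const 1).sub bp)).sub buh
    rw [integral_sub (c5.integrableOn hK) (c6.integrableOn hK),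
      integral_sub ((bu.mul ((BM.const 1).sub bp)).integrableOn hK) (buh.integrableOn hK),
      integral_sub (c3.integrableOn hK) (c4.integrableOn hK),
      integral_sub ((bφ.mul bp).integrableOn hK) ((bφ.mul bm).integrableOn hK),
      integral_sub (c2.integrableOn hK) ((bφh.mul bm).integrableOn hK),
      integral_add (c1.integrableOn hK) ((bφh.mul bp).integrableOn hK),
      integral_add (bφ.integrableOn hK) (bψ.integrableOn hK)]
  have k3 : 0 ≤ (∫ x in K, u x * (1 - gp x)) - (∫ x in K, u (x + h) * gm x) := by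
    rw [← e1, ← integral_sub ((bu.mul ((BM.const 1).sub bp)).integrableOn hK)
      ((bu.mul bmh).integrableOn hK)]
    refine setIntegral_nonneg hK.measurableSet fun x hx => ?_
    have h1 := hu0 x hx
    have h2 := p1 x
    have h3 := m1 (x - h)
    nlinarith
  rw [k1, k2] at key
  rw [e4, e2, e3]
  linarith

end Vale.Agent.P074
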