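import Vale.Agent.P074.SDefs

open MeasureTheory Set Metric Filter
open scoped ENNReal NNReal InnerProductSpace Topology

namespace Vale.Agent.P074

variable {d n : ℕ}

section weights

noncomputable def hmax [NeZero n] (y : Fin n → E d) (w : Fin n → ℝ) (x : E d) : ℝ :=
  Finset.univ.sup' Finset.univ_nonempty (fun i => ⟪x, y i⟫_ℝ - w i)

variable [NeZero n] {y : Fin n → E d}

theorem le_hmax (w : Fin n → ℝ) (x : E d) (i : Fin n) : ⟪x, y i⟫_ℝ - w i ≤ hmax y w x :=
  Finset.le_sup' (fun i => ⟪x, y i⟫_ℝ - w i) (Finset.mem_univ i)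

theorem hmax_le {w : Fin n → ℝ} {x : E d} {c : ℝ} (h : ∀ i, ⟪x, y i⟫_ℝ - w i ≤ c) :
    hmax y w x ≤ c := Finset.sup'_le _ _ fun i _ => h i

theorem continuous_hmax (w : Fin n → ℝ) : Continuous (hmax y w) := by
  unfold hmax
  exact Continuous.finset_sup'_apply _ fun i _ => by fun_prop

theorem hmax_lip (w w' : Fin n → ℝ) (x : E d) : hmax y w x ≤ hmax y w' x + dist w w' := by
  refine hmax_le fun i => ?_
  have h1 := le_hmax (y := y) w' x i
  have h2 : w' i - w i ≤ dist w w' := by
    have := dist_le_pi_dist w w' i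
    rw [Real.dist_eq] at this
    have h3 := neg_abs_le (w i - w' i)
    linarith
  linarith

theorem hmax_shift (w : Fin n → ℝ) (c : ℝ) (x : E d) :
    hmax y (fun i => w i + c) x = hmax y w x - c := by
  apply le_antisymm
  · refine hmax_le fun i => ?_
    have := le_hmax (y := y) w x i
    linarith
  · have : hmax y w x ≤ hmax y (fun i => w i + c) x + c := by
      refine hmax_le fun i => ?_
      have := le_hmax (y := y) (fun i => w i + c) x i
      linarith
    linarith

noncomputable def PhiW (K : Set (E d)) (f : E d → ℝ) (m : Fin n → ℝ) (y : Fin n → E d)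
    (w : Fin n → ℝ) : ℝ := (∫ x in K, hmax y w x * (1 + f x)) + ∑ i, m i * w i

end weights

theorem integrableOn_one_add_w {K : Set (E d)} (hK : IsCompact K) {f : E d → ℝ}
    (hf : Measurable f) (hf1 : ∀ x, |f x| ≤ 1 / 2) : IntegrableOn (fun x => 1 + f x) K := by
  have hfin : volume K ≠ ⊤ := hK.measure_lt_top.ne
  refine Integrable.mono' (g := fun _ => (3 / 2 : ℝ)) (integrableOn_const hfin)
    (by fun_prop) ?_
  refine ae_of_all _ fun x => ?_
  rw [Real.norm_eq_abs]
  have := abs_le.mp (hf1 x)
  rw [abs_le]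
  constructor <;> linarith [this.1, this.2]

theorem integrableOn_mul_one_add {K : Set (E d)} (hK : IsCompact K) {f : E d → ℝ}
    (hf : Measurable f) (hf1 : ∀ x, |f x| ≤ 1 / 2) {g : E d → ℝ} (hg : Continuous g) :
    IntegrableOn (fun x => g x * (1 + f x)) K := by
  obtain ⟨C, hC⟩ := hK.exists_bound_of_continuousOn hg.continuousOn
  have h1 := integrableOn_one_add_w hK hf hf1
  refine Integrable.mono' (g := fun x => C * (1 + f x)) (h1.const_mul C) (by fun_prop) ?_
  rw [ae_restrict_iff' hK.measurableSet]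
  refine ae_of_all _ fun x hx => ?_
  have h0 : 0 ≤ 1 + f x := by linarith [(abs_le.mp (hf1 x)).1]
  rw [norm_mul, Real.norm_eq_abs (1 + f x), abs_of_nonneg h0]
  exact mul_le_mul_of_nonneg_right (hC x hx) h0

theorem exists_weights (hn : 0 < n) {K : Set (E d)} (hK : IsCompact K) {f : E d → ℝ}
    (hf : Measurable f) (hf1 : ∀ x, |f x| ≤ 1 / 2) {y : Fin n → E d}
    (hy : Function.Injective y) {m : Fin n → ℝ} (hm : ∀ i, 0 < m i)
    (hsum : ∑ i, m i = ∫ x in K, (1 + f x)) : ∃ w : Fin n → ℝ, Fits K f m y w := by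
  have : NeZero n := ⟨hn.ne'⟩
  have hF0 : ∀ x, 0 ≤ 1 + f x := fun x => by linarith [(abs_le.mp (hf1 x)).1]
  have hFi := integrableOn_one_add_w hK hf hf1
  have hHi : ∀ w : Fin n → ℝ, IntegrableOn (fun x => hmax y w x * (1 + f x)) K := fun w =>
    integrableOn_mul_one_add hK hf hf1 (continuous_hmax w)
  have hshift : ∀ (w : Fin n → ℝ) (c : ℝ), PhiW K f m y (fun i => w i + c) = PhiW K f m y w := by
    intro w c
    unfold PhiW
    have e1 : (∫ x in K, hmax y (fun i => w i + c) x * (1 + f x)) =
        (∫ x in K, hmax y w x * (1 + f x)) - c * ∫ x in K, (1 + f x) := by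
      rw [← integral_const_mul, ← integral_sub (hHi w) (hFi.const_mul c)]
      refine integral_congr_ae (ae_of_all _ fun x => ?_)
      simp only
      rw [hmax_shift]; ring
    have e2 : ∑ i, m i * (w i + c) = (∑ i, m i * w i) + c * ∑ i, m i := by
      rw [Finset.mul_sum, ← Finset.sum_add_distrib]
      exact Finset.sum_congr rfl fun i _ => by ring
    rw [e1, e2, hsum]; ring
  have hlip : ∀ w w' : Fin n → ℝ, PhiW K f m y w ≤ PhiW K f m y w' +
      dist w w' * ((∫ x in K, (1 + f x)) + ∑ i, m i) := by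
    intro w w'
    unfold PhiW
    have e1 : (∫ x in K, hmax y w x * (1 + f x)) ≤
        (∫ x in K, hmax y w' x * (1 + f x)) + dist w w' * ∫ x in K, (1 + f x) := by
      rw [← integral_const_mul, ← integral_add (hHi w') (hFi.const_mul _)]
      refine integral_mono (hHi w) ((hHi w').add (hFi.const_mul _)) fun x => ?_
      have := mul_le_mul_of_nonneg_right (hmax_lip (y := y) w w' x) (hF0 x)
      simp only
      linarith
    have e2 : ∑ i, m i * w i ≤ (∑ i, m i * w' i) + dist w w' * ∑ i, m i := by
      rw [Finset.mul_sum, ← Finset.sum_add_distrib]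
      refine Finset.sum_le_sum fun i _ => ?_
      have h1 : w i - w' i ≤ dist w w' := by
        have := dist_le_pi_dist w w' i
        rw [Real.dist_eq] at this
        exact (le_abs_self _).trans this
      have := mul_le_mul_of_nonneg_left h1 (hm i).le
      linarith
    linarith
  have hcont : Continuous (PhiW K f m y) := by
    set L : ℝ := (∫ x in K, (1 + f x)) + ∑ i, m i with hL
    have hL0 : 0 ≤ L := by
      have h1 : 0 ≤ ∑ i, m i := Finset.sum_nonneg fun i _ => (hm i).le
      rw [hL, ← hsum]; linarith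
    have : LipschitzWith L.toNNReal (PhiW K f m y) := by
      refine LipschitzWith.of_dist_le_mul fun w w' => ?_
      rw [Real.dist_eq, abs_le, Real.coe_toNNReal _ hL0]
      have h1 := hlip w w'
      have h2 := hlip w' w
      rw [dist_comm w' w] at h2
      constructor <;> nlinarith
    exact this.continuous
  obtain ⟨C, hC0, hC⟩ : ∃ C : ℝ, 0 ≤ C ∧ ∀ x ∈ K, ∀ i, -C ≤ ⟪x, y i⟫_ℝ := by
    obtain ⟨R, hR⟩ := hK.isBounded.exists_norm_le
    refine ⟨|R| * ∑ i, ‖y i‖, by positivity, fun x hx i => ?_⟩
    have h1 := neg_le_of_abs_le (abs_real_inner_le_norm x (y i))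
    have h2 : ‖y i‖ ≤ ∑ i, ‖y i‖ :=
      Finset.single_le_sum (f := fun i => ‖y i‖) (fun i _ => norm_nonneg _) (Finset.mem_univ i)
    have h3 : ‖x‖ * ‖y i‖ ≤ |R| * ∑ i, ‖y i‖ :=
      mul_le_mul ((hR x hx).trans (le_abs_self R)) h2 (norm_nonneg _) (abs_nonneg _)
    linarith
  set A : ℝ := |PhiW K f m y 0 + C * ∫ x in K, (1 + f x)| with hA
  set B : ℝ := ∑ j, A / m j with hB
  have hB0 : 0 ≤ B := Finset.sum_nonneg fun j _ => div_nonneg (abs_nonneg _) (hm j).le
  have hBj : ∀ j, A ≤ m j * B := by
    intro j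
    have h1 : A / m j ≤ B := Finset.single_le_sum (f := fun j => A / m j)
      (fun j _ => div_nonneg (abs_nonneg _) (hm j).le) (Finset.mem_univ j)
    rw [div_le_iff₀ (hm j)] at h1
    linarith
  obtain ⟨w, hwmem, hw⟩ := (isCompact_Icc (a := (0 : Fin n → ℝ)) (b := fun _ => B)).exists_isMinOn
    ⟨0, le_refl _, fun _ => hB0⟩ hcont.continuousOn
  have hmin : ∀ w', PhiW K f m y w ≤ PhiW K f m y w' := by
    intro w'
    obtain ⟨i0, hi0⟩ := Finite.exists_min w'
    have hs := hshift w' (-(w' i0))
    rw [← hs]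
    set u : Fin n → ℝ := fun i => w' i + -(w' i0) with hu
    have hu0 : ∀ i, 0 ≤ u i := fun i => by simp only [hu]; linarith [hi0 i]
    have hui : u i0 = 0 := by simp [hu]
    by_cases hcase : ∀ i, u i ≤ B
    · exact hw ⟨fun i => hu0 i, fun i => hcase i⟩
    · push Not at hcase
      obtain ⟨j, hj⟩ := hcase
      have h1 : PhiW K f m y w ≤ PhiW K f m y 0 := hw ⟨le_refl _, fun _ => hB0⟩
      have h2 : -C * (∫ x in K, (1 + f x)) ≤ ∫ x in K, hmax y u x * (1 + f x) := by
        rw [← integral_const_mul]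
        refine setIntegral_mono_on (hFi.const_mul _) (hHi u) hK.measurableSet fun x hx => ?_
        refine mul_le_mul_of_nonneg_right ?_ (hF0 x)
        have h3 := le_hmax (y := y) u x i0
        rw [hui] at h3
        linarith [hC x hx i0]
      have h3 : m j * B ≤ ∑ i, m i * u i := by
        have h4 : m j * u j ≤ ∑ i, m i * u i := Finset.single_le_sum (f := fun i => m i * u i)
          (fun i _ => mul_nonneg (hm i).le (hu0 i)) (Finset.mem_univ j)
        have h5 := mul_le_mul_of_nonneg_left hj.le (hm j).le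
        linarith
      have h4 : PhiW K f m y 0 + C * (∫ x in K, (1 + f x)) ≤ A := le_abs_self _
      have h5 := hBj j
      have h6 : PhiW K f m y u = (∫ x in K, hmax y u x * (1 + f x)) + ∑ i, m i * u i := rfl
      rw [h6]
      linarith
  refine ⟨w, ?_⟩
  have hG : ∀ j : Fin n, ∀ h : ℝ, 0 < h →
      ∫ x in {x | x ∈ K ∧ ∀ i, i ≠ j → ⟪x, y i⟫_ℝ - w i ≤ ⟪x, y j⟫_ℝ - w j - h}, (1 + f x) ≤ m j := by
    intro j h hh
    set G : Set (E d) := {x | x ∈ K ∧ ∀ i, i ≠ j → ⟪x, y i⟫_ℝ - w i ≤ ⟪x, y j⟫_ℝ - w j - h}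
      with hGdef
    have hGm : MeasurableSet G := by
      have : G = K ∩ ⋂ i, ⋂ (_ : i ≠ j), {x | ⟪x, y i⟫_ℝ - w i ≤ ⟪x, y j⟫_ℝ - w j - h} := by
        ext x; simp [hGdef]
      rw [this]
      refine hK.measurableSet.inter (MeasurableSet.iInter fun i => MeasurableSet.iInter fun _ =>
        measurableSet_le ?_ ?_) <;> fun_prop
    have hGK : G ⊆ K := fun x hx => hx.1
    set w' : Fin n → ℝ := fun i => if i = j then w i + h else w i with hw'
    have h1 := hmin w'
    have hle : ∀ x, hmax y w' x ≤ hmax y w x := by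
      intro x
      refine hmax_le fun i => ?_
      have := le_hmax (y := y) w x i
      simp only [hw']
      split_ifs <;> linarith
    have hleG : ∀ x ∈ G, hmax y w' x ≤ hmax y w x - h := by
      intro x hx
      refine hmax_le fun i => ?_
      have h2 := le_hmax (y := y) w x j
      simp only [hw']
      by_cases hij : i = j
      · subst hij; simp only [if_true]; linarith
      · simp only [hij, if_false]
        have := hx.2 i hij
        linarith
    have h2 : (∫ x in K, hmax y w' x * (1 + f x)) ≤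
        (∫ x in K, hmax y w x * (1 + f x)) - h * ∫ x in G, (1 + f x) := by
      have e1 : (∫ x in G, (1 + f x)) = ∫ x in K, G.indicator (fun x => 1 + f x) x := by
        rw [setIntegral_indicator hGm, inter_eq_self_of_subset_right hGK]
      rw [e1, ← integral_const_mul, ← integral_sub (hHi w)
        ((hFi.indicator hGm).const_mul h)]
      refine integral_mono (hHi w') ((hHi w).sub ((hFi.indicator hGm).const_mul h)) fun x => ?_
      simp only
      by_cases hx : x ∈ G
      · rw [indicator_of_mem hx]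
        have := mul_le_mul_of_nonneg_right (hleG x hx) (hF0 x)
        linarith
      · rw [indicator_of_notMem hx]
        have := mul_le_mul_of_nonneg_right (hle x) (hF0 x)
        linarith
    have h3 : ∑ i, m i * w' i = (∑ i, m i * w i) + h * m j := by
      have : ∀ i, m i * w' i = m i * w i + (if i = j then h * m j else 0) := by
        intro i
        simp only [hw']
        split_ifs with hij
        · subst hij; ring
        · ring
      simp only [this]
      rw [Finset.sum_add_distrib]
      simp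
    have h4 : h * (∫ x in G, (1 + f x)) ≤ h * m j := by
      have e1 : PhiW K f m y w = (∫ x in K, hmax y w x * (1 + f x)) + ∑ i, m i * w i := rfl
      have e2 : PhiW K f m y w' = (∫ x in K, hmax y w' x * (1 + f x)) + ∑ i, m i * w' i := rfl
      rw [e1, e2] at h1
      linarith
    exact le_of_mul_le_mul_left h4 hh
  have hcell : ∀ j : Fin n, ∫ x in cell K y w j, (1 + f x) ≤ m j := by
    intro j
    set G : ℕ → Set (E d) := fun k => {x | x ∈ K ∧ ∀ i, i ≠ j →
      ⟪x, y i⟫_ℝ - w i ≤ ⟪x, y j⟫_ℝ - w j - 1 / ((k : ℝ) + 1)} with hGdef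
    have hGm : ∀ k, MeasurableSet (G k) := by
      intro k
      have : G k = K ∩ ⋂ i, ⋂ (_ : i ≠ j),
          {x | ⟪x, y i⟫_ℝ - w i ≤ ⟪x, y j⟫_ℝ - w j - 1 / ((k : ℝ) + 1)} := by
        ext x; simp [hGdef]
      rw [this]
      refine hK.measurableSet.inter (MeasurableSet.iInter fun i => MeasurableSet.iInter fun _ =>
        measurableSet_le ?_ ?_) <;> fun_prop
    have hmono : Monotone G := by
      intro a b hab x hx
      refine ⟨hx.1, fun i hi => ?_⟩
      have h1 := hx.2 i hi
      have h2 : 1 / ((b : ℝ) + 1) ≤ 1 / ((a : ℝ) + 1) := by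
        apply one_div_le_one_div_of_le (by positivity)
        have : (a : ℝ) ≤ b := by exact_mod_cast hab
        linarith
      linarith
    have hsubK : (⋃ k, G k) ⊆ K := iUnion_subset fun k x hx => hx.1
    have ht := tendsto_setIntegral_of_monotone hGm hmono (hFi.mono_set hsubK)
    have hae : (⋃ k, G k : Set (E d)) =ᵐ[volume] cell K y w j := by
      have hnull : volume (⋃ i, ⋃ (_ : i ≠ j), {x : E d | ⟪x, y i - y j⟫_ℝ = w i - w j}) = 0 := by
        refine measure_iUnion_null fun i => measure_iUnion_null fun hi => ?_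
        exact volume_hyperplane (sub_ne_zero.2 (hy.ne hi)) _
      have h1 : (⋃ k, G k : Set (E d)) ⊆ cell K y w j := by
        intro x hx
        obtain ⟨k, hk⟩ := mem_iUnion.1 hx
        refine ⟨hk.1, fun i => ?_⟩
        by_cases hi : i = j
        · subst hi; exact le_refl _
        · have := hk.2 i hi
          have h2 : 0 < 1 / ((k : ℝ) + 1) := by positivity
          linarith
      have h2 : cell K y w j \ (⋃ k, G k) ⊆
          ⋃ i, ⋃ (_ : i ≠ j), {x : E d | ⟪x, y i - y j⟫_ℝ = w i - w j} := by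
        rintro x ⟨hx, hxn⟩
        by_contra hcon
        simp only [mem_iUnion, mem_ofPred_eq, not_exists] at hcon
        apply hxn
        have h3 : ∀ i, i ≠ j → ⟪x, y i⟫_ℝ - w i < ⟪x, y j⟫_ℝ - w j := by
          intro i hi
          refine lt_of_le_of_ne (hx.2 i) fun he => ?_
          apply hcon i hi
          rw [inner_sub_right]; linarith
        have h4 : ∀ i, ∃ k : ℕ, i ≠ j →
            ⟪x, y i⟫_ℝ - w i ≤ ⟪x, y j⟫_ℝ - w j - 1 / ((k : ℝ) + 1) := by
          intro i
          by_cases hi : i = j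
          · exact ⟨0, fun h => absurd hi h⟩
          · obtain ⟨k, hk⟩ := exists_nat_one_div_lt (sub_pos.2 (h3 i hi))
            exact ⟨k, fun _ => by linarith⟩
        choose k hk using h4
        obtain ⟨i1, hi1⟩ := Finite.exists_max k
        refine mem_iUnion.2 ⟨k i1, hx.1, fun i hi => ?_⟩
        have h5 := hk i hi
        have h6 : 1 / ((k i1 : ℝ) + 1) ≤ 1 / ((k i : ℝ) + 1) := by
          apply one_div_le_one_div_of_le (by positivity)
          have : (k i : ℝ) ≤ k i1 := by exact_mod_cast hi1 i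
          linarith
        linarith
      rw [ae_eq_set]
      exact ⟨by rw [sdiff_eq_empty.2 h1]; simp, measure_mono_null h2 hnull⟩
    rw [← setIntegral_congr_set hae]
    exact le_of_tendsto' ht fun k => hG j _ (by positivity)
  have htot := integral_cells hn hK hy w hFi
  have hsum2 : ∑ j, (m j - ∫ x in cell K y w j, (1 + f x)) = 0 := by
    rw [Finset.sum_sub_distrib, ← htot, hsum, sub_self]
  have := (Finset.sum_eq_zero_iff_of_nonneg fun j _ => sub_nonneg.2 (hcell j)).1 hsum2
  intro j
  have := this j (Finset.mem_univ j)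
  linarith

end Vale.Agent.P074
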